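import Vale.Agent.P153.FKG.AbsH

/-! P153, module FKG: the order given by the distance to a half-integer level. -/

open Set

noncomputable section
namespace Vale.Agent.P153

open Classical

variable {S : Set Cfg} {U U' P P' F D : Set V} {C C' : V → Set ℤ} {j ε : ℤ} {s : V → ℤ}

theorem allLip_OmA : AllLip (OmA j s C P) := fun _ h => h.1

theorem finite_OmA (hs : ∀ x, s x = 1 ∨ s x = -1) (hU : U.Finite) (a : V → ℤ)
    (h : ∀ x, x ∉ U → x ∈ P ∧ C x ⊆ {a x}) : (OmA j s C P).Finite := by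
  refine (finite_pin hU fun x => j + (1 + s x * a x) / 2).subset fun H hH => ⟨hH.1, fun x hx => ?_⟩
  have h1 : |2 * (H x - j) - 1| = a x := (h x hx).2 (hH.2.1 x)
  have h2 := hH.2.2 x (h x hx).1
  rcases hs x with e | e <;> rw [e] at h2 ⊢ <;> rcases abs_cases (2 * (H x - j) - 1) with e' | e' <;>
    omega

theorem sd_A (hs : ∀ x, s x = 1 ∨ s x = -1) (hε : ε = 1 ∨ ε = -1) (hP : Pᶜ.Finite)
    (hP' : P'ᶜ.Finite)
    (hC : ∀ x, ∀ a ∈ C x, ∀ b ∈ C' x, 1 ≤ a → 1 ≤ b → min a b ∈ C x ∧ max a b ∈ C' x)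
    (hiso : ∀ x ∈ P, x ∉ P' → C x ⊆ {1} ∧ ∀ y, Adj x y → C y ⊆ {1})
    (hS : Good (OmA j s C P)) (hT : Good (OmA j (fun _ => ε) C' P')) :
    SD (ab j) (OmA j s C P) (OmA j (fun _ => ε) C' P') :=
  (hol_A hs hε hP hP' hC hiso).sd hS hT allLip_OmA allLip_OmA

theorem pa_A (hε : ε = 1 ∨ ε = -1) (hP : Pᶜ.Finite) (hS : Good (OmA j (fun _ => ε) C P)) :
    PA (ab j) (OmA j (fun _ => ε) C P) := by
  refine (hol_A (fun _ => hε) hε hP hP (fun x a ha b hb _ _ => ?_)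
    fun x hx hx' => absurd hx hx').pa hS allLip_OmA
  rcases le_total a b with h | h
  · rw [min_eq_left h, max_eq_right h]; exact ⟨ha, hb⟩
  · rw [min_eq_right h, max_eq_left h]; exact ⟨hb, ha⟩

/-- Bands with walls. -/
theorem Abs_wall (U D : Set V) (j : ℤ) : free U j ∩ {H | ∀ x ∈ D, ab j H x = 1} =
    OmA j (fun _ => -1) (fun x => if x ∈ (U \ ibd U) \ D then univ else {1}) Uᶜ := by
  ext H
  refine ⟨fun ⟨⟨h1, h2, h3⟩, h4⟩ => ⟨h1, fun x => ?_, fun x hx => ?_⟩,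
    fun ⟨h1, h2, h3⟩ => ⟨⟨h1, fun x hx => ?_, fun x hx => ?_⟩, fun x hx => ?_⟩⟩
  · beta_reduce
    split_ifs with h
    · trivial
    · by_cases hU : x ∈ U
      · by_cases hi : x ∈ ibd U
        · exact ab_eq_one.2 (h3 x hi)
        · exact h4 x (by_contra fun hD => h ⟨⟨hU, hi⟩, hD⟩)
      · exact ab_eq_one.2 (Or.inl (h2 x hU))
  · have := h2 x hx
    show 0 < -1 * (2 * (H x - j) - 1)
    omega
  · have h4 := h2 x
    beta_reduce at h4
    rw [if_neg fun h : x ∈ (U \ ibd U) \ D => hx h.1.1] at h4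
    have h5 := ab_eq_one.1 h4
    have h6 : 0 < -1 * (2 * (H x - j) - 1) := h3 x hx
    omega
  · have h4 := h2 x
    beta_reduce at h4
    rw [if_neg fun h : x ∈ (U \ ibd U) \ D => h.1.2 hx] at h4
    exact ab_eq_one.1 h4
  · have h4 := h2 x
    beta_reduce at h4
    rw [if_neg fun h : x ∈ (U \ ibd U) \ D => h.2 hx] at h4
    exact h4

theorem free_eq_OmA (U : Set V) (j : ℤ) :
    free U j = OmA j (fun _ => -1) (fun x => if x ∈ U \ ibd U then univ else {1}) Uᶜ := by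
  have h := Abs_wall U ∅ j
  simpa using h

/-- Flat conditions at any level. -/
theorem Abs_flat (U : Set V) {j m ε a : ℤ} (h : ε = 1 ∧ j < m ∨ ε = -1 ∧ m ≤ j)
    (ha : a = |2 * (m - j) - 1|) :
    flat U m = OmA j (fun _ => ε) (fun x => if x ∈ U then univ else {a}) Uᶜ := by
  ext H
  refine ⟨fun ⟨h1, h2⟩ => ⟨h1, fun x => ?_, fun x hx => ?_⟩,
    fun ⟨h1, h2, h3⟩ => ⟨h1, fun x hx => ?_⟩⟩
  · beta_reduce
    split_ifs with hx
    · trivial
    · show |2 * (H x - j) - 1| = a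
      rw [h2 x hx, ha]
  · have := h2 x hx
    show 0 < ε * (2 * (H x - j) - 1)
    rcases h with ⟨rfl, h⟩ | ⟨rfl, h⟩ <;> omega
  · have h4 := h2 x
    beta_reduce at h4
    rw [if_neg hx] at h4
    have h5 : |2 * (H x - j) - 1| = a := h4
    have h6 : 0 < ε * (2 * (H x - j) - 1) := h3 x hx
    rcases h with ⟨rfl, h⟩ | ⟨rfl, h⟩ <;> rcases abs_cases (2 * (H x - j) - 1) with e | e <;>
      rcases abs_cases (2 * (m - j) - 1) with e' | e' <;> omega

theorem Abs_flat' (U : Set V) (j m : ℤ) : ∃ ε : ℤ, (ε = 1 ∨ ε = -1) ∧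
    flat U m = OmA j (fun _ => ε) (fun x => if x ∈ U then univ else {|2 * (m - j) - 1|}) Uᶜ := by
  rcases lt_or_ge j m with h | h
  · exact ⟨1, Or.inl rfl, Abs_flat U (Or.inl ⟨rfl, h⟩) rfl⟩
  · exact ⟨-1, Or.inr rfl, Abs_flat U (Or.inr ⟨rfl, h⟩) rfl⟩

theorem flat_eq_OmA (U : Set V) (j : ℤ) (M : ℕ) :
    flat U (j + 1 + M) =
      OmA j (fun _ => 1) (fun x => if x ∈ U then univ else {2 * (M : ℤ) + 1}) Uᶜ ∧
    flat U (j - M) =
      OmA j (fun _ => -1) (fun x => if x ∈ U then univ else {2 * (M : ℤ) + 1}) Uᶜ := by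
  refine ⟨Abs_flat U (Or.inl ⟨rfl, by omega⟩) ?_, Abs_flat U (Or.inr ⟨rfl, by omega⟩) ?_⟩
  · rcases abs_cases (2 * (j + 1 + M - j) - 1) with e | e <;> omega
  · rcases abs_cases (2 * (j - M - j) - 1) with e | e <;> omega

/-- Arbitrary pinned values outside `U`, and walls `D` on which `ab j = 1`. -/
theorem pin_eq_OmA (U D : Set V) (j : ℤ) (ξ : Cfg) (hD : D ⊆ U) :
    {H | Lip H ∧ (∀ x, x ∉ U → H x = ξ x) ∧ ∀ x ∈ D, ab j H x = 1} =
      OmA j (fun x => if j < ξ x then 1 else -1)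
        (fun x => if x ∈ U then (if x ∈ D then {1} else univ) else {ab j ξ x}) Uᶜ := by
  ext H
  refine ⟨fun ⟨h1, h2, h3⟩ => ⟨h1, fun x => ?_, fun x hx => ?_⟩,
    fun ⟨h1, h2, h3⟩ => ⟨h1, fun x hx => ?_, fun x hx => ?_⟩⟩
  · beta_reduce
    split_ifs with hx hx'
    · exact h3 x hx'
    · trivial
    · show |2 * (H x - j) - 1| = |2 * (ξ x - j) - 1|
      rw [h2 x hx]
  · have := h2 x hx
    show 0 < (if j < ξ x then 1 else -1) * (2 * (H x - j) - 1)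
    split_ifs <;> omega
  · have h4 := h2 x
    beta_reduce at h4
    rw [if_neg hx] at h4
    have h5 : |2 * (H x - j) - 1| = |2 * (ξ x - j) - 1| := h4
    have h6 : 0 < (if j < ξ x then 1 else -1) * (2 * (H x - j) - 1) := h3 x hx
    split_ifs at h6 <;> rcases abs_cases (2 * (H x - j) - 1) with e | e <;>
      rcases abs_cases (2 * (ξ x - j) - 1) with e' | e' <;> omega
  · have h4 := h2 x
    beta_reduce at h4
    rw [if_pos (hD hx), if_pos hx] at h4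
    exact h4

theorem Abs_cc (hU : U.Finite) : Uᶜᶜ.Finite := by rwa [compl_compl]

theorem paA_free (hU : U.Finite) (j : ℤ) : PA (ab j) (free U j) := by
  have h := good_free hU j
  rw [free_eq_OmA] at h ⊢
  exact pa_A (Or.inr rfl) (Abs_cc hU) h

theorem paA_flat (hU : U.Finite) (j m : ℤ) : PA (ab j) (flat U m) := by
  have h := good_flat hU m
  obtain ⟨ε, hε, e⟩ := Abs_flat' U j m
  rw [e] at h ⊢
  exact pa_A hε (Abs_cc hU) h

/-- Bands with extra walls. -/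
theorem paA_free_wall (hU : U.Finite) (j : ℤ) (D : Set V) :
    PA (ab j) (free U j ∩ {H | ∀ x ∈ D, ab j H x = 1}) := by
  have h : Good (free U j ∩ {H | ∀ x ∈ D, ab j H x = 1}) :=
    ⟨(good_free hU j).1.inter_of_left _, fun _ => j,
      ⟨lip_const j, fun _ _ => rfl, fun _ _ => Or.inl rfl⟩, fun _ _ => ab_eq_one.2 (Or.inl rfl)⟩
  rw [Abs_wall] at h ⊢
  exact pa_A (Or.inr rfl) (Abs_cc hU) h

/-- The lattice condition at a site where the lower constraint is `{1}`. -/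
theorem Abs_one {a b : ℤ} {T : Set ℤ} (ha : a ∈ ({1} : Set ℤ)) (hb : b ∈ T) (h : 1 ≤ b) :
    min a b ∈ ({1} : Set ℤ) ∧ max a b ∈ T := by
  obtain rfl : a = 1 := ha
  rw [min_eq_left h, max_eq_right h]
  exact ⟨rfl, hb⟩

/-- Monotonicity in the domain. -/
theorem sdA_free (hU : U'.Finite) (h : U ⊆ U') (j : ℤ) : SD (ab j) (free U j) (free U' j) := by
  have h1 := good_free (hU.subset h) j
  have h2 := good_free hU j
  rw [free_eq_OmA] at h1 h2
  rw [free_eq_OmA U, free_eq_OmA U']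
  refine sd_A (fun _ => Or.inr rfl) (Or.inr rfl) (Abs_cc (hU.subset h)) (Abs_cc hU)
    (fun x a ha b hb _ hb1 => ?_) (fun x hx _ => ⟨?_, fun y hy => ?_⟩) h1 h2
  · by_cases hx : x ∈ U \ ibd U
    · have hx' : x ∈ U' \ ibd U' :=
        ⟨h hx.1, fun ⟨_, y, hy, e⟩ => hx.2 ⟨hx.1, y, fun hy' => hy (h hy'), e⟩⟩
      simp only [if_pos hx, if_pos hx', mem_univ, and_self]
    · simp only [if_neg hx] at ha ⊢
      exact Abs_one ha hb hb1
  · simp only [if_neg fun h' : x ∈ U \ ibd U => hx h'.1, subset_refl]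
  · simp only [if_neg fun h' : y ∈ U \ ibd U => h'.2 ⟨h'.1, x, hx, hy.symm⟩, subset_refl]

/-- Band below wired. -/
theorem sdA_free_flat (hU : U.Finite) (j m : ℤ) : SD (ab j) (free U j) (flat U m) := by
  have h1 := good_free hU j
  have h2 := good_flat hU m
  obtain ⟨ε, hε, e⟩ := Abs_flat' U j m
  rw [free_eq_OmA] at h1 ⊢
  rw [e] at h2 ⊢
  refine sd_A (fun _ => Or.inr rfl) hε (Abs_cc hU) (Abs_cc hU)
    (fun x a ha b hb _ hb1 => ?_) (fun x hx hx' => absurd hx hx') h1 h2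
  by_cases hx : x ∈ U \ ibd U
  · simp only [if_pos hx, if_pos hx.1, mem_univ, and_self]
  · simp only [if_neg hx] at ha ⊢
    exact Abs_one ha hb hb1

theorem sdA_flat (hU : U.Finite) {j m m' : ℤ} (h : |2 * (m - j) - 1| ≤ |2 * (m' - j) - 1|) :
    SD (ab j) (flat U m) (flat U m') := by
  have h1 := good_flat hU m
  have h2 := good_flat hU m'
  obtain ⟨ε, hε, e⟩ := Abs_flat' U j m
  obtain ⟨ε', hε', e'⟩ := Abs_flat' U j m'
  rw [e] at h1
  rw [e'] at h2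
  rw [e, e']
  refine sd_A (fun _ => hε) hε' (Abs_cc hU) (Abs_cc hU)
    (fun x a ha b hb _ _ => ?_) (fun x hx hx' => absurd hx hx') h1 h2
  by_cases hx : x ∈ U
  · simp only [if_pos hx, mem_univ, and_self]
  · simp only [if_neg hx, mem_singleton_iff] at ha hb ⊢
    rw [ha, hb, min_eq_left h, max_eq_right h]
    exact ⟨rfl, rfl⟩

theorem Abs_dob (F P : Set V) : dob F P =
    OmA 0 (fun x => if x ∈ P then 1 else -1) (fun x => if x ∈ F then univ else {1}) Fᶜ := by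
  ext H
  refine ⟨fun ⟨h1, h2⟩ => ⟨h1, fun x => ?_, fun x hx => ?_⟩,
    fun ⟨h1, h2, h3⟩ => ⟨h1, fun x hx => ?_⟩⟩
  · beta_reduce
    split_ifs with hx
    · trivial
    · by_cases hP : x ∈ P
      · exact ab_eq_one.2 (Or.inr ((h2 x hx).1 hP))
      · exact ab_eq_one.2 (Or.inl ((h2 x hx).2 hP))
  · show 0 < (if x ∈ P then 1 else -1) * (2 * (H x - 0) - 1)
    split_ifs with hP
    · have := (h2 x hx).1 hP
      omega
    · have := (h2 x hx).2 hP
      omega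
  · have h4 := h2 x
    beta_reduce at h4
    rw [if_neg hx] at h4
    have h5 := ab_eq_one.1 h4
    have h6 : 0 < (if x ∈ P then 1 else -1) * (2 * (H x - 0) - 1) := h3 x hx
    refine ⟨fun hP => ?_, fun hP => ?_⟩
    · rw [if_pos hP] at h6
      omega
    · rw [if_neg hP] at h6
      omega

theorem Abs_sd_dob (hF : F.Finite) (P : Set V) (m : ℤ) : SD (ab 0) (dob F P) (flat F m) := by
  have h1 := good_dob hF P
  have h2 := good_flat hF m
  obtain ⟨ε, hε, e⟩ := Abs_flat' F 0 m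
  rw [Abs_dob] at h1 ⊢
  rw [e] at h2 ⊢
  refine sd_A (fun x => ?_) hε (Abs_cc hF) (Abs_cc hF)
    (fun x a ha b hb _ hb1 => ?_) (fun x hx hx' => absurd hx hx') h1 h2
  · by_cases hx : x ∈ P
    · exact Or.inl (if_pos hx)
    · exact Or.inr (if_neg hx)
  · by_cases hx : x ∈ F
    · simp only [if_pos hx, mem_univ, and_self]
    · simp only [if_neg hx] at ha hb ⊢
      exact Abs_one ha hb hb1

theorem sdA_dob (hF : F.Finite) (P : Set V) :
    SD (ab 0) (dob F P) (flat F 1) ∧ SD (ab 0) (dob F P) (flat F 0) :=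
  ⟨Abs_sd_dob hF P 1, Abs_sd_dob hF P 0⟩

/-- Pinned values and walls. -/
def Abs_Q (U D : Set V) (j : ℤ) (ξ : Cfg) : Set Cfg :=
  {H | Lip H ∧ (∀ x, x ∉ U → H x = ξ x) ∧ ∀ x ∈ D, ab j H x = 1}

theorem Abs_good (hU : U.Finite) {ξ : Cfg} (hl : Lip ξ) (h : ∀ x ∈ D, ab j ξ x = 1) :
    Good (Abs_Q U D j ξ) :=
  ⟨(finite_pin hU ξ).subset fun _ hH => ⟨hH.1, hH.2.1⟩, ξ, hl, fun _ _ => rfl, h⟩

theorem Abs_pw (hD : D ⊆ U) {ξ ξ' H K : Cfg} (e : ∀ x ∈ obd U, ξ x = ξ' x)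
    (hH : H ∈ Abs_Q U D j ξ) (hK : K ∈ Abs_Q U D j ξ') : pw U K H ∈ Abs_Q U D j ξ := by
  refine ⟨hK.1.pw hH.1 fun a ha b hb hab => ?_, fun x hx => ?_, fun x hx => ?_⟩
  · rw [hH.2.1 b hb, e b ⟨hb, a, ha, hab.symm⟩, ← hK.2.1 b hb]
    exact hK.1 a b hab
  · rw [pw_out _ _ hx, hH.2.1 x hx]
  · have h := hK.2.2 x hx
    unfold ab at h ⊢
    rwa [pw_in _ _ (hD hx)]

theorem Abs_sd_Q (hU : U.Finite) (hD : D ⊆ U) (M : ℕ) {ξ : Cfg} (hg : Good (Abs_Q U D j ξ))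
    (hb : ∀ x, ab j ξ x ≤ 2 * M + 1) : SD (ab j) (Abs_Q U D j ξ) (flat U (j + 1 + M)) := by
  have h2 := good_flat hU (j + 1 + M)
  unfold Abs_Q at hg ⊢
  rw [pin_eq_OmA U D j ξ hD] at hg ⊢
  rw [(flat_eq_OmA U j M).1] at h2 ⊢
  refine sd_A (fun x => ?_) (Or.inl rfl) (Abs_cc hU) (Abs_cc hU)
    (fun x a ha b hb' _ hb1 => ?_) (fun x hx hx' => absurd hx hx') hg h2
  · by_cases hx : j < ξ x
    · exact Or.inl (if_pos hx)
    · exact Or.inr (if_neg hx)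
  · by_cases hx : x ∈ U
    · by_cases hx' : x ∈ D
      · simp only [if_pos hx, if_pos hx'] at ha hb' ⊢
        exact Abs_one ha hb' hb1
      · simp only [if_pos hx, if_neg hx', mem_univ, and_self]
    · simp only [if_neg hx, mem_singleton_iff] at ha hb' ⊢
      rw [ha, hb', min_eq_left (hb x), max_eq_right (hb x)]
      exact ⟨rfl, rfl⟩

/-- Truncation of the pinned values. -/
def Abs_cut (j : ℤ) (M : ℕ) (ξ : Cfg) : Cfg := (ξ ⊓ fun _ => j + 1 + M) ⊔ fun _ => j - M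

theorem Abs_cut_apply (j : ℤ) (M : ℕ) (ξ : Cfg) (x : V) :
    Abs_cut j M ξ x = max (min (ξ x) (j + 1 + M)) (j - M) := rfl

theorem Abs_cut_eq {M : ℕ} {ξ : Cfg} {x : V} (h : ab j ξ x ≤ 2 * M + 1) :
    ξ x = Abs_cut j M ξ x := by
  have h1 : |2 * (ξ x - j) - 1| ≤ 2 * M + 1 := h
  rw [Abs_cut_apply]
  rcases abs_cases (2 * (ξ x - j) - 1) with e | e <;> omega

theorem Abs_cut_le (j : ℤ) (M : ℕ) (ξ : Cfg) (x : V) : ab j (Abs_cut j M ξ) x ≤ 2 * M + 1 := by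
  show |2 * (Abs_cut j M ξ x - j) - 1| ≤ 2 * M + 1
  rw [Abs_cut_apply, abs_le]
  omega

/-- Bounded pinned values of any signs, walls allowed: below the flat condition. -/
theorem sdA_bdd (hU : U.Finite) (hD : D ⊆ U) (M : ℕ) (hS : Good S) (hl : AllLip S)
    (h1 : ∀ H ∈ S, (∀ x ∈ obd U, ab j H x ≤ 2 * M + 1) ∧ ∀ x ∈ D, ab j H x = 1)
    (h2 : ∀ H ∈ S, ∀ K, Lip K → (∀ x, x ∉ U → K x = H x) → (∀ x ∈ D, ab j K x = 1) → K ∈ S) :
    SD (fun H (x : U) => ab j H x) S (flat U (j + 1 + M)) := by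
  intro f hf
  have t := tower_stop (S := S) (R := fun _ => Uᶜ) (fun _ _ _ _ _ => rfl) f (fun _ => 1)
    fun _ _ _ _ _ => rfl
  simp only [one_mul] at t
  rw [show Ex S f = Ex S fun H => f H from rfl, t]
  refine Ex_le hS fun ξ hξ => ?_
  have e1 : pin S Uᶜ ξ = Abs_Q U D j ξ := by
    ext H
    exact ⟨fun hH => ⟨hl H hH.1, hH.2, (h1 H hH.1).2⟩,
      fun hH => ⟨h2 ξ hξ H hH.1 hH.2.1 hH.2.2, hH.2.1⟩⟩
  have e2 : ∀ x ∈ obd U, ξ x = Abs_cut j M ξ x := fun x hx => Abs_cut_eq ((h1 ξ hξ).1 x hx)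
  have g1 : Good (Abs_Q U D j ξ) := Abs_good hU (hl ξ hξ) (h1 ξ hξ).2
  have g2 : Good (Abs_Q U D j (Abs_cut j M ξ)) := by
    refine Abs_good hU (((hl ξ hξ).inf (lip_const _)).sup (lip_const _)) fun x hx => ?_
    have h3 := (h1 ξ hξ).2 x hx
    have h4 : ξ x = Abs_cut j M ξ x := Abs_cut_eq (by omega)
    unfold ab at h3 ⊢
    rwa [← h4]
  have e3 : Ex (Abs_Q U D j ξ) f = Ex (Abs_Q U D j (Abs_cut j M ξ)) f := by
    refine Ex_local (U := U) g1 g2 (fun H hH K hK =>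
      ⟨Abs_pw hD e2 hH hK, Abs_pw hD (fun x hx => (e2 x hx).symm) hK hH⟩) fun H hH K hK e => ?_
    have e4 : (fun x : U => ab j H x) = fun x : U => ab j K x := funext fun x => by
      unfold ab
      rw [e x x.2]
    exact le_antisymm (hf H K hH.1 hK.1 e4.le) (hf K H hK.1 hH.1 e4.ge)
  rw [e1, e3]
  exact (Abs_sd_Q hU hD M g2 (Abs_cut_le j M ξ)).coarse (π' := fun H (x : U) => ab j H x)
    (fun H K _ _ h (x : U) => h x.1) f hf

end Vale.Agent.P153
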