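import Vale.Agent.P153.FKG.Dom

/-! P153, module FKG: the Holley condition for the distance to a half-integer level. -/

open Set

noncomputable section
namespace Vale.Agent.P153

variable {P P' : Set V} {C C' : V → Set ℤ} {j ε : ℤ} {s : V → ℤ}

/-- Sign changes compatible with `a`. -/
def GA (P : Set V) (a : Cfg) : AddSubgroup (V → ZMod 2) where
  carrier := {τ | (∀ x ∈ P, τ x = 0) ∧ ∀ x y, Adj x y → 3 ≤ a x ∨ 3 ≤ a y → τ x = τ y}
  zero_mem' := ⟨fun _ _ => rfl, fun _ _ _ _ => rfl⟩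
  add_mem' := fun {u v} hu hv => ⟨fun x h => by simp [hu.1 x h, hv.1 x h], fun x y h h' => by
    simp [hu.2 x y h h', hv.2 x y h h']⟩
  neg_mem' := fun {u} hu => ⟨fun x h => by simp [hu.1 x h], fun x y h h' => by
    simp [hu.2 x y h h']⟩

/-- Functions supported on `I`. -/
def GI (I : Set V) : AddSubgroup (V → ZMod 2) where
  carrier := {τ | ∀ x ∈ Iᶜ, τ x = 0}
  zero_mem' := fun _ _ => rfl
  add_mem' := fun {u v} hu hv x h => by simp [hu x h, hv x h]
  neg_mem' := fun {u} hu x h => by simp [hu x h]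

theorem absH_fin {Q : Set V} (hQ : Qᶜ.Finite) (G : AddSubgroup (V → ZMod 2))
    (h : ∀ τ ∈ G, ∀ x ∈ Q, τ x = 0) : Finite G := by
  have := hQ.to_subtype
  refine Finite.of_injective (fun (τ : G) (x : ↥Qᶜ) => τ.1 x) fun τ τ' e =>
    Subtype.ext (funext fun x => ?_)
  by_cases hx : x ∈ Q
  · rw [h _ τ.2 x hx, h _ τ'.2 x hx]
  · exact congrFun e ⟨x, hx⟩

theorem absH_split {c : Cfg}
    (h : ∀ x ∈ P, x ∉ P' → ¬ 3 ≤ c x ∧ ∀ y, Adj x y → ¬ 3 ≤ c y) :
    Nat.card (GA P c) * Nat.card (GI (P \ P')) = Nat.card (GA (P ∩ P') c) := by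
  have e1 : GA P c ⊓ GI (P \ P') = ⊥ := by
    refine eq_bot_iff.2 fun τ hτ => funext fun x => ?_
    by_cases hx : x ∈ P
    · exact hτ.1.1 x hx
    · exact hτ.2 x fun h' => hx h'.1
  have k : ∀ τ ∈ GI (P \ P'), τ ∈ GA (P ∩ P') c := fun τ hτ =>
    ⟨fun x hx => hτ x fun h' => h'.2 hx.2, fun x y a b => by
      rw [hτ x fun h' => ?_, hτ y fun h' => ?_]
      · exact b.elim ((h y h'.1 h'.2).2 x a.symm) (h y h'.1 h'.2).1
      · exact b.elim (h x h'.1 h'.2).1 ((h x h'.1 h'.2).2 y a)⟩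
  have e2 : GA P c ⊔ GI (P \ P') = GA (P ∩ P') c := by
    refine le_antisymm (sup_le (fun τ hτ => ⟨fun x hx => hτ.1 x hx.1, hτ.2⟩) k) fun τ hτ => ?_
    have m : pw (P \ P') τ 0 ∈ GI (P \ P') := fun x hx => pw_out _ _ hx
    refine AddSubgroup.mem_sup.2 ⟨τ - pw (P \ P') τ 0, ⟨fun x hx => ?_,
      (sub_mem hτ (k _ m)).2⟩, _, m, sub_add_cancel _ _⟩
    by_cases h' : x ∈ P'
    · exact (sub_mem hτ (k _ m)).1 x ⟨hx, h'⟩
    · rw [Pi.sub_apply, pw_in _ _ (show x ∈ P \ P' from ⟨hx, h'⟩), sub_self]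
  rw [card_sup_mul_inf, e1, e2, AddSubgroup.card_bot, mul_one]

theorem absH_group {a b : Cfg} (hP : Pᶜ.Finite) (hP' : P'ᶜ.Finite)
    (h : ∀ x ∈ P, x ∉ P' → ¬ 3 ≤ a x ∧ ∀ y, Adj x y → ¬ 3 ≤ a y) :
    Nat.card (GA P a) * Nat.card (GA P' b) ≤
      Nat.card (GA P (a ⊓ b)) * Nat.card (GA P' (a ⊔ b)) := by
  have : Finite (GI (P \ P')) :=
    absH_fin (Q := (P \ P')ᶜ) (hP'.subset fun x hx => (not_not.1 hx).2) _ fun τ hτ => hτ
  have : Finite (GA (P ∩ P') (a ⊓ b)) :=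
    absH_fin (by rw [compl_inter]; exact hP.union hP') _ fun τ hτ => hτ.1
  have : Finite (GA P' (a ⊔ b)) := absH_fin hP' _ fun τ hτ => hτ.1
  have e1 := absH_split h
  have e2 := absH_split (P := P) (P' := P') (c := a ⊓ b) fun x h1 h2 =>
    ⟨fun h3 => (h x h1 h2).1 (h3.trans (min_le_left _ _)),
      fun y hy h3 => (h x h1 h2).2 y hy (h3.trans (min_le_left _ _))⟩
  have k : Nat.card (GA (P ∩ P') a) * Nat.card (GA P' b) ≤
      Nat.card (GA (P ∩ P') (a ⊓ b)) * Nat.card (GA P' (a ⊔ b)) := by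
    refine card_mul_card_le (sup_le (fun τ hτ => ⟨hτ.1, fun x y u v => hτ.2 x y u ?_⟩)
      fun τ hτ => ⟨fun x hx => hτ.1 x hx.2, fun x y u v => hτ.2 x y u ?_⟩)
      fun τ hτ => ⟨hτ.2.1, fun x y u v => ?_⟩
    · rw [inf_ap, inf_ap] at v; omega
    · rw [inf_ap, inf_ap] at v; omega
    · rw [sup_ap, sup_ap] at v
      by_cases h1 : 3 ≤ a x ∨ 3 ≤ a y
      · exact hτ.1.2 x y u h1
      · exact hτ.2.2 x y u (by omega)
  rw [← e1, ← e2] at k
  refine Nat.le_of_mul_le_mul_left ?_ (Nat.card_pos (α := GI (P \ P')))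
  calc _ = Nat.card (GA P a) * Nat.card (GI (P \ P')) * Nat.card (GA P' b) := by ring
    _ ≤ _ := k
    _ = _ := by ring

theorem absH_fb (hs : ∀ x, s x = 1 ∨ s x = -1) {H₀ : Cfg} (h0 : H₀ ∈ OmA j s C P) :
    fb (ab j) (OmA j s C P) (ab j H₀) = Nat.card (GA P (ab j H₀)) := by
  classical
  have two : ∀ H : Cfg, ab j H = ab j H₀ → ∀ x, H x = H₀ x ∨ H x = 2 * j + 1 - H₀ x := by
    intro H e x
    have := congrFun e x
    simp only [ab, abs_eq_max_neg] at this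
    omega
  have z : ∀ t : ZMod 2, t ≠ 0 → t = 1 := by decide
  rw [fb, ← Nat.card_coe_set_eq]
  refine Nat.card_congr (Equiv.ofBijective
    (fun H => ⟨fun x => if H.1 x = H₀ x then 0 else 1, fun x hx => if_pos ?_, fun x y u v => ?_⟩)
    ⟨fun H K e => Subtype.ext (funext fun x => ?_), fun τ => ?_⟩)
  · have a := H.2.1.2.2 x hx
    have b := h0.2.2 x hx
    rcases two H.1 H.2.2 x with e | e
    · exact e
    · rcases hs x with t | t <;> rw [t] at a b <;> omega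
  · have a := abs_le.1 (H.2.1.1 x y u)
    have b := abs_le.1 (h0.1 x y u)
    have c := two H.1 H.2.2 x
    have d := two H.1 H.2.2 y
    simp only [ab, abs_eq_max_neg] at v
    exact if_congr (by omega) rfl rfl
  · have a := congrFun (congrArg Subtype.val e) x
    have c := two H.1 H.2.2 x
    have d := two K.1 K.2.2 x
    simp only at a
    split_ifs at a with h1 h2 h2
    · rw [h1, h2]
    · exact absurd a (by decide)
    · exact absurd a (by decide)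
    · omega
  · have sh : Shut j {x | τ.1 x ≠ 0} H₀ := fun a ha b hb u => by
      have : ¬ (3 ≤ ab j H₀ a ∨ 3 ≤ ab j H₀ b) := fun v =>
        ha ((τ.2.2 a b u v).trans (not_not.1 hb))
      exact ⟨ab_ne_one.1 fun v => this (Or.inl v), ab_ne_one.1 fun v => this (Or.inr v)⟩
    refine ⟨⟨flipOn j {x | τ.1 x ≠ 0} H₀, ⟨h0.1.flipOn sh, fun x => ?_, fun x hx => ?_⟩,
      ab_flipOn _ _ _⟩, Subtype.ext (funext fun x => ?_)⟩
    · rw [ab_flipOn]; exact h0.2.1 x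
    · rw [flipOn, pw_out _ _ (not_not.2 (τ.2.1 x hx))]
      exact h0.2.2 x hx
    · by_cases h1 : τ.1 x = 0
      · simp only [flipOn, pw_out _ _ (show x ∉ {x | τ.1 x ≠ 0} from not_not.2 h1), if_true, h1]
      · simp only [flipOn, pw_in _ _ (show x ∈ {x | τ.1 x ≠ 0} from h1), z _ h1]
        exact if_neg (by omega)

theorem absH_flip {H : Cfg} (h : Lip H) (j : ℤ) : Lip fun x => 2 * j + 1 - H x := fun x y u => by
  have := abs_le.1 (h x y u)
  simp only [abs_le]; omega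

/-- Holley condition: the lower measure may have both signs on its pinned sites. -/
theorem hol_A (hs : ∀ x, s x = 1 ∨ s x = -1) (hε : ε = 1 ∨ ε = -1) (hP : Pᶜ.Finite)
    (hP' : P'ᶜ.Finite)
    (hC : ∀ x, ∀ a ∈ C x, ∀ b ∈ C' x, 1 ≤ a → 1 ≤ b → min a b ∈ C x ∧ max a b ∈ C' x)
    (hiso : ∀ x ∈ P, x ∉ P' → C x ⊆ {1} ∧ ∀ y, Adj x y → C y ⊆ {1}) :
    Hol (ab j) (OmA j s C P) (OmA j (fun _ => ε) C' P') := by
  intro a b
  rcases (OmA j s C P ∩ {H | ab j H = a}).eq_empty_or_nonempty with e | ⟨H, hH, rfl⟩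
  · simp [fb, e]
  rcases (OmA j (fun _ => ε) C' P' ∩ {H | ab j H = b}).eq_empty_or_nonempty with e | ⟨K, hK, rfl⟩
  · simp [fb, e]
  have c := fun x => hC x _ (hH.2.1 x) _ (hK.2.1 x) (one_le_ab j H x) (one_le_ab j K x)
  have fH := absH_flip hH.1 j
  have fK := absH_flip hK.1 j
  obtain ⟨H', h1, e1⟩ : ∃ H' ∈ OmA j s C P, ab j H' = ab j H ⊓ ab j K := by
    have e : ab j ((H ⊓ (K ⊔ fun x => 2 * j + 1 - K x)) ⊔ (K ⊓ fun x => 2 * j + 1 - K x)) =
        ab j H ⊓ ab j K := by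
      funext x
      simp only [ab, inf_ap, sup_ap, abs_eq_max_neg]
      omega
    refine ⟨_, ⟨(hH.1.inf (hK.1.sup fK)).sup (hK.1.inf fK), fun x => ?_, fun x hx => ?_⟩, e⟩
    · rw [e]; exact (c x).1
    · have := hH.2.2 x hx
      simp only [inf_ap, sup_ap]
      rcases hs x with t | t <;> rw [t] at this ⊢ <;> omega
  obtain ⟨K', h2, e2⟩ : ∃ K' ∈ OmA j (fun _ => ε) C' P', ab j K' = ab j H ⊔ ab j K := by
    rcases hε with rfl | rfl
    · have e : ab j ((H ⊔ fun x => 2 * j + 1 - H x) ⊔ (K ⊔ fun x => 2 * j + 1 - K x)) =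
          ab j H ⊔ ab j K := by
        funext x
        simp only [ab, sup_ap, abs_eq_max_neg]
        omega
      refine ⟨_, ⟨(hH.1.sup fH).sup (hK.1.sup fK), fun x => ?_, fun x _ => ?_⟩, e⟩
      · rw [e]; exact (c x).2
      · simp only [sup_ap]; omega
    · have e : ab j ((H ⊓ fun x => 2 * j + 1 - H x) ⊓ (K ⊓ fun x => 2 * j + 1 - K x)) =
          ab j H ⊔ ab j K := by
        funext x
        simp only [ab, inf_ap, sup_ap, abs_eq_max_neg]
        omega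
      refine ⟨_, ⟨(hH.1.inf fH).inf (hK.1.inf fK), fun x => ?_, fun x _ => ?_⟩, e⟩
      · rw [e]; exact (c x).2
      · simp only [inf_ap]; omega
  have hε' : ∀ _ : V, ε = 1 ∨ ε = -1 := fun _ => hε
  rw [← e1, ← e2, absH_fb hs hH, absH_fb hε' hK, absH_fb hs h1, absH_fb hε' h2, e1, e2]
  refine absH_group hP hP' fun x u v => ⟨?_, fun y w => ?_⟩
  · rw [show ab j H x = 1 from (hiso x u v).1 (hH.2.1 x)]; omega
  · rw [show ab j H y = 1 from (hiso x u v).2 y w (hH.2.1 y)]; omega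

end Vale.Agent.P153
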