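import Vale.Agent.P153.FKG.Basic
import Vale.Agent.P153.Planar.Basic

/-! P153, module FKG: definitions. -/

open Set

noncomputable section
namespace Vale.Agent.P153

open Classical in
/-- `H` on `U`, `K` elsewhere. -/
def pw {α : Type} (U : Set V) (H K : V → α) : V → α := fun x => if x ∈ U then H x else K x

theorem pw_in {α : Type} {U : Set V} {x : V} (H K : V → α) (h : x ∈ U) : pw U H K x = H x :=
  if_pos h

theorem pw_out {α : Type} {U : Set V} {x : V} (H K : V → α) (h : x ∉ U) : pw U H K x = K x :=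
  if_neg h

/-- All configurations of `S` are Lipschitz. -/
def AllLip (S : Set Cfg) : Prop := ∀ H ∈ S, Lip H

/-- `S` consists of Lipschitz functions and puts no constraint on the sites of `B`. -/
def FreeIn (S : Set Cfg) (B : Set V) : Prop :=
  AllLip S ∧ ∀ H ∈ S, ∀ K, Lip K → (∀ x, x ∉ B → K x = H x) → K ∈ S

/-- `A` is connected. -/
def Cnn (A : Set V) : Prop := ∀ x ∈ A, ∀ y ∈ A, Conn (fun _ _ => True) A x y

/-- Action of a lattice symmetry, a sign and a shift. -/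
def hact (g : V ≃ V) (ε k : ℤ) (H : Cfg) : Cfg := fun x => ε * H (g.symm x) + k

/-! ### Orders -/

section order

variable {L : Type} [LE L]

/-- `f` is increasing in `π`. -/
def MonoBy (π : Cfg → L) (f : Cfg → ℝ) : Prop :=
  ∀ H K, Lip H → Lip K → π H ≤ π K → f H ≤ f K

/-- Increasing events. -/
def IncBy (π : Cfg → L) (E : Set Cfg) : Prop :=
  ∀ H K, Lip H → Lip K → π H ≤ π K → H ∈ E → K ∈ E

/-- Decreasing events. -/
def DecBy (π : Cfg → L) (E : Set Cfg) : Prop :=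
  ∀ H K, Lip H → Lip K → π H ≤ π K → K ∈ E → H ∈ E

/-- Stochastic domination in the order `π`. -/
def SD (π : Cfg → L) (S T : Set Cfg) : Prop := ∀ f, MonoBy π f → Ex S f ≤ Ex T f

/-- Positive association in the order `π`. -/
def PA (π : Cfg → L) (S : Set Cfg) : Prop :=
  ∀ f g, MonoBy π f → MonoBy π g → Ex S f * Ex S g ≤ Ex S fun H => f H * g H

end order

/-- The size of a fibre. -/
def fb {L : Type} (π : Cfg → L) (S : Set Cfg) (a : L) : ℕ := (S ∩ {H | π H = a}).ncard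

/-- The Holley condition. -/
def Hol {L : Type} [Lattice L] (π : Cfg → L) (S T : Set Cfg) : Prop :=
  ∀ a b, fb π S a * fb π T b ≤ fb π S (a ⊓ b) * fb π T (a ⊔ b)

/-- Distance to the half-integer `j + 1/2`, doubled: `1` iff `H x` is `j` or `j + 1`. -/
def ab (j : ℤ) (H : Cfg) : Cfg := fun x => |2 * (H x - j) - 1|

/-- Constraints on `ab j`, and the sign `s x` on `P` (`1`: above, `-1`: below). -/
def OmA (j : ℤ) (s : V → ℤ) (C : V → Set ℤ) (P : Set V) : Set Cfg :=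
  {H | Lip H ∧ (∀ x, ab j H x ∈ C x) ∧ ∀ x ∈ P, 0 < s x * (2 * (H x - j) - 1)}

/-- Reflection of the heights on `R` in the level `j + 1/2`. -/
def flipOn (j : ℤ) (R : Set V) (H : Cfg) : Cfg := pw R (fun x => 2 * j + 1 - H x) H

/-- Every edge leaving `R` has both heights in `{j, j+1}`. -/
def Shut (j : ℤ) (R : Set V) (H : Cfg) : Prop :=
  ∀ a ∈ R, ∀ b, b ∉ R → Adj a b → ab j H a = 1 ∧ ab j H b = 1

/-- The event `E` is decided by a hull inside `B` that is shut off by a double layer. -/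
def Conf (j : ℤ) (B : Set V) (hull : Cfg → Set V) (E : Set Cfg) : Prop :=
  ∀ H ∈ E, Lip H → hull H ⊆ B ∧ Shut j (hull H) H ∧
    ∀ K, Lip K → (∀ x ∈ hull H, K x = H x) → Shut j (hull H) K → K ∈ E ∧ hull K = hull H

/-- Exchange properties used in the ratio lemma. -/
structure Swp (j : ℤ) (S T : Set Cfg) (B : Set V) : Prop where
  lS : AllLip S
  lT : AllLip T
  s1 : ∀ H ∈ S, ∀ K ∈ T, ∀ R ⊆ B, Lip (pw R H K) → pw R H K ∈ T
  s2 : ∀ H ∈ S, ∀ K ∈ T, ∀ R ⊆ B, Shut j R K → Lip (pw R K H) → pw R K H ∈ S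
  s3 : ∃ r : Cfg, (∀ x, ab j r x = 1) ∧ ∀ K ∈ T, ∀ R ⊆ B, Lip (pw R r K) → pw R r K ∈ T

/-- The spin `sp j` is plus on `Pl`, minus on `Mi`, the other spin agrees along the wired edges
`W`, and the height at the base point is `b`. -/
def OmS (j : ℤ) (Pl Mi : Set V) (W : V → V → Prop) (x₀ : V) (b : ℤ) : Set Cfg :=
  {H | Lip H ∧ (∀ x ∈ Pl, x ∈ sp j H) ∧ (∀ x ∈ Mi, x ∉ sp j H) ∧
    (∀ x y, Adj x y → W x y → (x ∈ sp (j + 1) H ↔ y ∈ sp (j + 1) H)) ∧ H x₀ = b}

/-- `H` and `K` agree modulo 4 on `B`. -/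
def Eq4 (B : Set V) (H K : Cfg) : Prop := ∀ x ∈ B, (H x - K x) % 4 = 0

/-- `f` depends only on the heights modulo 4 on `B`. -/
def Dep4 {α : Type} (f : Cfg → α) (B : Set V) : Prop :=
  ∀ H K, Lip H → Lip K → Eq4 B H K → f H = f K

/-- All but finitely many edges are wired. -/
def Far (W : V → V → Prop) : Prop := ∃ U : Set V, U.Finite ∧ ∀ x y, x ∉ U → y ∉ U → W x y

/-- Potentials whose increments are supported on the edges `A`. -/
def Pot (A : V → V → Prop) : AddSubgroup (V → ZMod 2) where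
  carrier := {τ | τ 0 = 0 ∧ ∀ x y, Adj x y → ¬ A x y → τ x = τ y}
  zero_mem' := ⟨rfl, fun _ _ _ _ => rfl⟩
  add_mem' := fun {a b} ha hb => ⟨by simp [ha.1, hb.1], fun x y h h' => by
    simp [ha.2 x y h h', hb.2 x y h h']⟩
  neg_mem' := fun {a} ha => ⟨by simp [ha.1], fun x y h h' => by simp [ha.2 x y h h']⟩

/-! ### Explorations -/

/-- The sites reached from `St` through edges whose heights satisfy `Eb`. -/
def Rch (St : Set V) (Eb : ℤ → ℤ → Prop) (H : Cfg) : Set V :=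
  {x | ∃ y ∈ St, Conn (fun a b => Eb (H a) (H b)) univ y x}

/-- The configurations giving the same exploration as `H`. -/
def cell (S : Set Cfg) (St : Set V) (Eb : ℤ → ℤ → Prop) (H : Cfg) : Set Cfg :=
  {K | K ∈ S ∧ (∀ x ∈ Rch St Eb H, K x = H x) ∧
    ∀ a ∈ Rch St Eb H, ∀ b, b ∉ Rch St Eb H → Adj a b → ¬ Eb (H a) (K b)}

/-- Edges touching a height outside `{k, k+1}`. -/
def eA (k s t : ℤ) : Prop := 3 ≤ |2 * (s - k) - 1| ∨ 3 ≤ |2 * (t - k) - 1|

/-- Edges touching a height `≤ k`. -/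
def eLe (k s t : ℤ) : Prop := s ≤ k ∨ t ≤ k

/-- Edges touching a height `≥ k`. -/
def eGe (k s t : ℤ) : Prop := k ≤ s ∨ k ≤ t

/-- Edges touching a site where the spin `sp j` is plus. -/
def eS (j s t : ℤ) : Prop :=
  ((s - j) % 4 = 0 ∨ (s - j) % 4 = 1) ∨ ((t - j) % 4 = 0 ∨ (t - j) % 4 = 1)

theorem Rch_eA (St : Set V) (k : ℤ) (H : Cfg) :
    Rch St (eA k) H = {x | ∃ y ∈ St, Conn (star {z | 3 ≤ ab k H z}) univ y x} := rfl

theorem Rch_eLe (St : Set V) (k : ℤ) (H : Cfg) :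
    Rch St (eLe k) H = {x | ∃ y ∈ St, Conn (star (le k H)) univ y x} := rfl

theorem Rch_eGe (St : Set V) (k : ℤ) (H : Cfg) :
    Rch St (eGe k) H = {x | ∃ y ∈ St, Conn (star (ge k H)) univ y x} := rfl

theorem Rch_eS (St : Set V) (j : ℤ) (H : Cfg) :
    Rch St (eS j) H = {x | ∃ y ∈ St, Conn (star (sp j H)) univ y x} := rfl

end Vale.Agent.P153
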