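import Mathlib

/-! P153, module FKG: lattice-free counting lemmas. -/

open Finset
open scoped FinsetFamily

noncomputable section
namespace Vale.Agent.P153

theorem card_sup_mul_inf {X : Type} [AddCommGroup X] (G1 G2 : AddSubgroup X) :
    Nat.card G1 * Nat.card G2 = Nat.card ↥(G1 ⊔ G2) * Nat.card ↥(G1 ⊓ G2) := by
  have a := (G2.addSubgroupOf (G1 ⊔ G2)).card_mul_index
  have b := ((G1 ⊓ G2).addSubgroupOf G1).card_mul_index
  have e1 : Nat.card (G2.addSubgroupOf (G1 ⊔ G2)) = Nat.card G2 :=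
    Nat.card_congr (AddSubgroup.addSubgroupOfEquivOfLe le_sup_right).toEquiv
  have e2 : Nat.card ((G1 ⊓ G2).addSubgroupOf G1) = Nat.card ↥(G1 ⊓ G2) :=
    Nat.card_congr (AddSubgroup.addSubgroupOfEquivOfLe inf_le_left).toEquiv
  have e3 : (G2.addSubgroupOf (G1 ⊔ G2)).index = ((G1 ⊓ G2).addSubgroupOf G1).index := by
    change G2.relIndex (G1 ⊔ G2) = (G1 ⊓ G2).relIndex G1
    rw [AddSubgroup.relIndex_sup_right, AddSubgroup.inf_relIndex_left]
  rw [← a, ← b, e1, e2, e3]
  ring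

theorem card_mul_card_le {X : Type} [AddCommGroup X] {G1 G2 G3 G4 : AddSubgroup X} [Finite G3]
    [Finite G4] (h3 : G1 ⊔ G2 ≤ G3) (h4 : G1 ⊓ G2 ≤ G4) :
    Nat.card G1 * Nat.card G2 ≤ Nat.card G3 * Nat.card G4 := by
  rw [card_sup_mul_inf]
  exact Nat.mul_le_mul (AddSubgroup.card_le_of_le h3) (AddSubgroup.card_le_of_le h4)

section dom

variable {Ω L : Type} [DistribLattice L]

open Classical in
/-- The size of a fibre. -/
def fib (π : Ω → L) (S : Finset Ω) (a : L) : ℕ := #(S.filter fun H => π H = a)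

/-- The Holley condition for the images under `π` of the uniform measures on `S` and `T`. -/
def Dom (π : Ω → L) (S T : Finset Ω) : Prop :=
  ∀ a b, fib π S a * fib π T b ≤ fib π S (a ⊓ b) * fib π T (a ⊔ b)

open Classical in
theorem sum_fib (π : Ω → L) (S : Finset Ω) (F : L → ℝ) :
    ∑ a ∈ S.image π, (fib π S a : ℝ) * F a = ∑ H ∈ S, F (π H) := by
  rw [← sum_fiberwise_of_maps_to (g := π) (t := S.image π) fun H h => mem_image_of_mem π h]
  refine sum_congr rfl fun a _ => ?_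
  rw [sum_congr rfl (g := fun _ => F a) fun H h => by rw [(mem_filter.1 h).2]]
  simp [fib]

open Classical in
theorem sum_fib_le (π : Ω → L) (S : Finset Ω) (s : Finset L) (F : L → ℝ) (h : ∀ a, 0 ≤ F a) :
    ∑ a ∈ s, (fib π S a : ℝ) * F a ≤ ∑ H ∈ S, F (π H) := by
  rw [← sum_fib, ← sum_filter_add_sum_filter_not s (· ∈ S.image π)]
  have z : ∑ a ∈ s.filter (fun a => ¬ a ∈ S.image π), (fib π S a : ℝ) * F a = 0 := by
    refine sum_eq_zero fun a ha => ?_
    have : fib π S a = 0 := by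
      refine card_eq_zero.2 (filter_eq_empty_iff.2 fun H hH e => (mem_filter.1 ha).2 ?_)
      exact e ▸ mem_image_of_mem π hH
    simp [this]
  rw [z, add_zero]
  exact sum_le_sum_of_subset_of_nonneg (fun a ha => (mem_filter.1 ha).2)
    fun a _ _ => mul_nonneg (Nat.cast_nonneg _) (h a)

theorem Dom.four {π : Ω → L} {S T : Finset Ω} (h : Dom π S T) {F G : L → ℝ} (hF : Monotone F)
    (hG : Monotone G) (F0 : ∀ a, 0 ≤ F a) (G0 : ∀ a, 0 ≤ G a) :
    (∑ H ∈ S, F (π H)) * ∑ H ∈ T, G (π H) ≤ #S * ∑ H ∈ T, F (π H) * G (π H) := by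
  classical
  have k := four_functions_theorem (fun a => (fib π S a : ℝ) * F a)
    (fun a => (fib π T a : ℝ) * G a) (fun a => (fib π S a : ℝ) * 1)
    (fun a => (fib π T a : ℝ) * (F a * G a))
    (fun a => mul_nonneg (Nat.cast_nonneg _) (F0 a))
    (fun a => mul_nonneg (Nat.cast_nonneg _) (G0 a))
    (fun a => mul_nonneg (Nat.cast_nonneg _) zero_le_one)
    (fun a => mul_nonneg (Nat.cast_nonneg _) (mul_nonneg (F0 a) (G0 a)))
    (fun a b => by
      have h1 : ((fib π S a : ℝ) * fib π T b) ≤ fib π S (a ⊓ b) * fib π T (a ⊔ b) := by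
        exact_mod_cast h a b
      have h2 : F a * G b ≤ F (a ⊔ b) * G (a ⊔ b) :=
        mul_le_mul (hF le_sup_left) (hG le_sup_right) (G0 _) (F0 _)
      calc _ = ((fib π S a : ℝ) * fib π T b) * (F a * G b) := by ring
        _ ≤ (fib π S (a ⊓ b) * fib π T (a ⊔ b)) * (F (a ⊔ b) * G (a ⊔ b)) :=
          mul_le_mul h1 h2 (mul_nonneg (F0 _) (G0 _)) (by positivity)
        _ = _ := by ring)
    (S.image π) (T.image π)
  rw [sum_fib, sum_fib] at k
  refine k.trans (mul_le_mul ?_ ?_ ?_ (Nat.cast_nonneg _))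
  · simpa using sum_fib_le π S _ (fun _ => 1) fun _ => zero_le_one
  · exact sum_fib_le π T _ (fun a => F a * G a) fun a => mul_nonneg (F0 a) (G0 a)
  · exact sum_nonneg fun a _ => mul_nonneg (Nat.cast_nonneg _) (mul_nonneg (F0 a) (G0 a))

end dom

end Vale.Agent.P153
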