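import Vale.Agent.P153.FKG.Sym
import Vale.Agent.P153.FKG.Gen

/-! P153, module FKG: Holley and FKG inequalities, the height order. -/

open Set

noncomputable section
namespace Vale.Agent.P153

variable {S T E E' : Set Cfg} {U U' B F : Set V} {f g : Cfg → ℝ} {k m : ℤ}

section gen

variable {L : Type} [DistribLattice L] {π : Cfg → L}

theorem dom_ext (hS : S.Finite) (lS : AllLip S) (hf : MonoBy π f) :
    ∃ (c : ℝ) (F : L → ℝ), Monotone F ∧ (∀ a, 0 ≤ F a) ∧ ∀ H ∈ S, F (π H) = f H + c := by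
  obtain ⟨c, hc⟩ := (hS.image fun H => -f H).bddAbove
  have h0 : ∀ H ∈ S, 0 ≤ f H + c := fun H h => by linarith [hc (mem_image_of_mem _ h)]
  have bd : ∀ a, BddAbove ((fun H => f H + c) '' {H | H ∈ S ∧ π H ≤ a}) := fun a =>
    ((hS.subset fun _ h => h.1).image _).bddAbove
  have nn : ∀ a, 0 ≤ sSup ((fun H => f H + c) '' {H | H ∈ S ∧ π H ≤ a}) := fun a =>
    Real.sSup_nonneg (by rintro _ ⟨H, h, rfl⟩; exact h0 H h.1)
  refine ⟨c, fun a => sSup ((fun H => f H + c) '' {H | H ∈ S ∧ π H ≤ a}), fun a b hab => ?_, nn,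
    fun H h => le_antisymm ?_ (le_csSup (bd _) ⟨H, ⟨h, le_rfl⟩, rfl⟩)⟩
  · refine Real.sSup_le ?_ (nn b)
    rintro _ ⟨H, h, rfl⟩
    exact le_csSup (bd _) ⟨H, ⟨h.1, h.2.trans hab⟩, rfl⟩
  · refine Real.sSup_le ?_ (h0 H h)
    rintro _ ⟨K, hK, rfl⟩
    have := hf K H (lS K hK.1) (lS H h) hK.2
    show f K + c ≤ f H + c
    linarith

theorem Hol.four (h : Hol π S T) (hS : Good S) (hT : Good T) {F G : L → ℝ} (hF : Monotone F)
    (hG : Monotone G) (F0 : ∀ a, 0 ≤ F a) (G0 : ∀ a, 0 ≤ G a) :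
    Ex S (fun H => F (π H)) * Ex T (fun H => G (π H)) ≤ Ex T fun H => F (π H) * G (π H) := by
  classical
  have e : ∀ {R : Set Cfg} (hR : R.Finite) (a : L), fib π hR.toFinset a = fb π R a := by
    intro R hR a
    rw [fib, fb, ← ncard_coe_finset]
    congr 1
    ext H
    simp
  have d : Dom π hS.1.toFinset hT.1.toFinset := fun a b => by
    simp only [e]
    exact h a b
  have k := d.four hF hG F0 G0
  rw [hS.sum_eq, hT.sum_eq, hT.sum_eq, ← ncard_eq_toFinset_card S hS.1] at k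
  have p := mul_pos hS.card_pos hT.card_pos
  refine le_of_mul_le_mul_left ?_ p
  linarith

theorem Hol.sd (h : Hol π S T) (hS : Good S) (hT : Good T) (lS : AllLip S) (lT : AllLip T) :
    SD π S T := by
  intro f hf
  obtain ⟨c, F, m, F0, e⟩ := dom_ext (hS.1.union hT.1)
    (fun H hH => hH.elim (lS H) (lT H)) hf
  have k := h.four hS hT m (monotone_const (c := (1 : ℝ))) F0 fun _ => zero_le_one
  simp only [mul_one, Ex_const hT] at k
  rw [Ex_congr fun H hH => e H (Or.inl hH), Ex_congr fun H hH => e H (Or.inr hH), Ex_add, Ex_add,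
    Ex_const hS, Ex_const hT] at k
  linarith

theorem Hol.pa (h : Hol π S S) (hS : Good S) (lS : AllLip S) : PA π S := by
  intro f g hf hg
  obtain ⟨c, F, m, F0, e⟩ := dom_ext hS.1 lS hf
  obtain ⟨d, G, m', G0, e'⟩ := dom_ext hS.1 lS hg
  have k := h.four hS hS m m' F0 G0
  rw [Ex_congr e, Ex_congr e', Ex_congr (f := fun H => F (π H) * G (π H))
    (g := fun H => f H * g H + (d * f H + (c * g H + c * d)))
    (fun H hH => by rw [e H hH, e' H hH]; ring)] at k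
  simp only [Ex_add, Ex_mul_left, Ex_const hS] at k
  linarith

end gen

section api

variable {L L' : Type} [LE L] [LE L'] {π : Cfg → L} {π' : Cfg → L'}

theorem IncBy.mono (h : IncBy π E) : MonoBy π (E.indicator 1) := fun H K a b c =>
  ind_mono (h H K a b c)

theorem DecBy.compl (h : DecBy π E) : IncBy π Eᶜ := fun H K a b c d e => d (h H K a b c e)

theorem IncBy.compl (h : IncBy π E) : DecBy π Eᶜ := fun H K a b c d e => d (h H K a b c e)

theorem IncBy.inter (h : IncBy π E) (h' : IncBy π E') : IncBy π (E ∩ E') := fun H K a b c d =>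
  ⟨h H K a b c d.1, h' H K a b c d.2⟩

theorem IncBy.union (h : IncBy π E) (h' : IncBy π E') : IncBy π (E ∪ E') := fun H K a b c d =>
  d.imp (h H K a b c) (h' H K a b c)

theorem DecBy.inter (h : DecBy π E) (h' : DecBy π E') : DecBy π (E ∩ E') := fun H K a b c d =>
  ⟨h H K a b c d.1, h' H K a b c d.2⟩

theorem DecBy.union (h : DecBy π E) (h' : DecBy π E') : DecBy π (E ∪ E') := fun H K a b c d =>
  d.imp (h H K a b c) (h' H K a b c)

theorem SD.refl (π : Cfg → L) (S : Set Cfg) : SD π S S := fun _ _ => le_rfl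

theorem SD.trans {R : Set Cfg} (h : SD π S T) (h' : SD π T R) : SD π S R := fun f hf =>
  (h f hf).trans (h' f hf)

/-- Passing to a coarser order. -/
theorem SD.coarse (h : SD π S T) (hπ : ∀ H K, Lip H → Lip K → π H ≤ π K → π' H ≤ π' K) :
    SD π' S T := fun f hf => h f fun H K a b c => hf H K a b (hπ H K a b c)

theorem PA.coarse (h : PA π S) (hπ : ∀ H K, Lip H → Lip K → π H ≤ π K → π' H ≤ π' K) :
    PA π' S := fun f g hf hg => h f g (fun H K a b c => hf H K a b (hπ H K a b c))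
      fun H K a b c => hg H K a b (hπ H K a b c)

theorem DecBy.mono (h : DecBy π E) : MonoBy π fun H => -E.indicator 1 H := fun H K a b c =>
  neg_le_neg (ind_mono (h H K a b c))

theorem SD.inc (h : SD π S T) (hE : IncBy π E) : Pr S E ≤ Pr T E := h _ hE.mono

theorem SD.dec (h : SD π S T) (hE : DecBy π E) : Pr T E ≤ Pr S E := by
  have := h _ hE.mono
  rw [Ex_neg, Ex_neg] at this
  exact neg_le_neg_iff.1 this

theorem PA.inc (h : PA π S) (hE : IncBy π E) (hE' : IncBy π E') :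
    Pr S E * Pr S E' ≤ Pr S (E ∩ E') := by
  rw [Pr.eq_1 S (E ∩ E'), Ex_congr fun H _ => ind_inter E E' H]
  exact h _ _ hE.mono hE'.mono

theorem PA.dec (h : PA π S) (hE : DecBy π E) (hE' : DecBy π E') :
    Pr S E * Pr S E' ≤ Pr S (E ∩ E') := by
  rw [Pr.eq_1 S (E ∩ E'), Ex_congr fun H _ => ind_inter E E' H]
  have := h _ _ hE.mono hE'.mono
  simp only [Ex_neg, neg_mul_neg] at this
  exact this

theorem PA.neg (h : PA π S) (hE : IncBy π E) (hE' : DecBy π E') :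
    Pr S (E ∩ E') ≤ Pr S E * Pr S E' := by
  rw [Pr.eq_1 S (E ∩ E'), Ex_congr fun H _ => ind_inter E E' H]
  have := h _ _ hE.mono hE'.mono
  simp only [Ex_neg, mul_neg] at this
  exact neg_le_neg_iff.1 this

theorem PA.inc_prod {ι : Type} (h : PA π S) (hS : Good S) (s : Finset ι) (A : ι → Set Cfg)
    (hA : ∀ i ∈ s, IncBy π (A i)) : ∏ i ∈ s, Pr S (A i) ≤ Pr S (⋂ i ∈ s, A i) := by
  classical
  induction s using Finset.induction_on with
  | empty => simp [Pr_univ hS]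
  | insert a s ha ih =>
    rw [Finset.prod_insert ha, Finset.set_biInter_insert]
    have h2 : ∀ i ∈ s, IncBy π (A i) := fun i hi => hA i (Finset.mem_insert_of_mem hi)
    refine (mul_le_mul_of_nonneg_left (ih h2) (Pr_nonneg _ _)).trans
      (h.inc (hA a (Finset.mem_insert_self _ _)) fun H K a b c d => ?_)
    exact mem_iInter₂.2 fun i hi => h2 i hi H K a b c (mem_iInter₂.1 d i hi)

theorem PA.dec_prod {ι : Type} (h : PA π S) (hS : Good S) (s : Finset ι) (A : ι → Set Cfg)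
    (hA : ∀ i ∈ s, DecBy π (A i)) : ∏ i ∈ s, Pr S (A i) ≤ Pr S (⋂ i ∈ s, A i) := by
  classical
  induction s using Finset.induction_on with
  | empty => simp [Pr_univ hS]
  | insert a s ha ih =>
    rw [Finset.prod_insert ha, Finset.set_biInter_insert]
    have h2 : ∀ i ∈ s, DecBy π (A i) := fun i hi => hA i (Finset.mem_insert_of_mem hi)
    refine (mul_le_mul_of_nonneg_left (ih h2) (Pr_nonneg _ _)).trans
      (h.dec (hA a (Finset.mem_insert_self _ _)) fun H K a b c d => ?_)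
    exact mem_iInter₂.2 fun i hi => h2 i hi H K a b c (mem_iInter₂.1 d i hi)

/-- Conditioning on an increasing event raises the measure. -/
theorem PA.cond_inc (h : PA π S) (hE : IncBy π E) (hne : Good (S ∩ E)) (hS : S.Finite) :
    SD π S (S ∩ E) := by
  intro f hf
  obtain ⟨H, h1, h2⟩ := hne.2
  have k := h _ _ hE.mono hf
  rw [Ex_cond'] at k
  exact le_of_mul_le_mul_left k (Pr_pos hS h1 h2)

theorem PA.cond_dec (h : PA π S) (hE : DecBy π E) (hne : Good (S ∩ E)) (hS : S.Finite) :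
    SD π (S ∩ E) S := by
  intro f hf
  obtain ⟨H, h1, h2⟩ := hne.2
  have k := h _ _ hE.mono hf
  simp only [neg_mul, Ex_neg, Ex_cond'] at k
  exact le_of_mul_le_mul_left (neg_le_neg_iff.1 k) (Pr_pos hS h1 h2)

end api

/-! ### The height order -/

theorem hol_H (h : ∀ H ∈ S, ∀ K ∈ T, H ⊓ K ∈ S ∧ H ⊔ K ∈ T) : Hol id S T := by
  classical
  have e : ∀ (R : Set Cfg) (a : Cfg), fb id R a = if a ∈ R then 1 else 0 := by
    intro R a
    rw [fb]
    split_ifs with h1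
    · rw [← ncard_singleton a]
      congr 1
      exact Subset.antisymm (fun H hH => hH.2) (by rintro _ rfl; exact ⟨h1, rfl⟩)
    · rw [← ncard_empty Cfg]
      congr 1
      exact eq_empty_of_forall_notMem fun H hH => h1 ((show H = a from hH.2) ▸ hH.1)
  intro a b
  simp only [e]
  by_cases ha : a ∈ S
  · by_cases hb : b ∈ T
    · simp [ha, hb, (h a ha b hb).1, (h a ha b hb).2]
    · simp [hb]
  · simp [ha]

theorem sd_H (hS : Good S) (hT : Good T) (lS : AllLip S) (lT : AllLip T)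
    (h : ∀ H ∈ S, ∀ K ∈ T, H ⊓ K ∈ S ∧ H ⊔ K ∈ T) : SD id S T := (hol_H h).sd hS hT lS lT

theorem pa_H (hS : Good S) (lS : AllLip S) (h : ∀ H ∈ S, ∀ K ∈ S, H ⊓ K ∈ S ∧ H ⊔ K ∈ S) :
    PA id S := (hol_H h).pa hS lS

theorem sd_Om {C C' : V → Set ℤ} (hS : Good (Om C)) (hT : Good (Om C'))
    (h : ∀ x, ∀ a ∈ C x, ∀ b ∈ C' x, min a b ∈ C x ∧ max a b ∈ C' x) : SD id (Om C) (Om C') :=
  sd_H hS hT allLip_Om allLip_Om fun _ a _ b =>
    ⟨⟨a.1.inf b.1, fun x => (h x _ (a.2 x) _ (b.2 x)).1⟩,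
      ⟨a.1.sup b.1, fun x => (h x _ (a.2 x) _ (b.2 x)).2⟩⟩

theorem pa_Om {C : V → Set ℤ} (hS : Good (Om C)) : PA id (Om C) := by
  refine pa_H hS allLip_Om fun H a K b => ⟨⟨a.1.inf b.1, fun x => ?_⟩, ⟨a.1.sup b.1, fun x => ?_⟩⟩
  · rcases min_choice (H x) (K x) with e | e
    · exact (show (H ⊓ K) x = H x from e) ▸ a.2 x
    · exact (show (H ⊓ K) x = K x from e) ▸ b.2 x
  · rcases max_choice (H x) (K x) with e | e
    · exact (show (H ⊔ K) x = H x from e) ▸ a.2 x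
    · exact (show (H ⊔ K) x = K x from e) ▸ b.2 x

theorem inf_ap (H K : Cfg) (x : V) : (H ⊓ K) x = min (H x) (K x) := rfl

theorem sup_ap (H K : Cfg) (x : V) : (H ⊔ K) x = max (H x) (K x) := rfl

theorem pa_flat (hU : U.Finite) (k : ℤ) : PA id (flat U k) := by
  refine pa_H (good_flat hU k) allLip_flat fun H a K b =>
    ⟨⟨a.1.inf b.1, fun x hx => ?_⟩, ⟨a.1.sup b.1, fun x hx => ?_⟩⟩
  · rw [inf_ap, a.2 x hx, b.2 x hx, min_self]
  · rw [sup_ap, a.2 x hx, b.2 x hx, max_self]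

theorem pa_free (hU : U.Finite) (k : ℤ) : PA id (free U k) := by
  refine pa_H (good_free hU k) allLip_free fun H a K b =>
    ⟨⟨a.1.inf b.1, fun x hx => ?_, fun x hx => ?_⟩, ⟨a.1.sup b.1, fun x hx => ?_, fun x hx => ?_⟩⟩
  · rw [inf_ap, a.2.1 x hx, b.2.1 x hx, min_self]
  · have := a.2.2 x hx; have := b.2.2 x hx; rw [inf_ap]; omega
  · rw [sup_ap, a.2.1 x hx, b.2.1 x hx, max_self]
  · have := a.2.2 x hx; have := b.2.2 x hx; rw [sup_ap]; omega

theorem pa_dob (hF : F.Finite) (P : Set V) : PA id (dob F P) := by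
  refine pa_H (good_dob hF P) allLip_dob fun H a K b =>
    ⟨⟨a.1.inf b.1, fun x hx => ⟨fun h => ?_, fun h => ?_⟩⟩,
      ⟨a.1.sup b.1, fun x hx => ⟨fun h => ?_, fun h => ?_⟩⟩⟩
  · rw [inf_ap, (a.2 x hx).1 h, (b.2 x hx).1 h, min_self]
  · rw [inf_ap, (a.2 x hx).2 h, (b.2 x hx).2 h, min_self]
  · rw [sup_ap, (a.2 x hx).1 h, (b.2 x hx).1 h, max_self]
  · rw [sup_ap, (a.2 x hx).2 h, (b.2 x hx).2 h, max_self]

theorem dom_pin (hU : U.Finite) {ξ ξ' : Cfg} (l : Lip ξ) (l' : Lip ξ')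
    (h : ∀ x ∈ obd U, ξ x = ξ' x) (hf : ∀ H K, Lip H → Lip K → (∀ x ∈ U, H x = K x) → f H = f K) :
    Ex {H | Lip H ∧ ∀ x, x ∉ U → H x = ξ x} f = Ex {H | Lip H ∧ ∀ x, x ∉ U → H x = ξ' x} f := by
  refine Ex_local (U := U) ⟨finite_pin hU ξ, ξ, l, fun _ _ => rfl⟩
    ⟨finite_pin hU ξ', ξ', l', fun _ _ => rfl⟩ (fun H a K b => ⟨⟨b.1.pw a.1 fun x hx y hy e => ?_,
      fun x hx => ?_⟩, ⟨a.1.pw b.1 fun x hx y hy e => ?_, fun x hx => ?_⟩⟩)
    fun H a K b => hf H K a.1 b.1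
  · rw [a.2 y hy, h y ⟨hy, x, hx, e.symm⟩, ← b.2 y hy]
    exact b.1 x y e
  · rw [pw_out _ _ hx, a.2 x hx]
  · rw [b.2 y hy, ← h y ⟨hy, x, hx, e.symm⟩, ← a.2 y hy]
    exact a.1 x y e
  · rw [pw_out _ _ hx, b.2 x hx]

theorem dom_pin_le (hU : U.Finite) {ξ ξ' : Cfg} (l : Lip ξ) (l' : Lip ξ')
    (h : ∀ x ∈ obd U, ξ x ≤ ξ' x) (hf : MonoBy (fun H (x : U) => H x) f) :
    Ex {H | Lip H ∧ ∀ x, x ∉ U → H x = ξ x} f ≤ Ex {H | Lip H ∧ ∀ x, x ∉ U → H x = ξ' x} f := by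
  have e : ∀ H K, Lip H → Lip K → (∀ x ∈ U, H x = K x) → f H = f K := fun H K a b c =>
    le_antisymm (hf H K a b fun x => (c x x.2).le) (hf K H b a fun x => (c x x.2).ge)
  rw [dom_pin hU l (l.inf l') (fun x hx => (min_eq_left (h x hx)).symm) e,
    dom_pin hU l' (l.sup l') (fun x hx => (max_eq_right (h x hx)).symm) e]
  refine sd_H ⟨finite_pin hU _, _, l.inf l', fun _ _ => rfl⟩
    ⟨finite_pin hU _, _, l.sup l', fun _ _ => rfl⟩ (fun _ a => a.1) (fun _ a => a.1)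
    (fun H a K b => ⟨⟨a.1.inf b.1, fun x hx => ?_⟩, ⟨a.1.sup b.1, fun x hx => ?_⟩⟩) f
    fun H K a b c => hf H K a b fun x => c x
  · rw [inf_ap, a.2 x hx, b.2 x hx]
    exact min_eq_left min_le_max
  · rw [sup_ap, a.2 x hx, b.2 x hx]
    exact max_eq_right min_le_max

theorem Ex_pin_out (S : Set Cfg) (U : Set V) (f : Cfg → ℝ) :
    Ex S f = Ex S fun H => Ex (pin S Uᶜ H) f := by
  simpa using tower_stop (S := S) (R := fun _ => Uᶜ) (fun _ _ _ _ _ => rfl) f (fun _ => 1)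
    fun _ _ _ _ _ => rfl

/-- Comparison of the laws on `U` when `T` is free in `U` and higher on the outer boundary. -/
theorem sd_bdry (hS : Good S) (hT : Good T) (hU : U.Finite) (h1 : FreeIn S U) (h2 : FreeIn T U)
    (h : ∀ H ∈ S, ∀ K ∈ T, ∀ x ∈ obd U, H x ≤ K x) :
    SD (fun H (x : U) => H x) S T := by
  intro f hf
  rw [Ex_pin_out S U, Ex_pin_out T U]
  refine Ex_le hS fun H a => le_Ex hT fun K b => ?_
  rw [h1.pin_eq (by simp) a, h2.pin_eq (by simp) b]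
  exact dom_pin_le hU (h1.1 H a) (h2.1 K b) (h H a K b) hf

theorem sd_flat_free (hU : U.Finite) (k : ℤ) :
    SD id (flat U k) (free U k) ∧ SD id (free U k) (flat U (k + 1)) := by
  constructor
  · refine sd_H (good_flat hU k) (good_free hU k) allLip_flat allLip_free fun H a K b =>
      ⟨⟨a.1.inf b.1, fun x hx => ?_⟩, ⟨a.1.sup b.1, fun x hx => ?_, fun x hx => ?_⟩⟩
    · rw [inf_ap, a.2 x hx, b.2.1 x hx, min_self]
    · rw [sup_ap, a.2 x hx, b.2.1 x hx, max_self]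
    · have := b.2.2 x hx
      obtain ⟨-, y, hy, e⟩ := hx
      have h1 := abs_le.1 (a.1 x y e)
      rw [a.2 y hy] at h1
      rw [sup_ap]; omega
  · refine sd_H (good_free hU k) (good_flat hU _) allLip_free allLip_flat fun H a K b =>
      ⟨⟨a.1.inf b.1, fun x hx => ?_, fun x hx => ?_⟩, ⟨a.1.sup b.1, fun x hx => ?_⟩⟩
    · rw [inf_ap, a.2.1 x hx, b.2 x hx]; omega
    · have := a.2.2 x hx
      obtain ⟨-, y, hy, e⟩ := hx
      have h1 := abs_le.1 (b.1 x y e)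
      rw [b.2 y hy] at h1
      rw [inf_ap]; omega
    · rw [sup_ap, a.2.1 x hx, b.2 x hx]; omega

theorem sd_flat_mono (hU : U.Finite) (h : k ≤ m) :
    SD id (flat U k) (flat U m) ∧ SD id (free U k) (free U m) := by
  constructor
  · refine sd_H (good_flat hU k) (good_flat hU m) allLip_flat allLip_flat fun H a K b =>
      ⟨⟨a.1.inf b.1, fun x hx => ?_⟩, ⟨a.1.sup b.1, fun x hx => ?_⟩⟩
    · rw [inf_ap, a.2 x hx, b.2 x hx]; omega
    · rw [sup_ap, a.2 x hx, b.2 x hx]; omega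
  · refine sd_H (good_free hU k) (good_free hU m) allLip_free allLip_free fun H a K b =>
      ⟨⟨a.1.inf b.1, fun x hx => ?_, fun x hx => ?_⟩, ⟨a.1.sup b.1, fun x hx => ?_, fun x hx => ?_⟩⟩
    · rw [inf_ap, a.2.1 x hx, b.2.1 x hx]; omega
    · have := a.2.2 x hx; have := b.2.2 x hx; rw [inf_ap]; omega
    · rw [sup_ap, a.2.1 x hx, b.2.1 x hx]; omega
    · have := a.2.2 x hx; have := b.2.2 x hx; rw [sup_ap]; omega

end Vale.Agent.P153
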