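import Vale.Agent.P153.FKG.Poin

/-! P153, module FKG: explorations and their conditional laws. -/

open Set

noncomputable section
namespace Vale.Agent.P153

variable {S E E' : Set Cfg} {St B : Set V} {Eb : ℤ → ℤ → Prop} {H K : Cfg} {f f' g : Cfg → ℝ}
  {j k : ℤ} {c : ℝ}

theorem subset_Rch (St : Set V) (Eb : ℤ → ℤ → Prop) (H : Cfg) : St ⊆ Rch St Eb H :=
  fun x hx => ⟨x, hx, Conn.rfl⟩

theorem Rch_step {a b : V} (ha : a ∈ Rch St Eb H) (h : Adj a b) (hE : Eb (H a) (H b)) :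
    b ∈ Rch St Eb H := by
  obtain ⟨y, hy, hc⟩ := ha
  exact ⟨y, hy, hc.tail h hE (mem_univ _) (mem_univ _)⟩

/-- A reached site is a starting site or the end of an explored edge. -/
theorem Rch_cases {b : V} (hb : b ∈ Rch St Eb H) :
    b ∈ St ∨ ∃ a ∈ Rch St Eb H, Adj a b ∧ Eb (H a) (H b) := by
  obtain ⟨y, hy, hc⟩ := hb
  rcases Relation.ReflTransGen.cases_tail hc with rfl | ⟨a, h1, h2⟩
  · exact Or.inl hy
  · exact Or.inr ⟨a, ⟨y, hy, h1⟩, h2.1, h2.2.1⟩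

theorem Rch_mono {St' : Set V} {Eb' : ℤ → ℤ → Prop} (h : St ⊆ St')
    (h' : ∀ a b, Adj a b → Eb (H a) (H b) → Eb' (K a) (K b)) : Rch St Eb H ⊆ Rch St' Eb' K :=
  fun _ ⟨y, hy, hc⟩ => ⟨y, h hy, hc.mono' fun u v h1 h2 h3 h4 => ⟨h' u v h1 h2, h3, h4⟩⟩

theorem cnn_Rch (h : Cnn St) : Cnn (Rch St Eb H) := by
  have key : ∀ x ∈ Rch St Eb H, ∃ y ∈ St, Conn (fun _ _ => True) (Rch St Eb H) y x := by
    rintro x ⟨y, hy, hc⟩
    refine ⟨y, hy, hc.ind Conn.rfl fun u v h1 h2 h3 _ _ h4 => ?_⟩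
    exact h4.tail h2 trivial ⟨y, hy, h1⟩ (Rch_step ⟨y, hy, h1⟩ h2 h3)
  intro x hx x' hx'
  obtain ⟨y, hy, h1⟩ := key x hx
  obtain ⟨y', hy', h2⟩ := key x' hx'
  exact ((h1.symm fun _ _ _ => trivial).trans
    ((h y hy y' hy').monoA (subset_Rch _ _ _))).trans h2

theorem Rch_eq (h1 : ∀ x ∈ Rch St Eb H, K x = H x)
    (h2 : ∀ a ∈ Rch St Eb H, ∀ b, b ∉ Rch St Eb H → Adj a b → ¬ Eb (H a) (K b)) :
    Rch St Eb K = Rch St Eb H := by
  refine Subset.antisymm ?_ ?_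
  · rintro x ⟨y, hy, hc⟩
    refine hc.ind (P := fun v => v ∈ Rch St Eb H) (subset_Rch _ _ _ hy)
      fun u v _ h3 h4 _ _ h5 => ?_
    by_contra h6
    exact h2 u h5 v h6 h3 (h1 u h5 ▸ h4)
  · rintro x ⟨y, hy, hc⟩
    refine hc.ind (P := fun v => v ∈ Rch St Eb K) (subset_Rch _ _ _ hy)
      fun u v h0 h3 h4 _ _ h5 => Rch_step h5 h3 ?_
    have h6 : u ∈ Rch St Eb H := ⟨y, hy, h0⟩
    rw [h1 u h6, h1 v (Rch_step h6 h3 h4)]
    exact h4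

theorem cell_self (hH : H ∈ S) : H ∈ cell S St Eb H ∧ cell S St Eb H ⊆ S :=
  ⟨⟨hH, fun _ _ => rfl, fun _ ha _ hb h1 h2 => hb (Rch_step ha h1 h2)⟩, fun _ h => h.1⟩

theorem Rch_cell (h : K ∈ cell S St Eb H) : Rch St Eb K = Rch St Eb H := Rch_eq h.2.1 h.2.2

theorem cell_cell (h : K ∈ cell S St Eb H) : cell S St Eb K = cell S St Eb H := by
  ext G
  simp only [cell, mem_ofPred_eq, Rch_cell h]
  refine and_congr_right fun _ => and_congr (forall₂_congr fun x hx => by rw [h.2.1 x hx])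
    (forall₂_congr fun x hx => by rw [h.2.1 x hx])

theorem good_cell (hS : S.Finite) (hH : H ∈ S) : Good (cell S St Eb H) :=
  ⟨hS.subset (cell_self hH).2, H, (cell_self hH).1⟩

theorem tower_explore (St : Set V) (Eb : ℤ → ℤ → Prop) (f g : Cfg → ℝ)
    (hg : ∀ H ∈ S, ∀ K ∈ S, Rch St Eb K = Rch St Eb H → (∀ x ∈ Rch St Eb H, K x = H x) →
      g K = g H) :
    Ex S (fun H => g H * f H) = Ex S fun H => g H * Ex (cell S St Eb H) f :=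
  tower_cell (cell S St Eb) (fun _ h => cell_self h) (fun _ _ _ h => cell_cell h) f g
    fun H hH K hK => hg H hH K hK.1 (Rch_cell hK) hK.2.1

theorem explore_ge (St : Set V) (Eb : ℤ → ℤ → Prop)
    (hE : ∀ H ∈ S, ∀ K ∈ S, Rch St Eb K = Rch St Eb H → (∀ x ∈ Rch St Eb H, K x = H x) →
      H ∈ E → K ∈ E)
    (h : ∀ H ∈ S, H ∈ E → c ≤ Pr (cell S St Eb H) E') : c * Pr S E ≤ Pr S (E ∩ E') :=
  Pr_tower_ge (cell S St Eb) (fun _ h => cell_self h) (fun _ _ _ h => cell_cell h)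
    (fun H hH h1 K hK => hE H hH K hK.1 (Rch_cell hK) hK.2.1 h1) h

theorem explore_le (St : Set V) (Eb : ℤ → ℤ → Prop)
    (hE : ∀ H ∈ S, ∀ K ∈ S, Rch St Eb K = Rch St Eb H → (∀ x ∈ Rch St Eb H, K x = H x) →
      H ∈ E → K ∈ E)
    (h : ∀ H ∈ S, H ∈ E → Pr (cell S St Eb H) E' ≤ c) : Pr S (E ∩ E') ≤ c * Pr S E :=
  Pr_tower_le (cell S St Eb) (fun _ h => cell_self h) (fun _ _ _ h => cell_cell h)
    (fun H hH h1 K hK => hE H hH K hK.1 (Rch_cell hK) hK.2.1 h1) h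

theorem compl_Rch_subset (B : Set V) (Eb : ℤ → ℤ → Prop) (H : Cfg) : (Rch Bᶜ Eb H)ᶜ ⊆ B :=
  compl_subset_comm.1 (subset_Rch _ _ _)

theorem explore_out {a b : V} (ha : a ∈ Rch St Eb H) (hb : b ∉ Rch St Eb H) (h : Adj a b) :
    ¬ Eb (H a) (H b) := fun h' => hb (Rch_step ha h h')

theorem explore_mem {G : Cfg} (hF : FreeIn S B) (hK : K ∈ cell S Bᶜ Eb H) (hG : Lip G)
    (h1 : ∀ x ∈ Rch Bᶜ Eb H, G x = K x)
    (h2 : ∀ a ∈ Rch Bᶜ Eb H, ∀ b, b ∉ Rch Bᶜ Eb H → Adj a b → ¬ Eb (H a) (G b)) :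
    G ∈ cell S Bᶜ Eb H :=
  ⟨hF.2 K hK.1 G hG fun x hx => h1 x (subset_Rch _ _ _ hx),
    fun x hx => (h1 x hx).trans (hK.2.1 x hx), h2⟩

theorem explore_free {m : ℤ} (hS : S.Finite) (hB : B.Finite) (hF : FreeIn S B) (hH : H ∈ S)
    (hk : ∀ a ∈ Rch Bᶜ Eb H, ∀ b, b ∉ Rch Bᶜ Eb H → Adj a b → (H a = m ∨ H a = m + 1) ∧
      ∀ t, |H a - t| ≤ 1 → (¬ Eb (H a) t ↔ t = m ∨ t = m + 1))
    (hf : ∀ K ∈ cell S Bᶜ Eb H, ∀ K' ∈ free (Rch Bᶜ Eb H)ᶜ m,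
      (∀ x, x ∉ Rch Bᶜ Eb H → K x = K' x) → f K = f' K') :
    Ex (cell S Bᶜ Eb H) f = Ex (free (Rch Bᶜ Eb H)ᶜ m) f' := by
  refine Ex_eq_free (good_cell hS hH) (hB.subset (compl_Rch_subset _ _ _))
    (fun K hK => hF.1 K hK.1) ?_ ?_ hf
  · rintro K hK x (⟨hx, y, hy, h⟩ | ⟨hx, y, hy, h⟩)
    · have hy' := notMem_compl_iff.1 hy
      refine ((hk y hy' x hx h.symm).2 _ ?_).1 (hK.2.2 y hy' x hx h.symm)
      rw [← hK.2.1 y hy']
      exact hF.1 K hK.1 _ _ h.symm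
    · have hx' := notMem_compl_iff.1 hx
      rw [hK.2.1 x hx']
      exact (hk x hx' y hy h).1
  · intro K hK G hG h1 h2
    have h3 : ∀ x ∈ Rch Bᶜ Eb H, G x = K x := fun x hx => h1 x (notMem_compl_iff.2 hx)
    refine explore_mem hF hK hG h3 fun a ha b hb h => ((hk a ha b hb h).2 _ ?_).2
      (h2 b ⟨hb, a, notMem_compl_iff.2 ha, h.symm⟩)
    rw [← hK.2.1 a ha, ← h3 a ha]
    exact hG _ _ h

theorem explore_obd {a b : V} (ha : a ∈ Bᶜ) (hb : b ∉ Rch Bᶜ Eb H) (h : Adj a b) : a ∈ obd B :=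
  ⟨ha, b, compl_Rch_subset _ _ _ hb, h⟩

/-- Exploring the edges touching a height outside `{k, k+1}` leaves the band `k`. -/
theorem cell_eA (hS : S.Finite) (hB : B.Finite) (hF : FreeIn S B) (hH : H ∈ S)
    (hf : ∀ K ∈ cell S Bᶜ (eA k) H, ∀ K' ∈ free (Rch Bᶜ (eA k) H)ᶜ k,
      (∀ x, x ∉ Rch Bᶜ (eA k) H → K x = K' x) → f K = f' K') :
    Ex (cell S Bᶜ (eA k) H) f = Ex (free (Rch Bᶜ (eA k) H)ᶜ k) f' := by
  refine explore_free hS hB hF hH (fun a ha b hb h => ?_) hf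
  have h1 := explore_out ha hb h
  simp only [eA, le_abs] at h1 ⊢
  exact ⟨by omega, fun t _ => by omega⟩

/-- Exploring the edges touching a height `≤ k` leaves the band `k + 1`. -/
theorem cell_eLe (hS : S.Finite) (hB : B.Finite) (hF : FreeIn S B) (hH : H ∈ S)
    (hb : ∀ x ∈ obd B, H x ≤ k + 1)
    (hf : ∀ K ∈ cell S Bᶜ (eLe k) H, ∀ K' ∈ free (Rch Bᶜ (eLe k) H)ᶜ (k + 1),
      (∀ x, x ∉ Rch Bᶜ (eLe k) H → K x = K' x) → f K = f' K') :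
    Ex (cell S Bᶜ (eLe k) H) f = Ex (free (Rch Bᶜ (eLe k) H)ᶜ (k + 1)) f' := by
  refine explore_free hS hB hF hH (fun a ha b hb' h => ?_) hf
  have h1 := explore_out ha hb' h
  have h2 : H a ≤ k + 1 := by
    rcases Rch_cases ha with h3 | ⟨a', -, h3, h4⟩
    · exact hb a (explore_obd h3 hb' h)
    · have := abs_le.1 (hF.1 H hH _ _ h3)
      simp only [eLe] at h4
      omega
  simp only [eLe, abs_le] at h1 ⊢
  exact ⟨by omega, fun t _ => by omega⟩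

/-- Exploring the edges touching a height `≥ k` leaves the band `k - 2`. -/
theorem cell_eGe (hS : S.Finite) (hB : B.Finite) (hF : FreeIn S B) (hH : H ∈ S)
    (hb : ∀ x ∈ obd B, k - 1 ≤ H x)
    (hf : ∀ K ∈ cell S Bᶜ (eGe k) H, ∀ K' ∈ free (Rch Bᶜ (eGe k) H)ᶜ (k - 2),
      (∀ x, x ∉ Rch Bᶜ (eGe k) H → K x = K' x) → f K = f' K') :
    Ex (cell S Bᶜ (eGe k) H) f = Ex (free (Rch Bᶜ (eGe k) H)ᶜ (k - 2)) f' := by
  refine explore_free hS hB hF hH (fun a ha b hb' h => ?_) hf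
  have h1 := explore_out ha hb' h
  have h2 : k - 1 ≤ H a := by
    rcases Rch_cases ha with h3 | ⟨a', -, h3, h4⟩
    · exact hb a (explore_obd h3 hb' h)
    · have := abs_le.1 (hF.1 H hH _ _ h3)
      simp only [eGe] at h4
      omega
  simp only [eGe, abs_le] at h1 ⊢
  exact ⟨by omega, fun t _ => by omega⟩

/-- Exploring the edges touching a plus spin leaves a minus band, modulo 4. -/
theorem cell_eS (hS : S.Finite) (hB : B.Finite) (hc : Cnn Bᶜ) (hF : FreeIn S B) (hH : H ∈ S)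
    (hk : (k - j) % 4 = 2)
    (hf : ∀ K ∈ cell S Bᶜ (eS j) H, ∀ K' ∈ free (Rch Bᶜ (eS j) H)ᶜ k,
      Eq4 (Rch Bᶜ (eS j) H)ᶜ K K' → f K = f' K') :
    Ex (cell S Bᶜ (eS j) H) f = Ex (free (Rch Bᶜ (eS j) H)ᶜ k) f' := by
  obtain ⟨x₀, hx₀⟩ := compl_nonempty hB
  have h0 : x₀ ∈ Rch Bᶜ (eS j) H := subset_Rch _ _ _ hx₀
  have hU := hB.subset (compl_Rch_subset B (eS j) H)
  have hcR : ∀ {G K : Cfg}, Lip G → Lip K → Eq4 (Rch Bᶜ (eS j) H)ᶜᶜ G K → G x₀ = K x₀ →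
      ∀ x ∈ Rch Bᶜ (eS j) H, G x = K x := by
    intro G K hG hK h1 h2 x hx
    rw [compl_compl] at h1
    have := h1.diff hG hK (cnn_Rch hc x₀ h0 x hx)
    omega
  refine Ex_local4 (x₀ := x₀) (x₁ := x₀) (good_cell hS hH) (good_free hU k)
    (fun K hK => hF.1 K hK.1) allLip_free (notMem_compl_iff.2 h0) (notMem_compl_iff.2 h0)
    ?_ ?_ ?_ hf
  · intro K hK K' hK' a ha b hb h
    have hb' := notMem_compl_iff.1 hb
    have h1 := hK.2.2 b hb' a ha h.symm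
    have h2 := hK'.2.1 b hb
    have h3 := hK'.2.2 a ⟨ha, b, hb, h⟩
    have h4 := hK.2.1 b hb'
    simp only [eS] at h1
    omega
  · intro K hK K' hK' G hG h1 h2 h3
    refine explore_mem hF hK hG (hcR hG (hF.1 K hK.1) h2 h3) fun a ha b hb h => ?_
    have h4 := explore_out ha hb h
    have h5 := hK'.2.2 b ⟨hb, a, notMem_compl_iff.2 ha, h.symm⟩
    have h6 := h1 b hb
    simp only [eS] at h4 ⊢
    omega
  · intro K hK K' hK' G hG h1 h2 h3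
    have h4 : ∀ x, x ∉ (Rch Bᶜ (eS j) H)ᶜ → G x = k := fun x hx =>
      (hcR hG hK'.1 h2 h3 x (notMem_compl_iff.1 hx)).trans (hK'.2.1 x hx)
    refine ⟨hG, h4, fun x ⟨hx, y, hy, h⟩ => ?_⟩
    have h5 := hK.2.2 y (notMem_compl_iff.1 hy) x hx h.symm
    have h6 := h1 x hx
    have h7 := abs_le.1 (hG _ _ h)
    have h8 := h4 y hy
    simp only [eS] at h5
    omega

/-- Explorations of site clusters (the rule only looks at the source of the edge). -/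
theorem cell_src (Q : ℤ → Prop) (H : Cfg) :
    cell S St (fun s _ => Q s) H = pin S (Rch St (fun s _ => Q s) H) H := by
  ext K
  exact ⟨fun h => ⟨h.1, h.2.1⟩, fun h => ⟨h.1, h.2, fun _ ha _ hb h1 => explore_out ha hb h1⟩⟩

theorem obd_src (Q : ℤ → Prop) {y : V} (hy : y ∈ obd (Rch St (fun s _ => Q s) H)ᶜ) :
    ¬ Q (H y) ∧ (y ∈ St ∨ ∃ a, Adj a y ∧ Q (H a)) := by
  obtain ⟨h1, b, hb, h⟩ := hy
  have h2 := notMem_compl_iff.1 h1
  exact ⟨explore_out h2 hb h, (Rch_cases h2).imp_right fun ⟨a, _, h3⟩ => ⟨a, h3⟩⟩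

theorem cell_flat (Q : ℤ → Prop) (hS : S.Finite) (hB : B.Finite) (hF : FreeIn S B) (hH : H ∈ S)
    (hb : ∀ y ∈ obd (Rch Bᶜ (fun s _ => Q s) H)ᶜ, H y = k)
    (hf : ∀ K ∈ cell S Bᶜ (fun s _ => Q s) H, ∀ K' ∈ flat (Rch Bᶜ (fun s _ => Q s) H)ᶜ k,
      (∀ x, x ∉ Rch Bᶜ (fun s _ => Q s) H → K x = K' x) → f K = f' K') :
    Ex (cell S Bᶜ (fun s _ => Q s) H) f = Ex (flat (Rch Bᶜ (fun s _ => Q s) H)ᶜ k) f' := by
  refine Ex_eq_flat (good_cell hS hH) (hB.subset (compl_Rch_subset _ _ _))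
    ⟨fun K hK => hF.1 K hK.1, fun K hK G hG h => explore_mem hF hK hG
      (fun x hx => h x (notMem_compl_iff.2 hx)) fun _ ha _ hb h1 => explore_out ha hb h1⟩
    (fun K hK x hx => ?_) hf
  rw [hK.2.1 x (notMem_compl_iff.1 hx.1), hb x hx]

theorem obd_low (hl : Lip H) (hb : ∀ x ∈ obd B, H x ≤ k + 1) :
    ∀ y ∈ obd (Rch Bᶜ (fun s _ => s ≤ k) H)ᶜ, H y = k + 1 := by
  intro y hy
  obtain ⟨h1, h2 | ⟨a, h2, h3⟩⟩ := obd_src (fun s => s ≤ k) hy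
  · obtain ⟨b, hb', h⟩ := hy.2
    have := hb y (explore_obd h2 hb' h)
    omega
  · have := abs_le.1 (hl _ _ h2)
    omega

theorem obd_high (hl : Lip H) (hb : ∀ x ∈ obd B, k - 1 ≤ H x) :
    ∀ y ∈ obd (Rch Bᶜ (fun s _ => k ≤ s) H)ᶜ, H y = k - 1 := by
  intro y hy
  obtain ⟨h1, h2 | ⟨a, h2, h3⟩⟩ := obd_src (fun s => k ≤ s) hy
  · obtain ⟨b, hb', h⟩ := hy.2
    have := hb y (explore_obd h2 hb' h)
    omega
  · have := abs_le.1 (hl _ _ h2)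
    omega

theorem obd_ne : ∀ y ∈ obd (Rch St (fun s _ => s ≠ k) H)ᶜ, H y = k :=
  fun _ hy => not_not.1 (obd_src (fun s => s ≠ k) hy).1

end Vale.Agent.P153
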