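import Vale.Agent.P153.FKG.Defs

/-! P153, module FKG: finiteness and locality. -/

open Set

noncomputable section
namespace Vale.Agent.P153

variable {S T E : Set Cfg} {U U' B F : Set V} {H K : Cfg} {f g : Cfg → ℝ} {j k m ε : ℤ}

theorem lip_const (k : ℤ) : Lip fun _ => k := fun _ _ _ => by simp

theorem lip_two (h : ∀ x, H x = k ∨ H x = k + 1) : Lip H := fun x y _ => by
  have := h x
  have := h y
  rw [abs_le]; omega

theorem Lip.inf (h : Lip H) (h' : Lip K) : Lip (H ⊓ K) := fun x y hxy => by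
  have := abs_le.1 (h x y hxy)
  have := abs_le.1 (h' x y hxy)
  rw [abs_le, Pi.inf_apply, Pi.inf_apply]
  omega

theorem Lip.sup (h : Lip H) (h' : Lip K) : Lip (H ⊔ K) := fun x y hxy => by
  have := abs_le.1 (h x y hxy)
  have := abs_le.1 (h' x y hxy)
  rw [abs_le, Pi.sup_apply, Pi.sup_apply]
  omega

theorem Lip.pw (h : Lip H) (h' : Lip K) (hc : ∀ a ∈ U, ∀ b, b ∉ U → Adj a b → |H a - K b| ≤ 1) :
    Lip (pw U H K) := fun x y hxy => by
  by_cases hx : x ∈ U <;> by_cases hy : y ∈ U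
  · rw [pw_in _ _ hx, pw_in _ _ hy]; exact h x y hxy
  · rw [pw_in _ _ hx, pw_out _ _ hy]; exact hc x hx y hy hxy
  · rw [pw_out _ _ hx, pw_in _ _ hy, abs_sub_comm]; exact hc y hy x hx hxy.symm
  · rw [pw_out _ _ hx, pw_out _ _ hy]; exact h' x y hxy

theorem ab_eq_one {x : V} : ab j H x = 1 ↔ H x = j ∨ H x = j + 1 := by
  unfold ab
  rcases abs_cases (2 * (H x - j) - 1) with h | h <;> omega

theorem one_le_ab (j : ℤ) (H : Cfg) (x : V) : 1 ≤ ab j H x := by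
  unfold ab
  rcases abs_cases (2 * (H x - j) - 1) with h | h <;> omega

theorem ab_ne_one {x : V} : ¬ 3 ≤ ab j H x ↔ ab j H x = 1 := by
  unfold ab
  rcases abs_cases (2 * (H x - j) - 1) with h | h <;> omega

theorem finite_pin (hU : U.Finite) (b : Cfg) : {H | Lip H ∧ ∀ x, x ∉ U → H x = b x}.Finite := by
  obtain ⟨x₀, hx₀⟩ := hU.exists_notMem
  have := hU.to_subtype
  refine Finite.of_finite_image (f := U.restrict) ((Finite.pi' fun x : U =>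
    finite_Icc (b x₀ - nrm (x.1 - x₀)) (b x₀ + nrm (x.1 - x₀))).subset ?_) ?_
  · rintro _ ⟨H, hH, rfl⟩ x
    have := abs_le.1 (lip_nrm hH.1 x₀ x.1)
    rw [hH.2 x₀ hx₀] at this
    show _ ≤ H x ∧ H x ≤ _
    omega
  · intro H hH K hK e
    funext x
    by_cases hx : x ∈ U
    · exact congrFun e ⟨x, hx⟩
    · rw [hH.2 x hx, hK.2 x hx]

theorem good_flat (hU : U.Finite) (k : ℤ) : Good (flat U k) :=
  ⟨finite_pin hU fun _ => k, fun _ => k, lip_const k, fun _ _ => rfl⟩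

theorem good_free (hU : U.Finite) (k : ℤ) : Good (free U k) :=
  ⟨(finite_pin hU fun _ => k).subset fun _ h => ⟨h.1, h.2.1⟩, fun _ => k, lip_const k,
    fun _ _ => rfl, fun _ _ => Or.inl rfl⟩

theorem good_dob (hF : F.Finite) (P : Set V) : Good (dob F P) := by
  refine ⟨(finite_pin hF (pw P (fun _ => 1) fun _ => 0)).subset fun H h => ⟨h.1, fun x hx => ?_⟩,
    pw P (fun _ => 1) fun _ => 0, lip_two (k := 0) fun x => ?_,
    fun x _ => ⟨pw_in _ _, pw_out _ _⟩⟩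
  · by_cases h1 : x ∈ P
    · rw [pw_in _ _ h1, (h.2 x hx).1 h1]
    · rw [pw_out _ _ h1, (h.2 x hx).2 h1]
  · by_cases h1 : x ∈ P
    · exact Or.inr (pw_in _ _ h1)
    · exact Or.inl (pw_out _ _ h1)

theorem allLip_flat : AllLip (flat U k) := fun _ h => h.1

theorem allLip_free : AllLip (free U k) := fun _ h => h.1

theorem allLip_dob : AllLip (dob F U) := fun _ h => h.1

theorem allLip_Om {C : V → Set ℤ} : AllLip (Om C) := fun _ h => h.1

theorem FreeIn.mono (h : FreeIn S B) (h' : U ⊆ B) : FreeIn S U :=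
  ⟨h.1, fun H hH K hK e => h.2 H hH K hK fun x hx => e x fun hx' => hx (h' hx')⟩

theorem freeIn_flat (U : Set V) (k : ℤ) : FreeIn (flat U k) U :=
  ⟨allLip_flat, fun _ hH _ hK e => ⟨hK, fun x hx => (e x hx).trans (hH.2 x hx)⟩⟩

theorem freeIn_free (U : Set V) (k : ℤ) : FreeIn (free U k) (U \ ibd U) :=
  ⟨allLip_free, fun _ hH _ hK e => ⟨hK, fun x hx => (e x fun h => hx h.1).trans (hH.2.1 x hx),
    fun x hx => e x (fun h => h.2 hx) ▸ hH.2.2 x hx⟩⟩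

theorem freeIn_dob (F P : Set V) : FreeIn (dob F P) F :=
  ⟨allLip_dob, fun _ hH _ hK e => ⟨hK, fun x hx => e x hx ▸ hH.2 x hx⟩⟩

theorem freeIn_Om {C : V → Set ℤ} (h : ∀ x ∈ B, C x = univ) : FreeIn (Om C) B := by
  refine ⟨allLip_Om, fun H hH K hK e => ⟨hK, fun x => ?_⟩⟩
  by_cases hx : x ∈ B
  · rw [h x hx]; trivial
  · exact e x hx ▸ hH.2 x

theorem FreeIn.inter (h : FreeIn S B) (hE : DepOn (· ∈ E) Bᶜ) : FreeIn (S ∩ E) B :=
  ⟨fun H hH => h.1 H hH.1, fun H hH K hK e => ⟨h.2 H hH.1 K hK e, (hE K H e).mpr hH.2⟩⟩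

/-- Pinning the outside of a free region. -/
theorem FreeIn.pin_eq (h : FreeIn S B) (hU : Uᶜ ⊆ B) (hH : H ∈ S) :
    pin S U H = {K | Lip K ∧ ∀ x ∈ U, K x = H x} :=
  Subset.antisymm (fun K hK => ⟨h.1 K hK.1, hK.2⟩) fun K hK =>
    ⟨h.2 H hH K hK.1 fun x hx => hK.2 x (not_not.1 fun h' => hx (hU h')), hK.2⟩

theorem Loc_avg {A D : Set Cfg} (hA : A.Finite) (hD : D.Finite) (φ : Cfg × Cfg → ℝ) :
    Ex A (fun H => Ex D fun K => φ (H, K)) = avg (A ×ˢ D) φ := by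
  rw [avg, finsum_mem_eq_finite_toFinset_sum φ (hA.prod hD), ← hA.toFinset_prod hD,
    Finset.sum_product, ncard_prod]
  simp only [Ex_eq hA, Ex_eq hD, ← Finset.sum_div, div_div, Nat.cast_mul, mul_comm]

theorem Loc_bij {A A' D D' : Set Cfg}
    (h1 : ∀ H ∈ A, ∀ K ∈ D, pw U K H ∈ A' ∧ pw U H K ∈ D')
    (h2 : ∀ H ∈ A', ∀ K ∈ D', pw U K H ∈ A ∧ pw U H K ∈ D) :
    BijOn (fun p : Cfg × Cfg => (pw U p.2 p.1, pw U p.1 p.2)) (A ×ˢ D) (A' ×ˢ D') := by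
  have e : ∀ H K : Cfg, pw U (pw U H K) (pw U K H) = H := fun H K => funext fun x => by
    by_cases hx : x ∈ U <;> simp [pw, hx]
  exact InvOn.bijOn (f' := fun p : Cfg × Cfg => (pw U p.2 p.1, pw U p.1 p.2))
    ⟨fun p _ => by simp only [e], fun p _ => by simp only [e]⟩
    (fun p hp => h1 _ hp.1 _ hp.2) fun p hp => h2 _ hp.1 _ hp.2

/-- The exchange principle. -/
theorem Ex_swap {A A' D D' : Set Cfg} (hA : Good A) (hD : Good D)
    {Φ : Cfg × Cfg → Cfg × Cfg} (h : BijOn Φ (A ×ˢ D) (A' ×ˢ D')) (φ : Cfg × Cfg → ℝ) :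
    Good A' ∧ Good D' ∧ A.ncard * D.ncard = A'.ncard * D'.ncard ∧
      Ex A (fun H => Ex D fun K => φ (Φ (H, K))) = Ex A' fun H => Ex D' fun K => φ (H, K) := by
  have h1 : (A' ×ˢ D').Finite := h.image_eq ▸ (hA.1.prod hD.1).image Φ
  have h2 : (A' ×ˢ D').Nonempty := h.image_eq ▸ (hA.2.prod hD.2).image Φ
  have h3 : A'.Finite := fst_image_prod A' h2.snd ▸ h1.image Prod.fst
  have h4 : D'.Finite := snd_image_prod h2.fst D' ▸ h1.image Prod.snd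
  have h5 : (A ×ˢ D).ncard = (A' ×ˢ D').ncard := by rw [← h.image_eq, h.injOn.ncard_image]
  refine ⟨⟨h3, h2.fst⟩, ⟨h4, h2.snd⟩, by rwa [ncard_prod, ncard_prod] at h5, ?_⟩
  rw [Loc_avg hA.1 hD.1 fun p => φ (Φ p), Loc_avg h3 h4, avg, avg, h5,
    finsum_mem_eq_of_bijOn Φ h fun _ _ => rfl]

theorem card_swap {A A' D D' : Set Cfg}
    (h1 : ∀ H ∈ A, ∀ K ∈ D, pw U K H ∈ A' ∧ pw U H K ∈ D')
    (h2 : ∀ H ∈ A', ∀ K ∈ D', pw U K H ∈ A ∧ pw U H K ∈ D) :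
    A.ncard * D.ncard = A'.ncard * D'.ncard := by
  have h := Loc_bij h1 h2
  rw [← ncard_prod, ← ncard_prod, ← h.image_eq, h.injOn.ncard_image]

/-- Locality: the laws on `U` agree. -/
theorem Ex_local (hS : Good S) (hT : Good T)
    (h : ∀ H ∈ S, ∀ K ∈ T, pw U K H ∈ S ∧ pw U H K ∈ T)
    (hf : ∀ H ∈ S, ∀ K ∈ T, (∀ x ∈ U, H x = K x) → f H = g K) : Ex S f = Ex T g := by
  have h1 := (Ex_swap hS hT (Loc_bij h h) fun p => g p.2).2.2.2
  rw [Ex_const hS (Ex T g)] at h1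
  rw [← h1]
  refine Ex_congr fun H hH => ((Ex_congr fun K hK => ?_).trans (Ex_const hT _)).symm
  exact (hf H hH _ (h H hH K hK).2 fun x hx => (pw_in _ _ hx).symm).symm

theorem Pr_local {E' : Set Cfg} (hS : Good S) (hT : Good T)
    (h : ∀ H ∈ S, ∀ K ∈ T, pw U K H ∈ S ∧ pw U H K ∈ T)
    (hf : ∀ H ∈ S, ∀ K ∈ T, (∀ x ∈ U, H x = K x) → (H ∈ E ↔ K ∈ E')) : Pr S E = Pr T E' :=
  Ex_local hS hT h fun H hH K hK e =>
    le_antisymm (ind_mono (hf H hH K hK e).1) (ind_mono (hf H hH K hK e).2)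

/-- Independence of the inside and the outside. -/
theorem Ex_indep (h : ∀ H ∈ S, ∀ K ∈ S, pw U H K ∈ S)
    (hf : ∀ H ∈ S, ∀ K ∈ S, (∀ x ∈ U, H x = K x) → f H = f K)
    (hg : ∀ H ∈ S, ∀ K ∈ S, (∀ x, x ∉ U → H x = K x) → g H = g K) :
    Ex S (fun H => f H * g H) = Ex S f * Ex S g := by
  by_cases h0 : S.Finite
  swap
  · simp [Ex_inf h0]
  rcases S.eq_empty_or_nonempty with rfl | h1
  · simp [Ex_empty]
  have hS : Good S := ⟨h0, h1⟩
  have h2 : ∀ H ∈ S, ∀ K ∈ S, pw U K H ∈ S ∧ pw U H K ∈ S :=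
    fun H hH K hK => ⟨h K hK H hH, h H hH K hK⟩
  have h3 := (Ex_swap hS hS (Loc_bij h2 h2) fun p => f p.2 * g p.2).2.2.2
  rw [Ex_const hS (Ex S fun K => f K * g K)] at h3
  rw [← h3, ← Ex_mul_right]
  refine Ex_congr fun H hH => ?_
  rw [← Ex_mul_left]
  refine Ex_congr fun K hK => ?_
  rw [hf H hH _ (h H hH K hK) fun x hx => (pw_in _ _ hx).symm,
    hg K hK _ (h H hH K hK) fun x hx => (pw_out _ _ hx).symm]

/-- Markov property across pinned sites: the law on `U` only depends on the constraints on `U`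
and the pinned values on the outer boundary. -/
theorem Ex_local_Om {C C' : V → Set ℤ} (hS : Good (Om C)) (hT : Good (Om C'))
    (h1 : ∀ x ∈ U, C x = C' x)
    (h2 : ∀ a ∈ U, ∀ b, b ∉ U → Adj a b → (∃ t, C b ⊆ {t} ∧ C' b ⊆ {t}) ∨
      ∀ s ∈ C a, ∀ t ∈ C b ∪ C' b, |s - t| ≤ 1)
    (hf : DepOn f U) : Ex (Om C) f = Ex (Om C') f := by
  refine Ex_local (U := U) hS hT (fun H hH K hK => ⟨⟨hK.1.pw hH.1 fun a ha b hb hab => ?_,
    fun x => ?_⟩, hH.1.pw hK.1 fun a ha b hb hab => ?_, fun x => ?_⟩) fun H _ K _ e => hf H K e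
  · rcases h2 a ha b hb hab with ⟨t, h3, h4⟩ | h3
    · rw [(h3 (hH.2 b)).trans (h4 (hK.2 b)).symm]
      exact hK.1 a b hab
    · exact h3 _ (h1 a ha ▸ hK.2 a) _ (Or.inl (hH.2 b))
  · by_cases hx : x ∈ U
    · rw [pw_in _ _ hx, h1 x hx]; exact hK.2 x
    · rw [pw_out _ _ hx]; exact hH.2 x
  · rcases h2 a ha b hb hab with ⟨t, h3, h4⟩ | h3
    · rw [(h4 (hK.2 b)).trans (h3 (hH.2 b)).symm]
      exact hH.1 a b hab
    · exact h3 _ (hH.2 a) _ (Or.inr (hK.2 b))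
  · by_cases hx : x ∈ U
    · rw [pw_in _ _ hx, ← h1 x hx]; exact hH.2 x
    · rw [pw_out _ _ hx]; exact hK.2 x

/-- A set that looks like the band `k` round `U` has the law of `free U k` on `U`. -/
theorem Ex_eq_free (hS : Good S) (hU : U.Finite) (hl : AllLip S)
    (h1 : ∀ H ∈ S, ∀ x ∈ ibd U ∪ obd U, H x = k ∨ H x = k + 1)
    (h2 : ∀ H ∈ S, ∀ K, Lip K → (∀ x, x ∉ U → K x = H x) →
      (∀ x ∈ ibd U, K x = k ∨ K x = k + 1) → K ∈ S)
    (hf : ∀ H ∈ S, ∀ K ∈ free U k, (∀ x ∈ U, H x = K x) → f H = g K) :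
    Ex S f = Ex (free U k) g := by
  refine Ex_local (U := U) hS (good_free hU k) (fun H hH K hK => ⟨h2 H hH _
    (hK.1.pw (hl H hH) fun a ha b hb hab => ?_) (fun x hx => pw_out _ _ hx) fun x hx => ?_,
    (hl H hH).pw hK.1 fun a ha b hb hab => ?_, fun x hx => ?_, fun x hx => ?_⟩) hf
  · have := hK.2.2 a ⟨ha, b, hb, hab⟩
    have := h1 H hH b (Or.inr ⟨hb, a, ha, hab.symm⟩)
    rw [abs_le]; omega
  · rw [pw_in _ _ hx.1]; exact hK.2.2 x hx
  · have := h1 H hH a (Or.inl ⟨ha, b, hb, hab⟩)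
    have := hK.2.1 b hb
    rw [abs_le]; omega
  · rw [pw_out _ _ hx]; exact hK.2.1 x hx
  · rw [pw_in _ _ hx.1]; exact h1 H hH x (Or.inl hx)

/-- A set that is free in `U` and equal to `k` on the outer boundary has the law of `flat U k`. -/
theorem Ex_eq_flat (hS : Good S) (hU : U.Finite) (h0 : FreeIn S U)
    (h1 : ∀ H ∈ S, ∀ x ∈ obd U, H x = k)
    (hf : ∀ H ∈ S, ∀ K ∈ flat U k, (∀ x ∈ U, H x = K x) → f H = g K) :
    Ex S f = Ex (flat U k) g := by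
  refine Ex_local (U := U) hS (good_flat hU k) (fun H hH K hK => ⟨h0.2 H hH _
    (hK.1.pw (h0.1 H hH) fun a ha b hb hab => ?_) fun x hx => pw_out _ _ hx,
    (h0.1 H hH).pw hK.1 fun a ha b hb hab => ?_, fun x hx => ?_⟩) hf
  · rw [h1 H hH b ⟨hb, a, ha, hab.symm⟩, ← hK.2 b hb]
    exact hK.1 a b hab
  · rw [hK.2 b hb, ← h1 H hH b ⟨hb, a, ha, hab.symm⟩]
    exact h0.1 H hH a b hab
  · rw [pw_out _ _ hx]; exact hK.2 x hx

end Vale.Agent.P153
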