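import Vale.Agent.P153.FKG.Sym
import Vale.Agent.P153.Planar.Timar

/-! P153, module FKG: Poincare lemma and lifts of heights modulo 4. -/

open Set

noncomputable section
namespace Vale.Agent.P153

variable {U B : Set V} {H K : Cfg}

theorem Poin_prim {G : Type} [AddCommGroup G] (a : ℤ → G) (c : G) :
    ∃ P : ℤ → G, P 0 = c ∧ ∀ n, P (n + 1) - P n = a n := by
  let A : ℕ → G := fun n => Nat.rec c (fun k s => s + a k) n
  let D : ℕ → G := fun n => Nat.rec c (fun k s => s - a (Int.negSucc k)) n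
  refine ⟨fun n => Int.rec A (fun k => D (k + 1)) n, rfl, fun n => ?_⟩
  rcases n with k | _ | k
  exacts [add_sub_cancel_left (A k) _, sub_sub_cancel c _, sub_sub_cancel (D (k + 1)) _]

/-- Closed cochains are exact. -/
theorem poincareG {G : Type} [AddCommGroup G] (α : V → V → G)
    (h1 : ∀ x y, Adj x y → α y x = -α x y)
    (h2 : ∀ x y z, Adj x y → Adj y z → Adj z x → α x y + α y z + α z x = 0) :
    ∃ f : V → G, f 0 = 0 ∧ ∀ x y, Adj x y → f y - f x = α x y := by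
  obtain ⟨F, hF0, hF⟩ := Poin_prim (fun i => α (i, 0) (i + 1, 0)) 0
  choose P hP0 hP using fun i => Poin_prim (fun j => α (i, j) (i, j + 1)) (F i)
  have t1 : ∀ i j : ℤ, α (i + 1, j) (i, j + 1) = α (i, j) (i, j + 1) - α (i, j) (i + 1, j) :=
    fun i j => by
      have e1 := h2 (i, j) (i + 1, j) (i, j + 1) (by simp [adj_iff]) (by simp [adj_iff])
        (by simp [adj_iff])
      rw [h1 (i, j) (i, j + 1) (by simp [adj_iff])] at e1
      linear_combination (norm := abel1) e1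
  have t2 : ∀ i j : ℤ, α (i + 1, j) (i, j + 1) =
      α (i + 1, j) (i + 1, j + 1) - α (i, j + 1) (i + 1, j + 1) := fun i j => by
    have e1 := h2 (i + 1, j) (i, j + 1) (i + 1, j + 1) (by simp [adj_iff]) (by simp [adj_iff])
      (by simp [adj_iff])
    rw [h1 (i + 1, j) (i + 1, j + 1) (by simp [adj_iff])] at e1
    linear_combination (norm := abel1) e1
  have hr : ∀ i j : ℤ, P (i + 1) j - P i j = α (i, j) (i + 1, j) := fun i j => by
    induction j using Int.induction_on with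
    | zero => rw [hP0, hP0]; exact hF i
    | succ j ih =>
      linear_combination (norm := abel1) ih + hP (i + 1) j - hP i j + t1 i j - t2 i j
    | pred j ih =>
      have e1 := hP (i + 1) (-j - 1)
      have e2 := hP i (-j - 1)
      have e3 := t1 i (-j - 1)
      have e4 := t2 i (-j - 1)
      rw [sub_add_cancel] at e1 e2 e3 e4
      linear_combination (norm := abel1) ih - e1 + e2 - e3 + e4
  have hd : ∀ i j : ℤ, P i (j + 1) - P (i + 1) j = α (i + 1, j) (i, j + 1) := fun i j => by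
    linear_combination (norm := abel1) hP i j - hr i j - t1 i j
  refine ⟨fun x => P x.1 x.2, (hP0 0).trans hF0, fun x y h => ?_⟩
  have rv : ∀ u v, Adj u v → P v.1 v.2 - P u.1 u.2 = α u v → P u.1 u.2 - P v.1 v.2 = α v u :=
    fun u v k e => by rw [h1 u v k, ← e, neg_sub]
  have h' := h.symm
  obtain ⟨i, j⟩ := x
  obtain ⟨k, l⟩ := y
  rcases adj_iff.1 h with ⟨e, e'⟩ | ⟨e, e'⟩ | ⟨e, e'⟩ | ⟨e, e'⟩ | ⟨e, e'⟩ | ⟨e, e'⟩ <;>
    dsimp only at e e'
  · subst e e'; exact hr _ _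
  · obtain rfl : i = k + 1 := by omega
    subst e'; exact rv _ _ h' (hr _ _)
  · subst e e'; exact hP _ _
  · obtain rfl : j = l + 1 := by omega
    subst e; exact rv _ _ h' (hP _ _)
  · obtain rfl : i = k + 1 := by omega
    subst e'; exact hd _ _
  · obtain rfl : j = l + 1 := by omega
    subst e; exact rv _ _ h' (hd _ _)

/-- Lifting a function that is Lipschitz modulo 4. -/
theorem lift4 (G : Cfg)
    (h : ∀ x y, Adj x y → (G x - G y) % 4 = 0 ∨ (G x - G y) % 4 = 1 ∨ (G x - G y) % 4 = 3)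
    (x₀ : V) : ∃ H, Lip H ∧ Eq4 univ H G ∧ H x₀ = G x₀ := by
  obtain ⟨f, -, hf⟩ := poincareG (fun x y => (G y - G x + 1) % 4 - 1)
    (fun x y k => by have := h x y k; omega)
    (fun x y z k1 k2 k3 => by
      have := h x y k1; have := h y z k2; have := h z x k3; omega)
  refine ⟨fun x => f x - f x₀ + G x₀, fun x y k => ?_, fun x _ => ?_, by simp⟩
  · have := hf x y k
    have := h x y k
    rw [abs_le]; dsimp only; omega
  · refine (conn_univ x₀ x).ind (P := fun x => (f x - f x₀ + G x₀ - G x) % 4 = 0) (by simp)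
      fun u v _ k _ _ _ ih => ?_
    have := hf u v k
    omega

theorem Eq4.refl (B : Set V) (H : Cfg) : Eq4 B H H := fun x _ => by simp

theorem Eq4.symm (h : Eq4 B H K) : Eq4 B K H := fun x hx => by have := h x hx; omega

theorem Eq4.trans {G : Cfg} (h : Eq4 B H K) (h' : Eq4 B K G) : Eq4 B H G := fun x hx => by
  have := h x hx; have := h' x hx; omega

theorem Eq4.mono (h : Eq4 B H K) (h' : U ⊆ B) : Eq4 U H K := fun x hx => h x (h' hx)

theorem Eq4.sp (h : Eq4 B H K) (j : ℤ) {x : V} (hx : x ∈ B) : x ∈ sp j H ↔ x ∈ sp j K := by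
  have := h x hx
  simp only [P153.sp, mem_ofPred_eq]; omega

theorem eq4_of_sp (j : ℤ) (h : ∀ x ∈ B, (x ∈ sp j H ↔ x ∈ sp j K) ∧
    (x ∈ sp (j + 1) H ↔ x ∈ sp (j + 1) K)) : Eq4 B H K := fun x hx => by
  have := h x hx
  simp only [sp, mem_ofPred_eq] at this; omega

theorem sp_add_two (j : ℤ) (H : Cfg) : sp (j + 2) H = (sp j H)ᶜ := (sp_compl j H).symm

theorem sp_congr {j j' : ℤ} (h : (j - j') % 4 = 0) (H : Cfg) : sp j H = sp j' H := by
  ext x; simp only [sp, mem_ofPred_eq]; omega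

/-- On a connected set the difference of two lifts is constant. -/
theorem Eq4.diff (h : Eq4 B H K) (hH : Lip H) (hK : Lip K) {x y : V}
    (hc : Conn (fun _ _ => True) B x y) : H y - K y = H x - K x :=
  hc.ind (P := fun y => H y - K y = H x - K x) rfl fun u v _ k _ hu hv ih => by
    have := h u hu
    have := h v hv
    have := abs_le.1 (hH u v k)
    have := abs_le.1 (hK u v k)
    omega

theorem Eq4.eq (h : Eq4 univ H K) (hH : Lip H) (hK : Lip K) {x₀ : V} (h0 : H x₀ = K x₀) :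
    H = K := funext fun y => by
  have := h.diff hH hK (conn_univ x₀ y)
  omega

theorem dep4_of_inv4 {α : Type} {f : Cfg → α} (hB : Cnn B) (h1 : DepOn f B) (h2 : Inv4 f) :
    Dep4 f B := fun H K hH hK h => by
  rcases B.eq_empty_or_nonempty with rfl | ⟨x, hx⟩
  · exact h1 H K fun _ k => k.elim
  · rw [← h2.shift ((H x - K x) / 4) K]
    refine h1 _ _ fun y hy => ?_
    have := h.diff hH hK (hB x hx y hy)
    have := h x hx
    omega

theorem cnn_hex (x : V) (n : ℕ) : Cnn (hex x n) := fun _ ha _ hb =>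
  ((conn_hex ha).symm fun _ _ => id).trans (conn_hex hb)

theorem cnn_hex_compl (x : V) (n : ℕ) : Cnn (hex x n)ᶜ := fun a ha b hb =>
  cn_compl_hex x n a ha b hb

theorem compl_nonempty (hU : U.Finite) : ∃ x, x ∉ U := hU.exists_notMem

theorem Poin_glue (U : Set V) (x₀ : V) : ∃ γ : Cfg → Cfg → Cfg, ∀ H K, Lip H → Lip K → x₀ ∉ U →
    (∀ a ∈ U, ∀ b, b ∉ U → Adj a b → (H a - K b) % 4 ≠ 2) →
    Lip (γ H K) ∧ Eq4 U (γ H K) H ∧ Eq4 Uᶜ (γ H K) K ∧ γ H K x₀ = K x₀ := by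
  suffices h : ∀ H K, ∃ G, Lip H → Lip K → x₀ ∉ U →
      (∀ a ∈ U, ∀ b, b ∉ U → Adj a b → (H a - K b) % 4 ≠ 2) →
      Lip G ∧ Eq4 U G H ∧ Eq4 Uᶜ G K ∧ G x₀ = K x₀ by
    choose γ hγ using h
    exact ⟨γ, hγ⟩
  intro H K
  by_cases h : Lip H ∧ Lip K ∧ ∀ a ∈ U, ∀ b, b ∉ U → Adj a b → (H a - K b) % 4 ≠ 2
  swap
  · exact ⟨H, fun k1 k2 _ k3 => absurd ⟨k1, k2, k3⟩ h⟩
  obtain ⟨G, g1, g2, g3⟩ := lift4 (pw U H K) (fun x y k => by
    have := abs_le.1 (h.1 x y k)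
    have := abs_le.1 (h.2.1 x y k)
    by_cases hx : x ∈ U <;> by_cases hy : y ∈ U
    · rw [pw_in _ _ hx, pw_in _ _ hy]; omega
    · rw [pw_in _ _ hx, pw_out _ _ hy]; have := h.2.2 x hx y hy k; omega
    · rw [pw_out _ _ hx, pw_in _ _ hy]; have := h.2.2 y hy x hx k.symm; omega
    · rw [pw_out _ _ hx, pw_out _ _ hy]; omega) x₀
  exact ⟨G, fun _ _ k _ => ⟨g1, fun x hx => pw_in H K hx ▸ g2 x trivial,
    fun x hx => pw_out H K hx ▸ g2 x trivial, g3.trans (pw_out H K k)⟩⟩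

theorem Poin_univ (h : Eq4 U H K) (h' : Eq4 Uᶜ H K) : Eq4 univ H K := fun x _ =>
  (em (x ∈ U)).elim (h x) (h' x)

/-- Locality for heights modulo 4. -/
theorem Ex_local4 {S T : Set Cfg} {f g : Cfg → ℝ} {x₀ x₁ : V} (hS : Good S) (hT : Good T)
    (lS : AllLip S) (lT : AllLip T) (h0 : x₀ ∉ U) (h1 : x₁ ∉ U)
    (hc : ∀ H ∈ S, ∀ K ∈ T, ∀ a ∈ U, ∀ b, b ∉ U → Adj a b →
      (H a - K b) % 4 ≠ 2 ∧ (K a - H b) % 4 ≠ 2)
    (gS : ∀ H ∈ S, ∀ K ∈ T, ∀ G, Lip G → Eq4 U G K → Eq4 Uᶜ G H → G x₀ = H x₀ → G ∈ S)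
    (gT : ∀ H ∈ S, ∀ K ∈ T, ∀ G, Lip G → Eq4 U G H → Eq4 Uᶜ G K → G x₁ = K x₁ → G ∈ T)
    (hf : ∀ H ∈ S, ∀ K ∈ T, Eq4 U H K → f H = g K) : Ex S f = Ex T g := by
  obtain ⟨γ₀, a0⟩ := Poin_glue U x₀
  obtain ⟨γ₁, a1⟩ := Poin_glue U x₁
  have b0 := fun H (hH : H ∈ S) K (hK : K ∈ T) => a0 K H (lT K hK) (lS H hH) h0
    fun a ha b hb k => (hc H hH K hK a ha b hb k).2
  have b1 := fun H (hH : H ∈ S) K (hK : K ∈ T) => a1 H K (lS H hH) (lT K hK) h1
    fun a ha b hb k => (hc H hH K hK a ha b hb k).1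
  have m : MapsTo (fun p : Cfg × Cfg => (γ₀ p.2 p.1, γ₁ p.1 p.2)) (S ×ˢ T) (S ×ˢ T) :=
    fun p hp => by
      obtain ⟨c1, c2, c3, c4⟩ := b0 _ hp.1 _ hp.2
      obtain ⟨d1, d2, d3, d4⟩ := b1 _ hp.1 _ hp.2
      exact ⟨gS _ hp.1 _ hp.2 _ c1 c2 c3 c4, gT _ hp.1 _ hp.2 _ d1 d2 d3 d4⟩
  have iv : LeftInvOn (fun p : Cfg × Cfg => (γ₀ p.2 p.1, γ₁ p.1 p.2))
      (fun p : Cfg × Cfg => (γ₀ p.2 p.1, γ₁ p.1 p.2)) (S ×ˢ T) := fun p hp => by
    obtain ⟨-, c2, c3, c4⟩ := b0 _ hp.1 _ hp.2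
    obtain ⟨-, d2, d3, d4⟩ := b1 _ hp.1 _ hp.2
    obtain ⟨e1, e2, e3, e4⟩ := b0 _ (m hp).1 _ (m hp).2
    obtain ⟨f1, f2, f3, f4⟩ := b1 _ (m hp).1 _ (m hp).2
    exact Prod.ext ((Poin_univ (e2.trans d2) (e3.trans c3)).eq e1 (lS _ hp.1) (e4.trans c4))
      ((Poin_univ (f2.trans c2) (f3.trans d3)).eq f1 (lT _ hp.2) (f4.trans d4))
  have key : (Ex S fun H => Ex T fun K => g (γ₁ H K)) = Ex S fun _ => Ex T g :=
    (Ex_swap hS hT (InvOn.bijOn ⟨iv, iv⟩ m m) fun p => g p.2).2.2.2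
  rw [Ex_const hS] at key
  rw [← key]
  refine Ex_congr fun H hH => ?_
  rw [← Ex_const hT (f H)]
  refine Ex_congr fun K hK => ?_
  obtain ⟨d1, d2, d3, d4⟩ := b1 H hH K hK
  exact hf H hH _ (gT H hH K hK _ d1 d2 d3 d4) d2.symm

end Vale.Agent.P153
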