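import Vale.Agent.P153.FKG.Abs
import Vale.Agent.P153.FKG.Explore

/-! P153, module FKG: the ratio lemma and total variation bounds. -/

open Set

noncomputable section
namespace Vale.Agent.P153

variable {S T E : Set Cfg} {U U' B D : Set V} {hull : Cfg → Set V} {f : Cfg → ℝ} {j : ℤ}

theorem Ratio_s1 (hT : FreeIn T B) {H K : Cfg} (hK : K ∈ T) {R : Set V} (hR : R ⊆ B)
    (h : Lip (pw R H K)) : pw R H K ∈ T :=
  hT.2 K hK _ h fun _ hx => pw_out _ _ fun h' => hx (hR h')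

theorem Ratio_free {H K : Cfg} (hH : H ∈ free U j) {R : Set V} (hR : R ⊆ U)
    (h1 : ∀ x ∈ R, x ∈ ibd U → K x = j ∨ K x = j + 1) (h : Lip (pw R K H)) :
    pw R K H ∈ free U j := by
  refine ⟨h, fun x hx => ?_, fun x hx => ?_⟩
  · rw [pw_out _ _ fun h' => hx (hR h'), hH.2.1 x hx]
  · by_cases hx' : x ∈ R
    · rw [pw_in _ _ hx']
      exact h1 x hx' hx
    · rw [pw_out _ _ hx']
      exact hH.2.2 x hx

theorem Ratio_s2 {H K : Cfg} (hH : H ∈ free U j) {R : Set V} (hR : R ⊆ U) (hs : Shut j R K)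
    (h : Lip (pw R K H)) : pw R K H ∈ free U j :=
  Ratio_free hH hR (fun x hx ⟨_, y, h1, h2⟩ =>
    ab_eq_one.1 (hs x hx y (fun h' => h1 (hR h')) h2).1) h

theorem swp_freeIn (hS : FreeIn S B) (hT : FreeIn T B) (j : ℤ) : Swp j S T B :=
  ⟨hS.1, hT.1, fun _ _ _ hK _ hR => Ratio_s1 hT hK hR, fun _ hH _ _ _ hR _ => Ratio_s1 hS hH hR,
    fun _ => j, fun _ => ab_eq_one.2 (Or.inl rfl), fun _ hK _ hR => Ratio_s1 hT hK hR⟩

theorem swp_free_freeIn (hT : FreeIn T U) (j : ℤ) : Swp j (free U j) T U :=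
  ⟨allLip_free, hT.1, fun _ _ _ hK _ hR => Ratio_s1 hT hK hR,
    fun _ hH _ _ _ hR => Ratio_s2 hH hR,
    fun _ => j, fun _ => ab_eq_one.2 (Or.inl rfl), fun _ hK _ hR => Ratio_s1 hT hK hR⟩

theorem swp_free (h : U ⊆ U') (j : ℤ) : Swp j (free U j) (free U' j) U :=
  ⟨allLip_free, allLip_free, fun _ hH _ hK _ hR => Ratio_free hK (hR.trans h)
      fun x hx ⟨_, y, h1, h2⟩ => hH.2.2 x ⟨hR hx, y, fun h' => h1 (h h'), h2⟩,
    fun _ hH _ _ _ hR => Ratio_s2 hH hR, fun _ => j, fun _ => ab_eq_one.2 (Or.inl rfl),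
    fun _ hK _ hR => Ratio_free hK (hR.trans h) fun _ _ _ => Or.inl rfl⟩

theorem Ratio_in {R : Set V} {x : V} (H K : Cfg) (h : x ∈ R) : ab j (pw R H K) x = ab j H x := by
  unfold ab
  rw [pw_in _ _ h]

theorem Ratio_out {R : Set V} {x : V} (H K : Cfg) (h : x ∉ R) : ab j (pw R H K) x = ab j K x := by
  unfold ab
  rw [pw_out _ _ h]

theorem Ratio_lip {R : Set V} {H K : Cfg} (lH : Lip H) (lK : Lip K)
    (h : ∀ a ∈ R, ∀ b, b ∉ R → Adj a b → ab j H a = 1 ∧ ab j K b = 1) : Lip (pw R H K) :=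
  lH.pw lK fun a ha b hb hab => by
    have h1 := ab_eq_one.1 (h a ha b hb hab).1
    have h2 := ab_eq_one.1 (h a ha b hb hab).2
    rw [abs_le]
    omega

/-- The cell of a configuration. -/
def Ratio_c (j : ℤ) (R : Set V) (G : Cfg) : Set Cfg := {K | (∀ x ∈ R, K x = G x) ∧ Shut j R K}

/-- The flat event. -/
def Ratio_M (j : ℤ) (R : Set V) : Set Cfg := {K | (∀ x ∈ R, ab j K x = 1) ∧ Shut j R K}

theorem Ratio_sw {R : Set V} {G H K : Cfg} (hH : H ∈ Ratio_c j R G) (hK : K ∈ Ratio_M j R) :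
    pw R K H ∈ Ratio_M j R ∧ pw R H K ∈ Ratio_c j R G :=
  ⟨⟨fun x hx => (Ratio_in _ _ hx).trans (hK.1 x hx), fun a ha b hb hab =>
    ⟨(Ratio_in _ _ ha).trans (hK.1 a ha), (Ratio_out _ _ hb).trans (hH.2 a ha b hb hab).2⟩⟩,
   ⟨fun x hx => (pw_in _ _ hx).trans (hH.1 x hx), fun a ha b hb hab =>
    ⟨(Ratio_in _ _ ha).trans (hH.2 a ha b hb hab).1,
      (Ratio_out _ _ hb).trans (hK.2 a ha b hb hab).2⟩⟩⟩

theorem Ratio_cell (sw : Swp j S T B) (hS : Good S) (hT : Good T) (sd : SD (ab j) S T)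
    {R : Set V} (hR : R ⊆ B) {G : Cfg} (hG : G ∈ T) (hs : Shut j R G) :
    Pr T (Ratio_c j R G) ≤ Pr S (Ratio_c j R G) := by
  have l : ∀ {H K : Cfg}, Lip H → Lip K → Shut j R H → Shut j R K → Lip (pw R H K) :=
    fun lH lK h1 h2 => Ratio_lip lH lK fun a ha b hb hab =>
      ⟨(h1 a ha b hb hab).1, (h2 a ha b hb hab).2⟩
  have e := card_swap (U := R) (A := S ∩ Ratio_c j R G) (D := T ∩ Ratio_M j R)
    (A' := S ∩ Ratio_M j R) (D' := T ∩ Ratio_c j R G)
    (fun H hH K hK => ⟨⟨sw.s2 H hH.1 K hK.1 R hR hK.2.2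
        (l (sw.lT K hK.1) (sw.lS H hH.1) hK.2.2 hH.2.2), (Ratio_sw hH.2 hK.2).1⟩,
      sw.s1 H hH.1 K hK.1 R hR (l (sw.lS H hH.1) (sw.lT K hK.1) hH.2.2 hK.2.2),
      (Ratio_sw hH.2 hK.2).2⟩)
    fun H hH K hK => ⟨⟨sw.s2 H hH.1 K hK.1 R hR hK.2.2
        (l (sw.lT K hK.1) (sw.lS H hH.1) hK.2.2 hH.2.2), (Ratio_sw hK.2 hH.2).2⟩,
      sw.s1 H hH.1 K hK.1 R hR (l (sw.lS H hH.1) (sw.lT K hK.1) hH.2.2 hK.2.2),
      (Ratio_sw hK.2 hH.2).1⟩
  have e' : Pr S (Ratio_c j R G) * Pr T (Ratio_M j R) =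
      Pr S (Ratio_M j R) * Pr T (Ratio_c j R G) := by
    rw [Pr_eq hS.1, Pr_eq hS.1, Pr_eq hT.1, Pr_eq hT.1, div_mul_div_comm, div_mul_div_comm,
      ← Nat.cast_mul, e, Nat.cast_mul]
  have d : Pr T (Ratio_M j R) ≤ Pr S (Ratio_M j R) := sd.dec fun H K _ _ h hK => by
    have q : ∀ x, ab j K x = 1 → ab j H x = 1 := fun x hx =>
      le_antisymm ((h x).trans hx.le) (one_le_ab j H x)
    exact ⟨fun x hx => q x (hK.1 x hx), fun a ha b hb hab =>
      ⟨q a (hK.2 a ha b hb hab).1, q b (hK.2 a ha b hb hab).2⟩⟩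
  obtain ⟨r, r1, r2⟩ := sw.s3
  have rM : r ∈ Ratio_M j R := ⟨fun x _ => r1 x, fun a _ b _ _ => ⟨r1 a, r1 b⟩⟩
  have p := Pr_pos hT.1 (r2 G hG R hR (l (lip_two fun x => ab_eq_one.1 (r1 x)) (sw.lT G hG)
    rM.2 hs)) (Ratio_sw (G := G) ⟨fun _ _ => rfl, hs⟩ rM).1
  refine le_of_mul_le_mul_right ?_ p
  rw [e', mul_comm]
  exact mul_le_mul_of_nonneg_right d (Pr_nonneg _ _)

/-- Confined events are more likely under the lower measure. -/
theorem ratio_lo (sw : Swp j S T B) (hS : Good S) (hT : Good T) (sd : SD (ab j) S T)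
    (hE : Conf j B hull E) (f0 : ∀ H, 0 ≤ f H)
    (hf : ∀ H K, Lip H → Lip K → H ∈ E → (∀ x ∈ hull H, K x = H x) → f K = f H) :
    Ex T (E.indicator f) ≤ Ex S (E.indicator f) := by
  classical
  set C := (hT.1.inter_of_left E).toFinset.image fun G => Ratio_c j (hull G) G with hC
  have pt : ∀ K, Lip K → ∑ γ ∈ C, γ.indicator f K =
      if Ratio_c j (hull K) K ∈ C then E.indicator f K else 0 := by
    intro K lK
    rw [← Finset.sum_ite_eq' C (Ratio_c j (hull K) K) fun _ => E.indicator f K]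
    refine Finset.sum_congr rfl fun γ hγ => ?_
    obtain ⟨G, hG, rfl⟩ := Finset.mem_image.1 hγ
    obtain ⟨g1, g2⟩ := (Finite.mem_toFinset _).1 hG
    by_cases h : K ∈ Ratio_c j (hull G) G
    · obtain ⟨k1, k2⟩ := (hE G g2 (sw.lT G g1)).2.2 K lK h.1 h.2
      rw [indicator_of_mem h, indicator_of_mem k1, if_pos]
      rw [k2]
      ext L
      exact and_congr_left fun _ => forall₂_congr fun x hx => by rw [h.1 x hx]
    · rw [indicator_of_notMem h]
      split_ifs with h'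
      · rw [indicator_of_notMem fun k1 => h ?_]
        rw [h']
        exact ⟨fun _ _ => rfl, (hE K k1 lK).2.1⟩
      · rfl
  have cst : ∀ {A : Set Cfg}, AllLip A → ∀ G ∈ T ∩ E,
      Ex A ((Ratio_c j (hull G) G).indicator f) = f G * Pr A (Ratio_c j (hull G) G) := by
    intro A lA G hG
    rw [Pr, ← Ex_mul_left]
    refine Ex_congr fun K hK => ?_
    by_cases h : K ∈ Ratio_c j (hull G) G
    · rw [indicator_of_mem h, indicator_of_mem h, hf G K (sw.lT G hG.1) (lA K hK) hG.2 h.1]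
      exact (mul_one _).symm
    · rw [indicator_of_notMem h, indicator_of_notMem h, mul_zero]
  calc Ex T (E.indicator f) = Ex T fun K => ∑ γ ∈ C, γ.indicator f K := by
        refine Ex_congr fun K hK => ?_
        rw [pt K (sw.lT K hK)]
        split_ifs with h
        · rfl
        · exact indicator_of_notMem (fun k1 => h (Finset.mem_image_of_mem _
            ((Finite.mem_toFinset _).2 ⟨hK, k1⟩))) _
    _ ≤ Ex S fun K => ∑ γ ∈ C, γ.indicator f K := by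
        rw [Ex_sum, Ex_sum]
        refine Finset.sum_le_sum fun γ hγ => ?_
        obtain ⟨G, hG, rfl⟩ := Finset.mem_image.1 hγ
        have hG' := (Finite.mem_toFinset _).1 hG
        have q := hE G hG'.2 (sw.lT G hG'.1)
        exact (cst sw.lT G hG').trans_le ((mul_le_mul_of_nonneg_left
          (Ratio_cell sw hS hT sd q.1 hG'.1 q.2.1) (f0 G)).trans_eq (cst sw.lS G hG').symm)
    _ ≤ Ex S (E.indicator f) := by
        refine Ex_mono fun K hK => ?_
        rw [pt K (sw.lS K hK)]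
        split_ifs
        · rfl
        · exact indicator_nonneg (fun H _ => f0 H) K

theorem Ratio_eA {H K : Cfg} {a b : V} : ¬ eA j (H a) (K b) ↔ ab j H a = 1 ∧ ab j K b = 1 := by
  rw [← ab_ne_one, ← ab_ne_one, ← not_or]
  rfl

theorem conf_Rch (j : ℤ) (D B : Set V) :
    Conf j B (Rch D (eA j)) {H | Rch D (eA j) H ⊆ B} := by
  intro H hH _
  have s : Shut j (Rch D (eA j) H) H := fun a ha b hb hab =>
    Ratio_eA.1 fun h => hb (Rch_step ha hab h)
  refine ⟨hH, s, fun K _ h1 h2 => ?_⟩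
  have e := Rch_eq h1 fun a ha b hb hab =>
    Ratio_eA.2 ⟨(s a ha b hb hab).1, (h2 a ha b hb hab).2⟩
  exact ⟨e.subset.trans hH, e⟩

theorem Ratio_tv (sw : Swp j S T B) (hS : Good S) (hT : Good T) (sd : SD (ab j) S T)
    {M : ℝ} (hM : ∀ H, |f H| ≤ M) (hf : DepOn f D) :
    Ex T f - Ex S f ≤ 2 * M * Pr T {H | ¬ Rch D (eA j) H ⊆ B} := by
  have g0 : ∀ H, 0 ≤ f H + M := fun H => by linarith [(abs_le.1 (hM H)).1]
  have a := ratio_lo sw hS hT sd (conf_Rch j D B) g0 fun H K _ _ _ h => by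
    rw [hf K H fun x hx => h x (subset_Rch _ _ _ hx)]
  have b : Ex S ({H | Rch D (eA j) H ⊆ B}.indicator fun H => f H + M) ≤ Ex S f + M := by
    rw [← Ex_const hS M, ← Ex_add, Ex_const hS M]
    exact Ex_mono fun H _ => indicator_le_self' (fun _ _ => g0 _) H
  have c : Ex T f + M ≤ Ex T ({H | Rch D (eA j) H ⊆ B}.indicator fun H => f H + M) +
      2 * M * Pr T {H | ¬ Rch D (eA j) H ⊆ B} := by
    rw [Pr, ← Ex_mul_left, ← Ex_add]
    refine le_trans (le_of_eq ?_) (Ex_mono (f := fun H => f H + M) fun H _ => ?_)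
    · rw [Ex_add, Ex_const hT]
    · by_cases h : Rch D (eA j) H ⊆ B
      · rw [indicator_of_mem (s := {H | Rch D (eA j) H ⊆ B}) h,
          indicator_of_notMem (s := {H | ¬ Rch D (eA j) H ⊆ B}) (not_not.2 h), mul_zero, add_zero]
      · rw [indicator_of_notMem (s := {H | Rch D (eA j) H ⊆ B}) h,
          indicator_of_mem (s := {H | ¬ Rch D (eA j) H ⊆ B}) h, Pi.one_apply]
        linarith [(abs_le.1 (hM H)).2]
  linarith

/-- Total variation bound. -/
theorem tvA (sw : Swp j S T B) (hS : Good S) (hT : Good T) (sd : SD (ab j) S T)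
    {M : ℝ} (hM : ∀ H, |f H| ≤ M) (hf : DepOn f D) :
    |Ex S f - Ex T f| ≤ 2 * M * Pr T {H | ¬ Rch D (eA j) H ⊆ B} := by
  have a := Ratio_tv sw hS hT sd hM hf
  have b := Ratio_tv (f := fun H => -f H) sw hS hT sd (fun H => (abs_neg _).trans_le (hM H))
    fun H K h => congrArg Neg.neg (hf H K h)
  rw [Ex_neg, Ex_neg] at b
  rw [abs_le]
  constructor <;> linarith

theorem tv_free (hU : U'.Finite) (h : U ⊆ U') {M : ℝ} (hM : ∀ H, |f H| ≤ M) (hf : DepOn f D) :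
    |Ex (free U j) f - Ex (free U' j) f| ≤
      2 * M * Pr (free U' j) {H | ¬ Rch D (eA j) H ⊆ U} :=
  tvA (swp_free h j) (good_free (hU.subset h) j) (good_free hU j) (sdA_free hU h j) hM hf

theorem arm_of_Rch {Eb : ℤ → ℤ → Prop} {x : V} {n N : ℕ} {H : Cfg} (hn : n ≤ N)
    (h : ¬ Rch (hex x n) Eb H ⊆ hex x N) : Arm (fun a b => Eb (H a) (H b)) x n N := by
  obtain ⟨z, ⟨y, h1, h2⟩, h3⟩ := not_subset.1 h
  exact h2.arm h1 hn (not_le.1 h3).le

theorem Ratio_tr (hE : Conf j U hull E) {K K' : Cfg} (lK : Lip K) (lK' : Lip K')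
    (h : ∀ x ∈ U, K' x = K x) (h' : ∀ a ∈ U, ∀ b, b ∉ U → Adj a b → ab j K' b = 1) (hK : K ∈ E) :
    K' ∈ E ∧ ∀ x ∈ hull K, K' x = K x := by
  obtain ⟨h1, h2, h3⟩ := hE K hK lK
  have q : ∀ x ∈ U, ab j K' x = ab j K x := fun x hx => by
    unfold ab
    rw [h x hx]
  refine ⟨(h3 K' lK' (fun x hx => h x (h1 hx)) fun a ha b hb hab => ⟨?_, ?_⟩).1,
    fun x hx => h x (h1 hx)⟩
  · exact (q a (h1 ha)).trans (h2 a ha b hb hab).1
  · by_cases hb' : b ∈ U
    · exact (q b hb').trans (h2 a ha b hb hab).2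
    · exact h' a (h1 ha) b hb' hab

/-- The converse bound of the ratio lemma. -/
theorem ratio_hi (hB : B.Finite) (hT : Good T) (hF : FreeIn T B) (hE : Conf j D hull E)
    (f0 : ∀ H, 0 ≤ f H)
    (hf : ∀ H K, Lip H → Lip K → H ∈ E → (∀ x ∈ hull H, K x = H x) → f K = f H) :
    Ex (free B j) (E.indicator f) * Pr T {H | Disjoint (Rch Bᶜ (eA j) H) D} ≤
      Ex T (E.indicator f) := by
  refine (tower_ge (f := E.indicator f) (cell T Bᶜ (eA j)) (fun H hH => cell_self hH)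
    (fun H _ K hK => cell_cell hK) (fun H _ hH K hK => ?_) fun H hH hQ => ?_).trans
    (Ex_mono fun H _ => ?_)
  · show Disjoint (Rch Bᶜ (eA j) K) D
    rw [Rch_cell hK]
    exact hH
  · have hU := compl_Rch_subset B (eA j) H
    have hE' : Conf j (Rch Bᶜ (eA j) H)ᶜ hull E := fun K hK lK =>
      ⟨(hE K hK lK).1.trans (Disjoint.subset_compl_left hQ), (hE K hK lK).2⟩
    rw [cell_eA (f' := E.indicator f) hT.1 hB hF hH fun K hK K' hK' h => ?_]
    · exact ratio_lo (swp_free hU j) (good_free (hB.subset hU) j) (good_free hB j)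
        (sdA_free hB hU j) hE' f0 hf
    · have lK := hF.1 K hK.1
      have t1 := Ratio_tr hE' lK hK'.1 (fun x hx => (h x hx).symm)
        fun a _ b hb _ => ab_eq_one.2 (Or.inl (hK'.2.1 b hb))
      have t2 := Ratio_tr hE' hK'.1 lK h fun a ha b hb hab => by
        have hb' := not_not.1 hb
        have := (Ratio_eA.1 (hK.2.2 b hb' a ha hab.symm)).1
        unfold ab at this ⊢
        rwa [hK.2.1 b hb']
      by_cases k : K ∈ E
      · rw [indicator_of_mem k, indicator_of_mem (t1 k).1, hf K K' lK hK'.1 k (t1 k).2]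
      · rw [indicator_of_notMem k, indicator_of_notMem fun k' => k (t2 k').1]
  · exact mul_le_of_le_one_left (indicator_nonneg (fun H _ => f0 H) H) (ind_le_one _ H)

end Vale.Agent.P153
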