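import Vale.Agent.P153.FKG.Spin

/-! P153, module FKG: comparison with the worst boundary condition for the spins. -/

open Set

noncomputable section
namespace Vale.Agent.P153

variable {Pl Mi U B : Set V} {W : V → V → Prop} {x₀ : V} {j k m b : ℤ} {D E : Set Cfg}

theorem sand_good (hB : B.Finite) (hk : (k - j) % 4 = 2) (hW : Far W) :
    Good (OmS j ∅ (B \ ibd B)ᶜ (fun x y => W x y ∧ x ∉ B ∧ y ∉ B) x₀ k) := by
  obtain ⟨U, hU, hW⟩ := hW
  refine ⟨finite_OmS ⟨U ∪ B, hU.union hB, fun x y hx hy => ⟨hW x y (fun h => hx (Or.inl h))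
    fun h => hy (Or.inl h), fun h => hx (Or.inr h), fun h => hy (Or.inr h)⟩⟩ ?_,
    fun _ => k, lip_const k, fun _ h => h.elim, fun x _ h => ?_, fun _ _ _ _ => Iff.rfl, rfl⟩
  · rw [empty_union, compl_compl]
    exact hB.subset sdiff_subset
  · have h' : (k - j) % 4 = 0 ∨ (k - j) % 4 = 1 := h
    omega

theorem sand_loc (hB : B.Finite) (hc : Cnn Bᶜ) (hk : (k - j) % 4 = 2) (hW : Far W) (h1 : x₀ ∉ B)
    {f : Cfg → ℝ} (hf : MonoBy (fun H => sp j H ∩ B) f) :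
    Ex (free B k) f = Ex (OmS j ∅ (B \ ibd B)ᶜ (fun x y => W x y ∧ x ∉ B ∧ y ∉ B) x₀ k) f := by
  refine Ex_local4 (U := B) (good_free hB k) (sand_good hB hk hW) allLip_free allLip_OmS h1 h1
    ?_ ?_ ?_ ?_
  · intro H hH K hK a ha c hc hac
    have ia : a ∈ ibd B := ⟨ha, c, hc, hac⟩
    have e1 := hH.2.2 a ia
    have e2 := hH.2.1 c hc
    have e3 : ¬ ((K a - j) % 4 = 0 ∨ (K a - j) % 4 = 1) := hK.2.2.1 a fun h => h.2 ia
    have e4 : ¬ ((K c - j) % 4 = 0 ∨ (K c - j) % 4 = 1) := hK.2.2.1 c fun h => hc h.1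
    omega
  · intro H hH K hK G hG g1 g2 g3
    have e0 : ∀ x, x ∉ B → G x = k := fun x hx => by
      have e1 := g2.diff hG hH.1 (hc x₀ h1 x hx)
      have e2 := hH.2.1 x hx
      omega
    refine ⟨hG, e0, fun x hx => ?_⟩
    obtain ⟨y, hy, hxy⟩ := hx.2
    have e1 := abs_le.1 (hG x y hxy)
    have e2 := e0 y hy
    have e3 := g1 x hx.1
    have e4 : ¬ ((K x - j) % 4 = 0 ∨ (K x - j) % 4 = 1) := hK.2.2.1 x fun h => h.2 hx
    omega
  · intro H hH K hK G hG g1 g2 g3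
    refine ⟨hG, fun _ h => h.elim, fun x hx => ?_, fun x y hxy h => ?_, g3.trans hK.2.2.2.2⟩
    · by_cases hxB : x ∈ B
      · have e1 := hH.2.2 x (by_contra fun h => hx ⟨hxB, h⟩)
        have e2 := g1 x hxB
        intro h
        have h' : (G x - j) % 4 = 0 ∨ (G x - j) % 4 = 1 := h
        omega
      · rw [g2.sp j hxB]
        exact hK.2.2.1 x hx
    · rw [g2.sp (j + 1) h.2.1, g2.sp (j + 1) h.2.2]
      exact hK.2.2.2.1 x y hxy h
  · intro H hH K hK h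
    exact le_antisymm (hf H K hH.1 hK.1 fun x hx => ⟨(h.sp j hx.2).1 hx.1, hx.2⟩)
      (hf K H hK.1 hH.1 fun x hx => ⟨(h.sp j hx.2).2 hx.1, hx.2⟩)

/-- The minus band round `B` is the worst case. -/
theorem sand_lo (hB : B.Finite) (hc : Cnn Bᶜ) (hk : (k - j) % 4 = 2) (hW : Far W)
    (hf : (Pl ∪ Mi)ᶜ.Finite) (hne : (OmS j Pl Mi W x₀ b).Nonempty) (h0 : x₀ ∈ Pl ∪ Mi)
    (h1 : x₀ ∉ B) (hM : ∀ x ∈ Mi, x ∉ B \ ibd B)
    (hw : ∀ x y, Adj x y → W x y → x ∉ B \ ibd B ∨ y ∉ B \ ibd B) :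
    SD (fun H => sp j H ∩ B) (free B k) (OmS j Pl Mi W x₀ b) := by
  intro f hf'
  rw [sand_loc hB hc hk hW h1 hf']
  refine sd_S (sand_good hB hk hW) ⟨finite_OmS hW hf, hne⟩ (empty_subset _) hM
    (Or.inr fun h => h1 h.1) h0 (fun x y hxy h => Or.inr (Or.inr (hw x y hxy h)))
    (fun x y _ h => Or.inl h.1) f fun H K hH hK h => hf' H K hH hK ?_
  exact inter_subset_inter_left B h

/-- The plus band round `B` is the best case. -/
theorem sand_hi (hB : B.Finite) (hc : Cnn Bᶜ) (hk : (k - j) % 4 = 0) (hW : Far W)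
    (hf : (Pl ∪ Mi)ᶜ.Finite) (hne : (OmS j Pl Mi W x₀ b).Nonempty) (h0 : x₀ ∈ Pl ∪ Mi)
    (h1 : x₀ ∉ B) (hM : ∀ x ∈ Pl, x ∉ B \ ibd B)
    (hw : ∀ x y, Adj x y → W x y → x ∉ B \ ibd B ∨ y ∉ B \ ibd B) :
    SD (fun H => sp j H ∩ B) (OmS j Pl Mi W x₀ b) (free B k) := by
  intro f hf'
  have h := sand_lo (j := j + 2) (k := k) (Pl := Mi) (Mi := Pl) (b := b) hB hc (by omega) hW
    (by rwa [union_comm]) (by rwa [OmS_add_two]) (by rwa [union_comm]) h1 hM hw (fun H => -f H)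
    fun H K hH hK h => neg_le_neg (hf' K H hK hH fun x hx => ⟨by_contra fun hx' => by
      have h2 : x ∈ sp (j + 2) H ∩ B := ⟨by rwa [sp_add_two], hx.2⟩
      have h3 := (h h2).1
      rw [sp_add_two] at h3
      exact h3 hx.1, hx.2⟩)
  rw [Ex_neg, Ex_neg, OmS_add_two] at h
  exact neg_le_neg_iff.1 h

/-- One step of a mixing iteration. -/
theorem sand_step (hB : B.Finite) (hc : Cnn Bᶜ) (hk : (k - j) % 4 = 2) (hW : Far W)
    (hf : (Pl ∪ Mi)ᶜ.Finite) (h0 : x₀ ∈ Pl ∪ Mi) (h1 : x₀ ∉ B) (hM : ∀ x ∈ Mi, x ∉ B \ ibd B)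
    (hw : ∀ x y, Adj x y → W x y → x ∉ B \ ibd B ∨ y ∉ B \ ibd B)
    (hD : IncBy (fun H => sp j H ∩ B) D)
    (hE : ∀ H K, Lip H → Lip K → sp j K \ B = sp j H \ B → H ∈ E → K ∈ E) :
    Pr (free B k) D * Pr (OmS j Pl Mi W x₀ b) E ≤ Pr (OmS j Pl Mi W x₀ b) (E ∩ D) := by
  refine Pr_tower_ge (fun H => OmS j Pl Mi W x₀ b ∩ {K | sp j K \ B = sp j H \ B})
    (fun H hH => ⟨⟨hH, rfl⟩, inter_subset_left⟩) (fun H _ H' hH' => ?_)
    (fun H hH h K hK => hE H K hH.1 hK.1.1 hK.2 h) fun H hH _ => ?_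
  · have e : sp j H' \ B = sp j H \ B := hH'.2
    simp only [e]
  · have hne : (OmS j Pl Mi W x₀ b ∩ {K | sp j K \ B = sp j H \ B}).Nonempty := ⟨H, hH, rfl⟩
    simp only [OmS_cond B hH] at hne ⊢
    refine (sand_lo hB hc hk hW (hf.subset ?_) hne ?_ h1 ?_ hw).inc hD
    · exact compl_subset_compl.2 (union_subset_union subset_union_left subset_union_left)
    · exact union_subset_union subset_union_left subset_union_left h0
    · rintro x (hx | hx)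
      · exact hM x hx
      · exact fun h => hx.2 h.1

theorem sand_int (h : B ⊆ U) : B \ ibd B ⊆ U \ ibd U := fun _ hx =>
  ⟨h hx.1, fun ⟨_, y, hy, hxy⟩ => hx.2 ⟨hx.1, y, fun h' => hy (h h'), hxy⟩⟩

theorem sand_aux (hU : U.Finite) (hc : Cnn Bᶜ) (h : B ⊆ U) (hx : x₀ ∉ U)
    (hne : (OmS j Pl Mi (both Uᶜ) x₀ b).Nonempty) (hf : (Pl ∪ Mi)ᶜ ⊆ U)
    (hM : ∀ x ∈ Pl ∪ Mi, x ∉ B \ ibd B) (h0 : x₀ ∈ Pl ∪ Mi) :
    ((k - j) % 4 = 2 → SD (fun H => sp j H ∩ B) (free B k) (OmS j Pl Mi (both Uᶜ) x₀ b)) ∧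
    ((k - j) % 4 = 0 → SD (fun H => sp j H ∩ B) (OmS j Pl Mi (both Uᶜ) x₀ b) (free B k)) :=
  ⟨fun hk => sand_lo (hU.subset h) hc hk (far_both hU) (hU.subset hf) hne h0 (fun h' => hx (h h'))
      (fun x hx => hM x (Or.inr hx)) fun _ _ _ h1 => Or.inl fun h2 => h1.1 (h h2.1),
    fun hk => sand_hi (hU.subset h) hc hk (far_both hU) (hU.subset hf) hne h0 (fun h' => hx (h h'))
      (fun x hx => hM x (Or.inl hx)) fun _ _ _ h1 => Or.inl fun h2 => h1.1 (h h2.1)⟩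

/-- Bands on a larger domain lie between the two bands on `B`. -/
theorem sand_free (hU : U.Finite) (cU : Cnn Uᶜ) (hc : Cnn Bᶜ) (h : B ⊆ U)
    (hm : (m - j) % 2 = 0) :
    ((k - j) % 4 = 2 → SD (fun H => sp j H ∩ B) (free B k) (free U m)) ∧
    ((k - j) % 4 = 0 → SD (fun H => sp j H ∩ B) (free U m) (free B k)) := by
  obtain ⟨x, hx⟩ := compl_nonempty hU
  have g := (good_free hU m).2
  have e := free_eq_OmS (j := j) (k := m) cU hx
  have i := sand_int h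
  rcases (by omega : (m - j) % 4 = 0 ∨ (m - j) % 4 = 2) with h4 | h4
  · rw [e.1 h4] at g ⊢
    exact sand_aux hU hc h hx g (fun y hy => by_contra fun h' => hy (Or.inl fun h'' => h' h''.1))
      (fun y hy h' => hy.elim (fun h'' => h'' (i h')) id) (Or.inl fun h' => hx h'.1)
  · rw [e.2 h4] at g ⊢
    exact sand_aux hU hc h hx g (fun y hy => by_contra fun h' => hy (Or.inr fun h'' => h' h''.1))
      (fun y hy h' => hy.elim id fun h'' => h'' (i h')) (Or.inr fun h' => hx h'.1)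

theorem sand_flat (hU : U.Finite) (cU : Cnn Uᶜ) (hc : Cnn Bᶜ) (h : B ⊆ U) (m : ℤ) :
    ((k - j) % 4 = 2 → SD (fun H => sp j H ∩ B) (free B k) (flat U m)) ∧
    ((k - j) % 4 = 0 → SD (fun H => sp j H ∩ B) (flat U m) (free B k)) := by
  obtain ⟨x, hx⟩ := compl_nonempty hU
  have g := (good_flat hU m).2
  have e := flat_eq_OmS (j := j) (k := m) cU hx
  rcases (by omega : ((m - j) % 4 = 0 ∨ (m - j) % 4 = 1) ∨ ((m - j) % 4 = 2 ∨ (m - j) % 4 = 3))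
    with h4 | h4
  · rw [e.1 h4] at g ⊢
    exact sand_aux hU hc h hx g (fun y hy => by_contra fun h' => hy (Or.inl h'))
      (fun y hy h' => hy.elim (fun h'' => h'' (h h'.1)) id) (Or.inl hx)
  · rw [e.2 h4] at g ⊢
    exact sand_aux hU hc h hx g (fun y hy => by_contra fun h' => hy (Or.inr h'))
      (fun y hy h' => hy.elim id fun h'' => h'' (h h'.1)) (Or.inr hx)

theorem sand_dob (hU : U.Finite) (cU : Cnn Uᶜ) (hc : Cnn Bᶜ) (h : B ⊆ U) (P : Set V)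
    (hj : j % 2 = 1) :
    ((k - j) % 4 = 2 → SD (fun H => sp j H ∩ B) (free B k) (dob U P)) ∧
    ((k - j) % 4 = 0 → SD (fun H => sp j H ∩ B) (dob U P) (free B k)) := by
  obtain ⟨x, hx⟩ := compl_nonempty hU
  have g := (good_dob hU P).2
  have e := dob_eq_OmS cU hx P
  have c1 : ∀ y, y ∉ U → y ∈ P \ U ∪ Pᶜ \ U := fun y hy =>
    (em (y ∈ P)).imp (fun h' => ⟨h', hy⟩) fun h' => ⟨h', hy⟩
  rcases (by omega : (1 - j) % 4 = 0 ∨ (3 - j) % 4 = 0) with h4 | h4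
  · rw [e.1, OmS_congr h4] at g ⊢
    exact sand_aux hU hc h hx g (fun y hy => by_contra fun h' => hy (c1 y h'))
      (fun y hy h' => hy.elim (fun h'' => h''.2 (h h'.1)) fun h'' => h''.2 (h h'.1)) (c1 x hx)
  · rw [e.2, OmS_congr h4] at g ⊢
    exact sand_aux hU hc h hx g (fun y hy => by_contra fun h' => hy (c1 y h').symm)
      (fun y hy h' => hy.elim (fun h'' => h''.2 (h h'.1)) fun h'' => h''.2 (h h'.1))
      (c1 x hx).symm

end Vale.Agent.P153
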