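import Vale.Agent.P153.FKG.Ratio
import Vale.Agent.P153.FKG.Sand

/-! P153, module FKG: the ratio lemma for the spins. -/

open Set

noncomputable section
namespace Vale.Agent.P153

variable {S T E : Set Cfg} {U U' B D : Set V} {hull : Cfg → Set V} {f : Cfg → ℝ} {j : ℤ}

/-- Comparison cell by cell. -/
theorem cells_le (hT : T.Finite) (lS : AllLip S) (lT : AllLip T) (c : Cfg → Set Cfg)
    (h1 : ∀ G ∈ E, Lip G → G ∈ c G)
    (h2 : ∀ G ∈ E, Lip G → ∀ K ∈ c G, Lip K → K ∈ E ∧ c K = c G ∧ f K = f G)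
    (h3 : ∀ G ∈ T, G ∈ E → Pr T (c G) ≤ Pr S (c G)) (f0 : ∀ H, 0 ≤ f H) :
    Ex T (E.indicator f) ≤ Ex S (E.indicator f) := by
  classical
  set C := (hT.inter_of_left E).toFinset.image c with hC
  have pt : ∀ K, Lip K → ∑ γ ∈ C, γ.indicator f K = if c K ∈ C then E.indicator f K else 0 := by
    intro K lK
    rw [← Finset.sum_ite_eq' C (c K) fun _ => E.indicator f K]
    refine Finset.sum_congr rfl fun γ hγ => ?_
    obtain ⟨G, hG, rfl⟩ := Finset.mem_image.1 hγ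
    obtain ⟨g1, g2⟩ := (Finite.mem_toFinset _).1 hG
    by_cases h : K ∈ c G
    · obtain ⟨k1, k2, -⟩ := h2 G g2 (lT G g1) K h lK
      rw [indicator_of_mem h, indicator_of_mem k1, if_pos k2.symm]
    · rw [indicator_of_notMem h]
      split_ifs with h'
      · rw [indicator_of_notMem fun k1 => h (h' ▸ h1 K k1 lK)]
      · rfl
  have cst : ∀ {A : Set Cfg}, AllLip A → ∀ G ∈ T ∩ E,
      Ex A ((c G).indicator f) = f G * Pr A (c G) := by
    intro A lA G hG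
    rw [Pr, ← Ex_mul_left]
    refine Ex_congr fun K hK => ?_
    by_cases h : K ∈ c G
    · rw [indicator_of_mem h, indicator_of_mem h, (h2 G hG.2 (lT G hG.1) K h (lA K hK)).2.2]
      exact (mul_one _).symm
    · rw [indicator_of_notMem h, indicator_of_notMem h, mul_zero]
  calc Ex T (E.indicator f) = Ex T fun K => ∑ γ ∈ C, γ.indicator f K := by
        refine Ex_congr fun K hK => ?_
        rw [pt K (lT K hK)]
        split_ifs with h
        · rfl
        · exact indicator_of_notMem (fun k1 => h (Finset.mem_image_of_mem _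
            ((Finite.mem_toFinset _).2 ⟨hK, k1⟩))) _
    _ ≤ Ex S fun K => ∑ γ ∈ C, γ.indicator f K := by
        rw [Ex_sum, Ex_sum]
        refine Finset.sum_le_sum fun γ hγ => ?_
        obtain ⟨G, hG, rfl⟩ := Finset.mem_image.1 hγ
        have hG' := (Finite.mem_toFinset _).1 hG
        exact (cst lT G hG').trans_le ((mul_le_mul_of_nonneg_left
          (h3 G hG'.1 hG'.2) (f0 G)).trans_eq (cst lS G hG').symm)
    _ ≤ Ex S (E.indicator f) := by
        refine Ex_mono fun K hK => ?_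
        rw [pt K (lS K hK)]
        split_ifs
        · rfl
        · exact indicator_nonneg (fun H _ => f0 H) K

/-- Every edge leaving `R` has the spin `sp j` plus at both ends. -/
def Shut4 (j : ℤ) (R : Set V) (H : Cfg) : Prop :=
  ∀ a ∈ R, ∀ b, b ∉ R → Adj a b → a ∈ sp j H ∧ b ∈ sp j H

/-- The event `E` is decided by the heights modulo 4 on a hull inside `B` shut off by a double
layer of plus spins. -/
def Conf4 (j : ℤ) (B : Set V) (hull : Cfg → Set V) (E : Set Cfg) : Prop :=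
  ∀ H ∈ E, Lip H → hull H ⊆ B ∧ Shut4 j (hull H) H ∧
    ∀ K, Lip K → Eq4 (hull H) K H → Shut4 j (hull H) K → K ∈ E ∧ hull K = hull H

/-- `T` allows every change inside `U` that keeps plus spins on the inner boundary. -/
def FreeS (j : ℤ) (T : Set Cfg) (U : Set V) : Prop :=
  AllLip T ∧ ∀ K ∈ T, ∀ G, Lip G → (∀ x, x ∉ U → G x = K x) →
    (∀ x ∈ ibd U, x ∈ sp j G ∨ (G x - K x) % 4 = 0) → G ∈ T

theorem FreeIn.freeS (h : FreeIn T U) (j : ℤ) : FreeS j T U :=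
  ⟨h.1, fun K hK G a b _ => h.2 K hK G a b⟩

theorem freeS_free (h : U ⊆ U') (j : ℤ) : FreeS j (free U' j) U := by
  refine ⟨allLip_free, fun K hK G a b c => ⟨a, fun x hx => ?_, fun x hx => ?_⟩⟩
  · rw [b x fun h' => hx (h h'), hK.2.1 x hx]
  · by_cases h1 : x ∈ U
    · have k := hK.2.2 x hx
      obtain ⟨-, y, hy, e⟩ := hx
      have u := abs_le.1 (a x y e)
      rw [b y fun h' => hy (h h'), hK.2.1 y hy] at u
      rcases c x ⟨h1, y, fun h' => hy (h h'), e⟩ with (v | v) | v <;> omega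
    · rw [b x h1]
      exact hK.2.2 x hx

theorem FreeS.glue (hT : FreeS j T U) (cU : Cnn Uᶜ) {x₀ : V} (h0 : x₀ ∉ U) {R : Set V}
    (hR : R ⊆ U) {H K G : Cfg} (hK : K ∈ T) (hH : ∀ x ∈ R, x ∈ ibd U → x ∈ sp j H) (l : Lip G)
    (e1 : Eq4 R G H) (e2 : Eq4 Rᶜ G K) (e3 : G x₀ = K x₀) : G ∈ T := by
  refine hT.2 K hK G l (fun x hx => ?_) fun x hx => ?_
  · have := (e2.mono (compl_subset_compl.2 hR)).diff l (hT.1 K hK) (cU x₀ h0 x hx)
    omega
  · by_cases h : x ∈ R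
    · exact Or.inl ((e1.sp j h).2 (hH x h hx))
    · exact Or.inr (e2 x h)

theorem RatioS_shut {R : Set V} {H K G : Cfg} (hH : Shut4 j R H) (hK : Shut4 j R K)
    (e1 : Eq4 R G H) (e2 : Eq4 Rᶜ G K) : Shut4 j R G := fun a ha b hb h =>
  ⟨(e1.sp j ha).2 (hH a ha b hb h).1, (e2.sp j hb).2 (hK a ha b hb h).2⟩

theorem RatioS_ibd {R : Set V} (hR : R ⊆ U) {H : Cfg} (hH : Shut4 j R H) :
    ∀ x ∈ R, x ∈ ibd U → x ∈ sp j H := fun x hx ⟨_, y, hy, e⟩ =>
  (hH x hx y (fun h => hy (hR h)) e).1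

theorem RatioS_cell (hU : U.Finite) (cU : Cnn Uᶜ) (hT : Good T) (hF : FreeS j T U)
    (sd : SD (fun H => sp (j + 2) H ∩ U) (free U j) T) {R : Set V} (hR : R ⊆ U) {G : Cfg}
    (hG : G ∈ T) (hs : Shut4 j R G) :
    Pr T ({K | Shut4 j R K} ∩ {K | Eq4 R K G}) ≤
      Pr (free U j) ({K | Shut4 j R K} ∩ {K | Eq4 R K G}) := by
  obtain ⟨x₀, h0⟩ := compl_nonempty hU
  have c0 : ∀ x, x ∈ sp j fun _ => j := fun x => Or.inl (by simp)
  have c1 : (fun _ => j) ∈ free U j := ⟨lip_const j, fun _ _ => rfl, fun _ _ => Or.inl rfl⟩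
  have c2 : Shut4 j R fun _ => j := fun a _ b _ _ => ⟨c0 a, c0 b⟩
  have gS : Good (free U j ∩ {K | Shut4 j R K}) := ⟨(good_free hU j).1.inter_of_left _, _, c1, c2⟩
  have gT : Good (T ∩ {K | Shut4 j R K}) := ⟨hT.1.inter_of_left _, G, hG, hs⟩
  have loc : ∀ A : Set Cfg, (∀ H K, Eq4 R H K → (H ∈ A ↔ K ∈ A)) →
      Pr (free U j ∩ {K | Shut4 j R K}) A = Pr (T ∩ {K | Shut4 j R K}) A := by
    intro A hA
    refine Ex_local4 (U := R) (x₀ := x₀) (x₁ := x₀) gS gT (fun H h => h.1.1)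
      (fun H h => hF.1 H h.1) (fun h => h0 (hR h)) (fun h => h0 (hR h))
      (fun H a K b u hu v hv e => ?_)
      (fun H a K b L l e1 e2 e3 => ⟨(freeS_free Subset.rfl j).glue cU h0 hR a.1
        (RatioS_ibd hR b.2) l e1 e2 e3, RatioS_shut b.2 a.2 e1 e2⟩)
      (fun H a K b L l e1 e2 e3 => ⟨hF.glue cU h0 hR b.1 (RatioS_ibd hR a.2) l e1 e2 e3,
        RatioS_shut a.2 b.2 e1 e2⟩)
      fun H _ K _ e => le_antisymm (ind_mono (hA H K e).1) (ind_mono (hA H K e).2)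
    have p := a.2 u hu v hv e
    have q := b.2 u hu v hv e
    simp only [sp, mem_ofPred_eq] at p q
    omega
  have e1 := loc {K | Eq4 R K G} fun H K e => ⟨fun h => e.symm.trans h, fun h => e.trans h⟩
  have e2 := loc {K | ∀ x ∈ R, x ∈ sp j K} fun H K e =>
    forall₂_congr fun x hx => e.sp j hx
  have p : 0 < Pr (free U j ∩ {K | Shut4 j R K}) {K | ∀ x ∈ R, x ∈ sp j K} :=
    Pr_pos gS.1 ⟨c1, c2⟩ fun x _ => c0 x
  have d : Pr T ({K | Shut4 j R K} ∩ {K | ∀ x ∈ R, x ∈ sp j K}) ≤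
      Pr (free U j) ({K | Shut4 j R K} ∩ {K | ∀ x ∈ R, x ∈ sp j K}) := by
    have k := sd.dec (E := {K | ∀ x ∈ (R ∪ obd R) ∩ U, x ∈ sp j K}) fun H K _ _ h hK x hx => by
      by_contra hn
      have : x ∈ sp (j + 2) K ∩ U := h ⟨by rw [sp_add_two]; exact hn, hx.2⟩
      rw [sp_add_two] at this
      exact this.1 (hK x hx)
    refine (Pr_mono fun K _ h => ?_).trans (k.trans (Pr_mono fun K hK h => ?_))
    · intro x hx
      rcases hx.1 with u | ⟨u, y, v, w⟩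
      · exact h.2 x u
      · exact (h.1 y v x u w.symm).2
    · refine ⟨fun a ha b hb w => ⟨h a ⟨Or.inl ha, hR ha⟩, ?_⟩, fun x hx => h x ⟨Or.inl hx, hR hx⟩⟩
      by_cases u : b ∈ U
      · exact h b ⟨Or.inr ⟨hb, a, ha, w.symm⟩, u⟩
      · exact Or.inl (by rw [hK.2.1 b u]; simp)
  rw [Pr_cond, Pr_cond, ← e2] at d
  rw [Pr_cond, Pr_cond, ← e1]
  exact mul_le_mul_of_nonneg_right (le_of_mul_le_mul_right d p) (Pr_nonneg _ _)

/-- Confined events are more likely under the band on the smaller domain. -/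
theorem ratioS_lo (hU : U.Finite) (cU : Cnn Uᶜ) (hT : Good T) (hF : FreeS j T U)
    (sd : SD (fun H => sp (j + 2) H ∩ U) (free U j) T) (hE : Conf4 j U hull E)
    (f0 : ∀ H, 0 ≤ f H)
    (hf : ∀ H K, Lip H → Lip K → H ∈ E → Eq4 (hull H) K H → f K = f H) :
    Ex T (E.indicator f) ≤ Ex (free U j) (E.indicator f) := by
  refine cells_le hT.1 allLip_free hF.1
    (fun G => {K | Shut4 j (hull G) K} ∩ {K | Eq4 (hull G) K G})
    (fun G a b => ⟨(hE G a b).2.1, Eq4.refl _ _⟩) (fun G a b K c d => ?_)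
    (fun G a b => RatioS_cell hU cU hT hF sd (hE G b (hF.1 G a)).1 a (hE G b (hF.1 G a)).2.1) f0
  obtain ⟨k1, k2⟩ := (hE G a b).2.2 K d c.2 c.1
  refine ⟨k1, ?_, hf G K b d a c.2⟩
  simp only [k2]
  congr 1
  ext L
  exact ⟨fun h => Eq4.trans h c.2, fun h => Eq4.trans h (Eq4.symm c.2)⟩

theorem RatioS_eS {s t : ℤ} : ¬ eS (j + 2) s t ↔
    ((s - j) % 4 = 0 ∨ (s - j) % 4 = 1) ∧ ((t - j) % 4 = 0 ∨ (t - j) % 4 = 1) := by
  unfold eS
  omega

theorem shut4_Rch (j : ℤ) (D : Set V) (H : Cfg) : Shut4 j (Rch D (eS (j + 2)) H) H :=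
  fun _ ha _ hb e => RatioS_eS.1 fun h => hb (Rch_step ha e h)

theorem Rch_eq4 {H K : Cfg} (h1 : Eq4 (Rch D (eS (j + 2)) H) K H)
    (h2 : Shut4 j (Rch D (eS (j + 2)) H) K) : Rch D (eS (j + 2)) K = Rch D (eS (j + 2)) H := by
  refine Subset.antisymm ?_ ?_
  · rintro x ⟨y, hy, h⟩
    refine h.ind (P := fun z => z ∈ Rch D (eS (j + 2)) H) (subset_Rch _ _ _ hy)
      fun u v _ e he _ _ hu => ?_
    by_contra hn
    exact RatioS_eS.2 (h2 u hu v hn e) he
  · rintro x ⟨y, hy, h⟩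
    refine h.ind (P := fun z => z ∈ Rch D (eS (j + 2)) K) (subset_Rch _ _ _ hy)
      fun u v hc e he _ _ hu => Rch_step hu e ?_
    have a := h1 u ⟨y, hy, hc⟩
    have b := h1 v (Rch_step ⟨y, hy, hc⟩ e he)
    unfold eS at he ⊢
    omega

theorem conf4_Rch (j : ℤ) (D B : Set V) :
    Conf4 j B (Rch D (eS (j + 2))) {H | Rch D (eS (j + 2)) H ⊆ B} := fun H hH _ =>
  ⟨hH, shut4_Rch j D H, fun _ _ a b => ⟨(Rch_eq4 a b).trans_subset hH, Rch_eq4 a b⟩⟩

/-- Total variation bound for the spins. -/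
theorem tvS_gen (hU : U.Finite) (cU : Cnn Uᶜ) (hT : Good T) (hF : FreeS j T U)
    (sd : SD (fun H => sp (j + 2) H ∩ U) (free U j) T) {M : ℝ} (hM : ∀ H, |f H| ≤ M)
    (hf : Dep4 f D) :
    |Ex (free U j) f - Ex T f| ≤ 2 * M * Pr T {H | ¬ Rch D (eS (j + 2)) H ⊆ U} := by
  have key : ∀ g : Cfg → ℝ, (∀ H, |g H| ≤ M) → Dep4 g D →
      Ex T g - Ex (free U j) g ≤ 2 * M * Pr T {H | ¬ Rch D (eS (j + 2)) H ⊆ U} := by
    intro g hM hg
    have g0 : ∀ H, 0 ≤ g H + M := fun H => by linarith [(abs_le.1 (hM H)).1]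
    have k := ratioS_lo (f := fun H => g H + M) hU cU hT hF sd (conf4_Rch j D U) g0
      fun H K a b _ e => by rw [hg K H b a (e.mono (subset_Rch _ _ _))]
    have a : Ex (free U j) ({H | Rch D (eS (j + 2)) H ⊆ U}.indicator fun H => g H + M) ≤
        Ex (free U j) g + M := by
      rw [← Ex_const (good_free hU j) M, ← Ex_add, Ex_const (good_free hU j) M]
      exact Ex_mono fun H _ => indicator_le_self' (fun H _ => g0 H) H
    have b : Ex T g + M ≤ Ex T ({H | Rch D (eS (j + 2)) H ⊆ U}.indicator fun H => g H + M) +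
        2 * M * Pr T {H | ¬ Rch D (eS (j + 2)) H ⊆ U} := by
      rw [Pr, ← Ex_mul_left, ← Ex_add]
      nth_rewrite 1 [← Ex_const hT M]
      rw [← Ex_add]
      refine Ex_mono fun H _ => ?_
      by_cases h : Rch D (eS (j + 2)) H ⊆ U
      · simp [h]
      · simp only [mem_ofPred_eq, h, not_false_eq_true, indicator_of_notMem, indicator_of_mem,
          Pi.one_apply]
        linarith [(abs_le.1 (hM H)).2]
    linarith
  have k1 := key f hM hf
  have k2 := key (fun H => -f H) (fun H => by rw [abs_neg]; exact hM H)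
    fun H K a b e => congrArg Neg.neg (hf H K a b e)
  rw [Ex_neg, Ex_neg] at k2
  rw [abs_le]
  constructor <;> linarith

theorem tvS (hU : U'.Finite) (h : U ⊆ U') (cU : Cnn Uᶜ) (cU' : Cnn U'ᶜ) {M : ℝ}
    (hM : ∀ H, |f H| ≤ M) (hf : Dep4 f D) :
    |Ex (free U j) f - Ex (free U' j) f| ≤
      2 * M * Pr (free U' j) {H | ¬ Rch D (eS (j + 2)) H ⊆ U} :=
  tvS_gen (hU.subset h) cU (good_free hU j) (freeS_free h j)
    ((sand_free (j := j + 2) hU cU' cU h (by omega)).1 (by omega)) hM hf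

/-- The same with a band of the opposite spin, a flat or a Dobrushin condition outside. -/
theorem tvS_free {m : ℤ} (hU : U'.Finite) (h : U ⊆ U' \ ibd U') (cU : Cnn Uᶜ) (cU' : Cnn U'ᶜ)
    (hm : (m - j) % 2 = 0) {M : ℝ} (hM : ∀ H, |f H| ≤ M) (hf : Dep4 f D) :
    |Ex (free U j) f - Ex (free U' m) f| ≤
      2 * M * Pr (free U' m) {H | ¬ Rch D (eS (j + 2)) H ⊆ U} :=
  tvS_gen (hU.subset fun _ hx => (h hx).1) cU (good_free hU m)
    (((freeIn_free U' m).mono h).freeS j)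
    ((sand_free (j := j + 2) hU cU' cU (fun _ hx => (h hx).1) (by omega)).1 (by omega)) hM hf

theorem tvS_flat (m : ℤ) (hU : U'.Finite) (h : U ⊆ U') (cU : Cnn Uᶜ) (cU' : Cnn U'ᶜ)
    {M : ℝ} (hM : ∀ H, |f H| ≤ M) (hf : Dep4 f D) :
    |Ex (free U j) f - Ex (flat U' m) f| ≤
      2 * M * Pr (flat U' m) {H | ¬ Rch D (eS (j + 2)) H ⊆ U} :=
  tvS_gen (hU.subset h) cU (good_flat hU m) (((freeIn_flat U' m).mono h).freeS j)
    ((sand_flat (j := j + 2) hU cU' cU h m).1 (by omega)) hM hf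

theorem tvS_dob (P : Set V) (hU : U'.Finite) (h : U ⊆ U') (cU : Cnn Uᶜ) (cU' : Cnn U'ᶜ)
    (hj : j % 2 = 1) {M : ℝ} (hM : ∀ H, |f H| ≤ M) (hf : Dep4 f D) :
    |Ex (free U j) f - Ex (dob U' P) f| ≤
      2 * M * Pr (dob U' P) {H | ¬ Rch D (eS (j + 2)) H ⊆ U} :=
  tvS_gen (hU.subset h) cU (good_dob hU P) (((freeIn_dob U' P).mono h).freeS j)
    ((sand_dob (j := j + 2) hU cU' cU h P (by omega)).1 (by omega)) hM hf

end Vale.Agent.P153
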