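import Vale.Agent.P153.FKG.SpinH

/-! P153, module FKG: the spin order. -/

open Set

noncomputable section
namespace Vale.Agent.P153

open Classical

variable {Pl Mi Pl' Mi' U B F : Set V} {W W' : V → V → Prop} {x₀ x₁ : V} {j k b b' : ℤ}

theorem allLip_OmS : AllLip (OmS j Pl Mi W x₀ b) := fun _ h => h.1

theorem far_both (hU : U.Finite) : Far (both Uᶜ) := ⟨U, hU, fun _ _ hx hy => ⟨hx, hy⟩⟩

/-- On a wired connected set the first spin and one height determine all heights. -/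
theorem spin_pin {H K : Cfg} (j : ℤ) (hB : Cnn B) (hH : Lip H) (hK : Lip K)
    (h1 : ∀ x ∈ B, x ∈ sp j H ↔ x ∈ sp j K)
    (h2 : ∀ x ∈ B, ∀ y ∈ B, Adj x y → (x ∈ sp (j + 1) H ↔ y ∈ sp (j + 1) H))
    (h3 : ∀ x ∈ B, ∀ y ∈ B, Adj x y → (x ∈ sp (j + 1) K ↔ y ∈ sp (j + 1) K))
    (h0 : x₀ ∈ B) (e : H x₀ = K x₀) : ∀ x ∈ B, H x = K x := by
  have h4 : Eq4 B H K := eq4_of_sp j fun x hx => ⟨h1 x hx,
    (hB x₀ h0 x hx).ind (P := fun v => v ∈ sp (j + 1) H ↔ v ∈ sp (j + 1) K)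
      (by simp only [sp, mem_ofPred_eq, e])
      fun u v _ huv _ hu hv ih => (h2 u hu v hv huv).symm.trans (ih.trans (h3 u hu v hv huv))⟩
  intro x hx
  have := h4.diff hH hK (hB x₀ h0 x hx)
  omega

theorem finite_OmS (hW : Far W) : (Pl ∪ Mi)ᶜ.Finite → (OmS j Pl Mi W x₀ b).Finite := by
  intro hf
  obtain ⟨U, hU, hW⟩ := hW
  obtain ⟨n, hn⟩ := exists_hex_of_finite (hU.union hf) 0
  obtain ⟨y, hy⟩ := compl_nonempty (hex_finite 0 n)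
  have hU' : ∀ x, x ∉ hex 0 n → x ∉ U := fun x hx h => hx (hn (Or.inl h))
  refine Finite.of_finite_fibers (fun H => H y) ((finite_Icc (b - nrm (x₀ - y))
    (b + nrm (x₀ - y))).subset ?_) ?_
  · rintro _ ⟨H, hH, rfl⟩
    have h1 := abs_le.1 (lip_nrm hH.1 y x₀)
    rw [hH.2.2.2.2] at h1
    exact ⟨by linarith [h1.1], by linarith [h1.2]⟩
  · rintro _ ⟨K, hK, rfl⟩
    refine (finite_pin (hex_finite 0 n) K).subset fun H hH => ⟨hH.1.1, ?_⟩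
    refine spin_pin j (cnn_hex_compl 0 n) hH.1.1 hK.1 (fun x hx => ?_)
      (fun x hx z hz h => hH.1.2.2.2.1 x z h (hW x z (hU' x hx) (hU' z hz)))
      (fun x hx z hz h => hK.2.2.2.1 x z h (hW x z (hU' x hx) (hU' z hz))) hy hH.2
    rcases not_not.1 (fun h => hx (hn (Or.inr h))) with h | h
    · exact iff_of_true (hH.1.2.1 x h) (hK.2.1 x h)
    · exact iff_of_false (hH.1.2.2.1 x h) (hK.2.2.1 x h)

theorem sd_S (hS : Good (OmS j Pl Mi W x₀ b)) (hT : Good (OmS j Pl' Mi' W' x₁ b'))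
    (hP : Pl ⊆ Pl') (hM : Mi' ⊆ Mi) (h0 : x₀ ∈ Pl ∪ Mi) (h1 : x₁ ∈ Pl' ∪ Mi')
    (w1 : ∀ x y, Adj x y → W' x y → W x y ∨ W y x ∨ x ∈ Mi ∨ y ∈ Mi)
    (w2 : ∀ x y, Adj x y → W x y → W' x y ∨ W' y x ∨ x ∈ Pl' ∨ y ∈ Pl') :
    SD (sp j) (OmS j Pl Mi W x₀ b) (OmS j Pl' Mi' W' x₁ b') :=
  (hol_S hS.1 hT.1 hP hM h0 h1 w1 w2).sd hS hT allLip_OmS allLip_OmS

theorem pa_S (hS : Good (OmS j Pl Mi W x₀ b)) (h0 : x₀ ∈ Pl ∪ Mi) :
    PA (sp j) (OmS j Pl Mi W x₀ b) :=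
  (hol_S hS.1 hS.1 Subset.rfl Subset.rfl h0 h0 (fun _ _ _ h => Or.inl h)
    fun _ _ _ h => Or.inl h).pa hS allLip_OmS

/-- Exchanging the two signs. -/
theorem OmS_add_two (j : ℤ) (Pl Mi : Set V) (W : V → V → Prop) (x₀ : V) (b : ℤ) :
    OmS (j + 2) Mi Pl W x₀ b = OmS j Pl Mi W x₀ b := by
  ext H
  simp only [OmS, mem_ofPred_eq, add_right_comm j 2 1, sp_add_two, mem_compl_iff, not_not,
    not_iff_not]
  exact and_congr_right' and_left_comm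

theorem OmS_congr {j' : ℤ} (h : (j - j') % 4 = 0) :
    OmS j Pl Mi W x₀ b = OmS j' Pl Mi W x₀ b := by
  have h' : (j + 1 - (j' + 1)) % 4 = 0 := by omega
  simp only [OmS, sp_congr h, sp_congr h']

theorem spin_out {H : Cfg} (hU : Cnn Uᶜ) (h0 : x₀ ∉ U) (hk : (k - j) % 4 = 0 ∨ (k - j) % 4 = 1)
    (hP : Uᶜ ⊆ Pl) (hH : H ∈ OmS j Pl Mi (both Uᶜ) x₀ k) : ∀ x, x ∉ U → H x = k :=
  spin_pin (K := fun _ => k) j hU hH.1 (lip_const k)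
    (fun x hx => iff_of_true (hH.2.1 x (hP hx)) hk)
    (fun x hx y hy h => hH.2.2.2.1 x y h ⟨hx, hy⟩) (fun _ _ _ _ _ => Iff.rfl) h0 hH.2.2.2.2

theorem spin_free (hU : Cnn Uᶜ) (h0 : x₀ ∉ U) (hk : (k - j) % 4 = 0) :
    free U k = OmS j (U \ ibd U)ᶜ ∅ (both Uᶜ) x₀ k := by
  ext H
  refine ⟨fun ⟨h1, h2, h3⟩ => ⟨h1, fun x hx => ?_, fun _ h => h.elim, fun x y _ h => ?_, h2 _ h0⟩,
    fun hH => ?_⟩
  · have h4 : H x = k ∨ H x = k + 1 := by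
      by_cases h : x ∈ U
      · exact h3 x (not_not.1 fun h' => hx ⟨h, h'⟩)
      · exact Or.inl (h2 x h)
    simp only [sp, mem_ofPred_eq]
    omega
  · simp only [sp, mem_ofPred_eq, h2 x h.1, h2 y h.2]
  · have h2 := spin_out hU h0 (Or.inl hk) (compl_subset_compl.2 sdiff_subset) hH
    refine ⟨hH.1, h2, fun x hx => ?_⟩
    have h3 := hH.2.1 x fun h => h.2 hx
    obtain ⟨-, y, hy, hxy⟩ := hx
    have h4 := abs_le.1 (hH.1 x y hxy)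
    rw [h2 y hy] at h4
    simp only [sp, mem_ofPred_eq] at h3
    omega

theorem free_eq_OmS (hU : Cnn Uᶜ) (h0 : x₀ ∉ U) :
    ((k - j) % 4 = 0 → free U k = OmS j (U \ ibd U)ᶜ ∅ (both Uᶜ) x₀ k) ∧
    ((k - j) % 4 = 2 → free U k = OmS j ∅ (U \ ibd U)ᶜ (both Uᶜ) x₀ k) :=
  ⟨spin_free hU h0, fun h =>
    (spin_free (j := j + 2) hU h0 (by omega)).trans (OmS_add_two _ _ _ _ _ _)⟩

theorem spin_flat (hU : Cnn Uᶜ) (h0 : x₀ ∉ U) (hk : (k - j) % 4 = 0 ∨ (k - j) % 4 = 1) :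
    flat U k = OmS j Uᶜ ∅ (both Uᶜ) x₀ k := by
  ext H
  refine ⟨fun ⟨h1, h2⟩ => ⟨h1, fun x hx => ?_, fun _ h => h.elim, fun x y _ h => ?_, h2 _ h0⟩,
    fun hH => ⟨hH.1, spin_out hU h0 hk Subset.rfl hH⟩⟩
  · simpa only [sp, mem_ofPred_eq, h2 x hx] using hk
  · simp only [sp, mem_ofPred_eq, h2 x h.1, h2 y h.2]

theorem flat_eq_OmS (hU : Cnn Uᶜ) (h0 : x₀ ∉ U) :
    ((k - j) % 4 = 0 ∨ (k - j) % 4 = 1 → flat U k = OmS j Uᶜ ∅ (both Uᶜ) x₀ k) ∧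
    ((k - j) % 4 = 2 ∨ (k - j) % 4 = 3 → flat U k = OmS j ∅ Uᶜ (both Uᶜ) x₀ k) :=
  ⟨spin_flat hU h0, fun h =>
    (spin_flat (j := j + 2) hU h0 (by omega)).trans (OmS_add_two _ _ _ _ _ _)⟩

theorem spin_dob (hF : Cnn Fᶜ) (h0 : x₀ ∉ F) (P : Set V) :
    dob F P = OmS 1 (P \ F) (Pᶜ \ F) (both Fᶜ) x₀ (if x₀ ∈ P then 1 else 0) := by
  have h01 : ∀ x, (if x ∈ P then 1 else 0 : ℤ) = 0 ∨ (if x ∈ P then 1 else 0 : ℤ) = 0 + 1 :=
    fun x => by split_ifs <;> simp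
  ext H
  refine ⟨fun ⟨h1, h2⟩ => ?_, fun hH => ⟨hH.1, fun x hx => ?_⟩⟩
  · have h3 : ∀ x, x ∉ F → H x = if x ∈ P then 1 else 0 := fun x hx => by
      split_ifs with h
      · exact (h2 x hx).1 h
      · exact (h2 x hx).2 h
    refine ⟨h1, fun x hx => ?_, fun x hx => ?_, fun x y _ h => ?_, h3 _ h0⟩
    · simp [sp, (h2 x hx.2).1 hx.1]
    · simp [sp, (h2 x hx.2).2 hx.1]
    · have a1 := h01 x
      have a2 := h01 y
      rw [← h3 x h.1] at a1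
      rw [← h3 y h.2] at a2
      simp only [sp, mem_ofPred_eq]
      omega
  · have h3 := spin_pin (K := fun x => if x ∈ P then 1 else 0) 1 hF hH.1 (lip_two h01)
      (fun x hx => by
        by_cases h : x ∈ P
        · exact iff_of_true (hH.2.1 x ⟨h, hx⟩) (by simp [sp, h])
        · exact iff_of_false (hH.2.2.1 x ⟨h, hx⟩) (by simp [sp, h]))
      (fun x hx y hy h => hH.2.2.2.1 x y h ⟨hx, hy⟩)
      (fun x _ y _ _ => by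
        have a1 := h01 x
        have a2 := h01 y
        simp only [sp, mem_ofPred_eq]
        omega) h0 hH.2.2.2.2 x hx
    exact ⟨fun h => h3.trans (if_pos h), fun h => h3.trans (if_neg h)⟩

theorem dob_eq_OmS (hF : Cnn Fᶜ) (h0 : x₀ ∉ F) (P : Set V) :
    dob F P = OmS 1 (P \ F) (Pᶜ \ F) (both Fᶜ) x₀ (if x₀ ∈ P then 1 else 0) ∧
    dob F P = OmS 3 (Pᶜ \ F) (P \ F) (both Fᶜ) x₀ (if x₀ ∈ P then 1 else 0) :=
  ⟨spin_dob hF h0 P, (spin_dob hF h0 P).trans (OmS_add_two 1 _ _ _ _ _).symm⟩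

theorem spin_pa {S : Set Cfg} (hS : Good S) (e : S = OmS j Pl Mi W x₀ b) (h0 : x₀ ∈ Pl ∪ Mi) :
    PA (sp j) S := by
  subst e
  exact pa_S hS h0

theorem paS_free (hU : U.Finite) (hc : Cnn Uᶜ) (h : (k - j) % 2 = 0) : PA (sp j) (free U k) := by
  obtain ⟨x, hx⟩ := compl_nonempty hU
  rcases (by omega : (k - j) % 4 = 0 ∨ (k - j) % 4 = 2) with h1 | h1
  · exact spin_pa (good_free hU k) ((free_eq_OmS hc hx).1 h1) (Or.inl fun h => hx h.1)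
  · exact spin_pa (good_free hU k) ((free_eq_OmS hc hx).2 h1) (Or.inr fun h => hx h.1)

theorem paS_flat (hU : U.Finite) (hc : Cnn Uᶜ) (j k : ℤ) : PA (sp j) (flat U k) := by
  obtain ⟨x, hx⟩ := compl_nonempty hU
  rcases (by omega : ((k - j) % 4 = 0 ∨ (k - j) % 4 = 1) ∨ (k - j) % 4 = 2 ∨ (k - j) % 4 = 3) with
    h1 | h1
  · exact spin_pa (good_flat hU k) ((flat_eq_OmS hc hx).1 h1) (Or.inl hx)
  · exact spin_pa (good_flat hU k) ((flat_eq_OmS hc hx).2 h1) (Or.inr hx)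

theorem paS_dob (hF : F.Finite) (hc : Cnn Fᶜ) (P : Set V) :
    PA (sp 1) (dob F P) ∧ PA (sp 3) (dob F P) := by
  obtain ⟨x, hx⟩ := compl_nonempty hF
  have h : x ∈ P \ F ∪ Pᶜ \ F := (Classical.em (x ∈ P)).imp (fun h => ⟨h, hx⟩) fun h => ⟨h, hx⟩
  exact ⟨spin_pa (good_dob hF P) (dob_eq_OmS hc hx P).1 h,
    spin_pa (good_dob hF P) (dob_eq_OmS hc hx P).2 h.symm⟩

/-- Conditioning on the spins outside `B` stays in the class. -/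
theorem OmS_cond (B : Set V) {H : Cfg} (hH : H ∈ OmS j Pl Mi W x₀ b) :
    OmS j Pl Mi W x₀ b ∩ {K | sp j K \ B = sp j H \ B} =
      OmS j (Pl ∪ (sp j H \ B)) (Mi ∪ ((sp j H)ᶜ \ B)) W x₀ b := by
  have _ := hH
  ext K
  refine ⟨fun ⟨⟨h1, h2, h3, h4⟩, h5⟩ => ⟨h1, fun x hx => ?_, fun x hx => ?_, h4⟩,
    fun ⟨h1, h2, h3, h4⟩ => ⟨⟨h1, fun x hx => h2 x (Or.inl hx), fun x hx => h3 x (Or.inl hx), h4⟩,
      Set.ext fun x => ⟨fun hx => ⟨not_not.1 fun h => h3 x (Or.inr ⟨h, hx.2⟩) hx.1, hx.2⟩,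
        fun hx => ⟨h2 x (Or.inr hx), hx.2⟩⟩⟩⟩
  · exact hx.elim (h2 x) fun h => ((Set.ext_iff.1 h5 x).2 h).1
  · exact hx.elim (h3 x) fun h h' => h.1 ((Set.ext_iff.1 h5 x).1 ⟨h', h.2⟩).1

end Vale.Agent.P153
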