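import Vale.Agent.P153.FKG.Dom
import Vale.Agent.P153.FKG.Poin

/-! P153, module FKG: the Holley condition for the spins. -/

open Set

noncomputable section
namespace Vale.Agent.P153

variable {Pl Mi Pl' Mi' : Set V} {W W' : V → V → Prop} {x₀ x₁ : V} {j b b' : ℤ}

theorem Pot_mono {A A' : V → V → Prop} (h : ∀ x y, Adj x y → A x y → A' x y) : Pot A ≤ Pot A' :=
  fun _ hτ => ⟨hτ.1, fun x y h1 h2 => hτ.2 x y h1 fun h3 => h2 (h x y h1 h3)⟩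

theorem SpinH_inf {A A' B : V → V → Prop} (h : ∀ x y, Adj x y → A x y → A' x y → B x y) :
    Pot A ⊓ Pot A' ≤ Pot B := fun _ hτ => by
  refine ⟨hτ.1.1, fun x y h1 h2 => ?_⟩
  by_cases h3 : A x y
  · exact hτ.2.2 x y h1 fun h4 => h2 (h x y h1 h3 h4)
  · exact hτ.1.2 x y h1 h3

theorem SpinH_bot {A : V → V → Prop} (h : ∀ x y, ¬ A x y) : Pot A = ⊥ := by
  refine le_bot_iff.1 fun τ hτ => ?_
  rw [AddSubgroup.mem_bot]
  funext x
  exact (conn_univ 0 x).ind (P := fun y => τ y = 0) hτ.1 fun u v _ h1 _ _ _ ih =>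
    (hτ.2 u v h1 (h u v)).symm.trans ih

theorem SpinH_sup (σ : Set V) {A A' : V → V → Prop} (hA : ∀ x y, A x y → x ∈ σ ∧ y ∈ σ)
    (hA' : ∀ x y, A' x y → x ∉ σ ∧ y ∉ σ) :
    Pot A ⊔ Pot A' = Pot fun x y => A x y ∨ A' x y := by
  classical
  refine le_antisymm (sup_le (Pot_mono fun _ _ _ => Or.inl) (Pot_mono fun _ _ _ => Or.inr))
    fun τ hτ => ?_
  have h1 : ∀ x y, Adj x y → x ∈ σ → y ∉ σ → τ x = τ y := fun x y h hx hy =>
    hτ.2 x y h fun h' => h'.elim (fun h2 => hy (hA x y h2).2) fun h2 => (hA' x y h2).1 hx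
  obtain ⟨f, f0, hf⟩ := poincareG (fun x y => if x ∈ σ ∧ y ∈ σ then τ y - τ x else 0)
    (fun x y _ => by
      by_cases hx : x ∈ σ <;> by_cases hy : y ∈ σ <;> simp [hx, hy])
    (fun x y z hxy hyz hzx => by
      by_cases hx : x ∈ σ <;> by_cases hy : y ∈ σ <;> by_cases hz : z ∈ σ <;>
        simp only [hx, hy, hz, and_self, and_true, and_false, if_true, if_false, add_zero,
          zero_add]
      · abel
      · rw [h1 y z hyz hy hz, h1 x z hzx.symm hx hz, sub_self]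
      · rw [h1 x y hxy hx hy, h1 z y hyz.symm hz hy, sub_self]
      · rw [h1 y x hxy.symm hy hx, h1 z x hzx hz hx, sub_self])
  have h2 : f ∈ Pot A := by
    refine ⟨f0, fun x y h h' => ?_⟩
    have h3 := hf x y h
    split_ifs at h3 with h4
    · rw [hτ.2 x y h fun h5 => h5.elim h' fun h6 => (hA' x y h6).1 h4.1, sub_self] at h3
      exact (sub_eq_zero.1 h3).symm
    · exact (sub_eq_zero.1 h3).symm
  have h3 : τ - f ∈ Pot A' := by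
    refine ⟨by simp [f0, hτ.1], fun x y h h' => ?_⟩
    have h3 := hf x y h
    rw [Pi.sub_apply, Pi.sub_apply]
    split_ifs at h3 with h4
    · linear_combination h3
    · rw [hτ.2 x y h fun h5 => h5.elim (fun h6 => h4 (hA x y h6)) h', sub_eq_zero.1 h3]
  have h4 := AddSubgroup.add_mem_sup h2 h3
  rwa [add_sub_cancel] at h4

/-- A potential splits into a part living on plus edges and a part living on minus edges. -/
theorem card_Pot_split (σ : Set V) {A A' : V → V → Prop} (hA : ∀ x y, A x y → x ∈ σ ∧ y ∈ σ)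
    (hA' : ∀ x y, A' x y → x ∉ σ ∧ y ∉ σ) :
    Nat.card (Pot fun x y => A x y ∨ A' x y) = Nat.card (Pot A) * Nat.card (Pot A') := by
  have h1 : Pot A ⊓ Pot A' = ⊥ := by
    refine le_bot_iff.1 ?_
    rw [← SpinH_bot (A := fun _ _ => False) fun _ _ => not_false]
    exact SpinH_inf fun x y _ h2 h3 => (hA' x y h3).1 (hA x y h2).1
  rw [card_sup_mul_inf, h1, SpinH_sup σ hA hA', AddSubgroup.card_bot, mul_one]

open Classical in
/-- The second spin as an element of `ZMod 2`. -/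
def SpinH_t (j : ℤ) (H : Cfg) (x : V) : ZMod 2 := if x ∈ sp (j + 1) H then 1 else 0

theorem SpinH_t_iff {H K : Cfg} {x y : V} :
    SpinH_t j H x = SpinH_t j K y ↔ (x ∈ sp (j + 1) H ↔ y ∈ sp (j + 1) K) := by
  unfold SpinH_t
  by_cases h1 : x ∈ sp (j + 1) H <;> by_cases h2 : y ∈ sp (j + 1) K <;> simp [h1, h2]

theorem SpinH_dis {H : Cfg} (hH : Lip H) {x y : V} (h : Adj x y) (hx : x ∈ sp j H)
    (hy : y ∉ sp j H) : x ∈ sp (j + 1) H ↔ y ∈ sp (j + 1) H := by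
  have h1 := abs_le.1 (hH x y h)
  simp only [sp, mem_ofPred_eq] at hx hy ⊢
  omega

theorem SpinH_mem {σ : Set V} {H : Cfg} (hH : H ∈ OmS j Pl Mi W x₀ b ∩ {H | sp j H = σ}) :
    (fun x => SpinH_t j H x - SpinH_t j H 0) ∈
      Pot fun x y => (x ∈ σ ∧ y ∈ σ ∧ ¬ W x y ∧ ¬ W y x) ∨
        (x ∉ σ ∧ y ∉ σ ∧ ¬ W x y ∧ ¬ W y x) := by
  obtain ⟨⟨h1, -, -, h2, -⟩, rfl⟩ := hH
  refine ⟨sub_self _, fun x y h h' => ?_⟩
  have h3 : x ∈ sp (j + 1) H ↔ y ∈ sp (j + 1) H := by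
    by_cases h4 : W x y
    · exact h2 x y h h4
    by_cases h5 : W y x
    · exact (h2 y x h.symm h5).symm
    by_cases hx : x ∈ sp j H <;> by_cases hy : y ∈ sp j H
    · exact absurd (Or.inl ⟨hx, hy, h4, h5⟩) h'
    · exact SpinH_dis h1 h hx hy
    · exact (SpinH_dis h1 h.symm hy hx).symm
    · exact absurd (Or.inr ⟨hx, hy, h4, h5⟩) h'
  beta_reduce
  rw [SpinH_t_iff.2 h3]

open Classical in
theorem SpinH_zmod (β : Prop) (a c : ZMod 2) :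
    (if (a = c ↔ β) then 1 else 0 : ZMod 2) = a - c + if β then 1 else 0 := by
  have h1 : ∀ a c : ZMod 2, a ≠ c → a - c = 1 := by decide
  have h2 : (1 + 1 : ZMod 2) = 0 := by decide
  by_cases h : a = c <;> by_cases hβ : β <;> simp [h, hβ, h1, h2]

open Classical in
/-- The residue modulo four read off from the two spins. -/
def SpinH_v (p q : Prop) : ℤ := if p then (if q then 1 else 0) else (if q then 2 else 3)

theorem SpinH_v_spec (p q : Prop) : (p ∧ q ∧ SpinH_v p q = 1) ∨ (p ∧ ¬ q ∧ SpinH_v p q = 0) ∨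
    (¬ p ∧ q ∧ SpinH_v p q = 2) ∨ (¬ p ∧ ¬ q ∧ SpinH_v p q = 3) := by
  unfold SpinH_v
  by_cases hp : p <;> by_cases hq : q <;> simp [hp, hq]

theorem SpinH_lift (σ P : Set V) (h : ∀ x y, Adj x y → x ∈ σ → y ∉ σ → (x ∈ P ↔ y ∈ P))
    (h3 : x₀ ∈ σ ↔ ((b - j) % 4 = 0 ∨ (b - j) % 4 = 1))
    (h4 : x₀ ∈ P ↔ ((b - (j + 1)) % 4 = 0 ∨ (b - (j + 1)) % 4 = 1)) :
    ∃ H, Lip H ∧ sp j H = σ ∧ sp (j + 1) H = P ∧ H x₀ = b := by
  obtain ⟨H, k1, k2, k3⟩ := lift4 (fun x => b + (j + SpinH_v (x ∈ σ) (x ∈ P) - b) % 4)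
    (fun x y hxy => by
      have a1 := h x y hxy
      have a2 := h y x hxy.symm
      rcases SpinH_v_spec (x ∈ σ) (x ∈ P) with c | c | c | c <;>
        rcases SpinH_v_spec (y ∈ σ) (y ∈ P) with d | d | d | d <;>
        first
          | (rw [c.2.2, d.2.2]; omega)
          | tauto) x₀
  have k4 : ∀ x, (H x - (b + (j + SpinH_v (x ∈ σ) (x ∈ P) - b) % 4)) % 4 = 0 := fun x =>
    k2 x (mem_univ x)
  refine ⟨H, k1, ?_, ?_, k3.trans ?_⟩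
  · ext x
    have k5 := k4 x
    simp only [sp, mem_ofPred_eq]
    rcases SpinH_v_spec (x ∈ σ) (x ∈ P) with c | c | c | c <;> rw [c.2.2] at k5
    · exact iff_of_true (by omega) c.1
    · exact iff_of_true (by omega) c.1
    · exact iff_of_false (by omega) c.1
    · exact iff_of_false (by omega) c.1
  · ext x
    have k5 := k4 x
    simp only [sp, mem_ofPred_eq]
    rcases SpinH_v_spec (x ∈ σ) (x ∈ P) with c | c | c | c <;> rw [c.2.2] at k5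
    · exact iff_of_true (by omega) c.2.1
    · exact iff_of_false (by omega) c.2.1
    · exact iff_of_true (by omega) c.2.1
    · exact iff_of_false (by omega) c.2.1
  · rcases SpinH_v_spec (x₀ ∈ σ) (x₀ ∈ P) with c | c | c | c <;> rw [c.2.2] <;>
      rw [h3, h4] at c <;> omega

/-- The fibre over an admissible spin configuration. -/
theorem fibre_S (σ : Set V) (h1 : Pl ⊆ σ) (h2 : ∀ x ∈ Mi, x ∉ σ)
    (h3 : x₀ ∈ σ ↔ ((b - j) % 4 = 0 ∨ (b - j) % 4 = 1)) :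
    Nonempty (↥(OmS j Pl Mi W x₀ b ∩ {H | sp j H = σ}) ≃
      Pot fun x y => (x ∈ σ ∧ y ∈ σ ∧ ¬ W x y ∧ ¬ W y x) ∨
        (x ∉ σ ∧ y ∉ σ ∧ ¬ W x y ∧ ¬ W y x)) := by
  classical
  refine ⟨Equiv.ofBijective (fun H => ⟨_, SpinH_mem H.2⟩) ⟨?_, ?_⟩⟩
  · rintro ⟨H, hH⟩ ⟨K, hK⟩ h
    have k1 : ∀ x, SpinH_t j H x - SpinH_t j H 0 = SpinH_t j K x - SpinH_t j K 0 :=
      congrFun (congrArg Subtype.val h)
    have k2 : H x₀ = K x₀ := hH.1.2.2.2.2.trans hK.1.2.2.2.2.symm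
    have k3 : SpinH_t j H x₀ = SpinH_t j K x₀ :=
      SpinH_t_iff.2 (by simp only [sp, mem_ofPred_eq, k2])
    have k4 : ∀ x, SpinH_t j H x = SpinH_t j K x := fun x => by
      linear_combination k1 x - k1 x₀ + k3
    have k5 : sp j H = sp j K := hH.2.trans hK.2.symm
    exact Subtype.ext ((eq4_of_sp (B := univ) j fun x _ =>
      ⟨by rw [k5], SpinH_t_iff.1 (k4 x)⟩).eq hH.1.1 hK.1.1 k2)
  · rintro ⟨τ, hτ⟩
    obtain ⟨H, k1, k2, k3, k4⟩ := SpinH_lift (j := j) (x₀ := x₀) (b := b) σ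
      {x | τ x = τ x₀ ↔ ((b - (j + 1)) % 4 = 0 ∨ (b - (j + 1)) % 4 = 1)}
      (fun x y h hx hy => by
        rw [mem_ofPred_eq, mem_ofPred_eq,
          hτ.2 x y h fun h' => h'.elim (fun h4 => hy h4.2.1) fun h4 => h4.1 hx])
      h3 (by simp)
    refine ⟨⟨H, ⟨k1, by rw [k2]; exact h1, by rw [k2]; exact h2, fun x y h h' => ?_, k4⟩, k2⟩,
      Subtype.ext (funext fun x => ?_)⟩
    · rw [k3, mem_ofPred_eq, mem_ofPred_eq,
        hτ.2 x y h fun h4 => h4.elim (fun h5 => h5.2.2.1 h') fun h5 => h5.2.2.1 h']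
    · have k5 : ∀ y, SpinH_t j H y = τ y - τ x₀ +
          if ((b - (j + 1)) % 4 = 0 ∨ (b - (j + 1)) % 4 = 1) then 1 else 0 := fun y => by
        have k6 := SpinH_zmod ((b - (j + 1)) % 4 = 0 ∨ (b - (j + 1)) % 4 = 1) (τ y) (τ x₀)
        unfold SpinH_t
        rw [k3, mem_ofPred_eq]
        by_cases c1 : τ y = τ x₀ ↔ ((b - (j + 1)) % 4 = 0 ∨ (b - (j + 1)) % 4 = 1) <;>
          by_cases c2 : (b - (j + 1)) % 4 = 0 ∨ (b - (j + 1)) % 4 = 1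
        · rw [if_pos c1, if_pos c2] at k6 ⊢
          exact k6
        · rw [if_pos c1, if_neg c2] at k6 ⊢
          exact k6
        · rw [if_neg c1, if_pos c2] at k6 ⊢
          exact k6
        · rw [if_neg c1, if_neg c2] at k6 ⊢
          exact k6
      change SpinH_t j H x - SpinH_t j H 0 = τ x
      rw [k5, k5, hτ.1]
      ring

theorem SpinH_fb (hS : (OmS j Pl Mi W x₀ b).Finite) (σ : Set V) (h1 : Pl ⊆ σ)
    (h2 : ∀ x ∈ Mi, x ∉ σ) (h3 : x₀ ∈ σ ↔ ((b - j) % 4 = 0 ∨ (b - j) % 4 = 1)) :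
    fb (sp j) (OmS j Pl Mi W x₀ b) σ =
      Nat.card (Pot fun x y => x ∈ σ ∧ y ∈ σ ∧ ¬ W x y ∧ ¬ W y x) *
        Nat.card (Pot fun x y => x ∉ σ ∧ y ∉ σ ∧ ¬ W x y ∧ ¬ W y x) ∧
      Finite (Pot fun x y => x ∈ σ ∧ y ∈ σ ∧ ¬ W x y ∧ ¬ W y x) ∧
      Finite (Pot fun x y => x ∉ σ ∧ y ∉ σ ∧ ¬ W x y ∧ ¬ W y x) := by
  obtain ⟨e⟩ := fibre_S (W := W) σ h1 h2 h3
  have k1 : Finite ↥(OmS j Pl Mi W x₀ b ∩ {H | sp j H = σ}) := (hS.inter_of_left _).to_subtype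
  have k2 := Finite.of_equiv _ e
  refine ⟨?_, Finite.of_injective _ (AddSubgroup.inclusion_injective
    (Pot_mono (A' := fun x y => (x ∈ σ ∧ y ∈ σ ∧ ¬ W x y ∧ ¬ W y x) ∨
      (x ∉ σ ∧ y ∉ σ ∧ ¬ W x y ∧ ¬ W y x)) fun _ _ _ => Or.inl)),
    Finite.of_injective _ (AddSubgroup.inclusion_injective
    (Pot_mono (A' := fun x y => (x ∈ σ ∧ y ∈ σ ∧ ¬ W x y ∧ ¬ W y x) ∨
      (x ∉ σ ∧ y ∉ σ ∧ ¬ W x y ∧ ¬ W y x)) fun _ _ _ => Or.inr))⟩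
  rw [fb, ← Nat.card_coe_set_eq, Nat.card_congr e]
  exact card_Pot_split σ (fun _ _ h => ⟨h.1, h.2.1⟩) fun _ _ h => ⟨h.1, h.2.1⟩

theorem SpinH_adm {H : Cfg} (hH : H ∈ OmS j Pl Mi W x₀ b) :
    x₀ ∈ sp j H ↔ ((b - j) % 4 = 0 ∨ (b - j) % 4 = 1) := by
  rw [← hH.2.2.2.2]
  rfl

theorem hol_S (hS : (OmS j Pl Mi W x₀ b).Finite) (hT : (OmS j Pl' Mi' W' x₁ b').Finite)
    (hP : Pl ⊆ Pl') (hM : Mi' ⊆ Mi) (h0 : x₀ ∈ Pl ∪ Mi) (h1 : x₁ ∈ Pl' ∪ Mi')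
    (w1 : ∀ x y, Adj x y → W' x y → W x y ∨ W y x ∨ x ∈ Mi ∨ y ∈ Mi)
    (w2 : ∀ x y, Adj x y → W x y → W' x y ∨ W' y x ∨ x ∈ Pl' ∨ y ∈ Pl') :
    Hol (sp j) (OmS j Pl Mi W x₀ b) (OmS j Pl' Mi' W' x₁ b') := by
  intro s t
  rcases (OmS j Pl Mi W x₀ b ∩ {H | sp j H = s}).eq_empty_or_nonempty with e | ⟨H, hH, rfl⟩
  · rw [fb, e, ncard_empty, zero_mul]
    exact Nat.zero_le _
  rcases (OmS j Pl' Mi' W' x₁ b' ∩ {H | sp j H = t}).eq_empty_or_nonempty with e | ⟨K, hK, rfl⟩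
  · rw [fb, fb, e, ncard_empty, mul_zero]
    exact Nat.zero_le _
  have a1 : Pl ⊆ sp j H := hH.2.1
  have a2 : ∀ x ∈ Mi, x ∉ sp j H := hH.2.2.1
  have b1 : Pl' ⊆ sp j K := hK.2.1
  have b2 : ∀ x ∈ Mi', x ∉ sp j K := hK.2.2.1
  obtain ⟨e1, -, -⟩ := SpinH_fb hS _ a1 a2 (SpinH_adm hH)
  obtain ⟨e2, -, -⟩ := SpinH_fb hT _ b1 b2 (SpinH_adm hK)
  obtain ⟨e3, f1, f2⟩ := SpinH_fb hS (sp j H ⊓ sp j K) (subset_inter a1 (hP.trans b1))
    (fun x hx h => a2 x hx h.1) (by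
      rw [← SpinH_adm hH]
      exact ⟨fun h => h.1, fun h => ⟨h, h0.elim (fun h' => b1 (hP h')) fun h' =>
        absurd h (a2 _ h')⟩⟩)
  obtain ⟨e4, f3, f4⟩ := SpinH_fb hT (sp j H ⊔ sp j K) (b1.trans subset_union_right)
    (fun x hx h => h.elim (a2 x (hM hx)) (b2 x hx)) (by
      rw [← SpinH_adm hK]
      exact ⟨fun h => h.elim (fun h2 => h1.elim (fun h' => b1 h') fun h' =>
        absurd h2 (a2 _ (hM h'))) id, Or.inr⟩)
  have p1 := card_mul_card_le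
    (G1 := Pot fun x y => x ∈ sp j H ∧ y ∈ sp j H ∧ ¬ W x y ∧ ¬ W y x)
    (G2 := Pot fun x y => x ∈ sp j K ∧ y ∈ sp j K ∧ ¬ W' x y ∧ ¬ W' y x)
    (G3 := Pot fun x y => x ∈ sp j H ⊔ sp j K ∧ y ∈ sp j H ⊔ sp j K ∧ ¬ W' x y ∧ ¬ W' y x)
    (G4 := Pot fun x y => x ∈ sp j H ⊓ sp j K ∧ y ∈ sp j H ⊓ sp j K ∧ ¬ W x y ∧ ¬ W y x)
    (sup_le (Pot_mono fun x y h k => ⟨Or.inl k.1, Or.inl k.2.1,
        fun h' => (w1 x y h h').elim k.2.2.1 fun c => c.elim k.2.2.2 fun c =>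
          c.elim (fun c => a2 x c k.1) fun c => a2 y c k.2.1,
        fun h' => (w1 y x h.symm h').elim k.2.2.2 fun c => c.elim k.2.2.1 fun c =>
          c.elim (fun c => a2 y c k.2.1) fun c => a2 x c k.1⟩)
      (Pot_mono fun _ _ _ k => ⟨Or.inr k.1, Or.inr k.2.1, k.2.2⟩))
    (SpinH_inf fun _ _ _ k k' => ⟨⟨k.1, k'.1⟩, ⟨k.2.1, k'.2.1⟩, k.2.2⟩)
  have p2 := card_mul_card_le
    (G1 := Pot fun x y => x ∉ sp j H ∧ y ∉ sp j H ∧ ¬ W x y ∧ ¬ W y x)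
    (G2 := Pot fun x y => x ∉ sp j K ∧ y ∉ sp j K ∧ ¬ W' x y ∧ ¬ W' y x)
    (G3 := Pot fun x y => x ∉ sp j H ⊓ sp j K ∧ y ∉ sp j H ⊓ sp j K ∧ ¬ W x y ∧ ¬ W y x)
    (G4 := Pot fun x y => x ∉ sp j H ⊔ sp j K ∧ y ∉ sp j H ⊔ sp j K ∧ ¬ W' x y ∧ ¬ W' y x)
    (sup_le (Pot_mono fun _ _ _ k => ⟨fun c => k.1 c.1, fun c => k.2.1 c.1, k.2.2⟩)
      (Pot_mono fun x y h k => ⟨fun c => k.1 c.2, fun c => k.2.1 c.2,
        fun h' => (w2 x y h h').elim k.2.2.1 fun c => c.elim k.2.2.2 fun c =>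
          c.elim (fun c => k.1 (b1 c)) fun c => k.2.1 (b1 c),
        fun h' => (w2 y x h.symm h').elim k.2.2.2 fun c => c.elim k.2.2.1 fun c =>
          c.elim (fun c => k.2.1 (b1 c)) fun c => k.1 (b1 c)⟩))
    (SpinH_inf fun _ _ _ k k' => ⟨fun c => c.elim k.1 k'.1, fun c => c.elim k.2.1 k'.2.1, k'.2.2⟩)
  rw [e1, e2, e3, e4, mul_mul_mul_comm]
  refine (Nat.mul_le_mul p1 p2).trans (le_of_eq ?_)
  ring

end Vale.Agent.P153
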