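import Vale.Agent.P153.FKG.Loc

/-! P153, module FKG: symmetries. -/

open Set

noncomputable section
namespace Vale.Agent.P153

variable {S T E : Set Cfg} {U U' B F : Set V} {H K : Cfg} {f g : Cfg → ℝ} {j k m ε : ℤ}

/-! ### Symmetries -/

theorem Lip.hact {σ : V ≃ V} (hσ : IsSym σ) (hε : ε = 1 ∨ ε = -1) (k : ℤ) (h : Lip H) :
    Lip (hact σ ε k H) := by
  intro x y hxy
  have h1 := h _ _ ((hσ.symm x y).2 hxy)
  simp only [P153.hact]
  rw [abs_le] at h1 ⊢
  rcases hε with rfl | rfl <;> omega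

theorem hact_inj (σ : V ≃ V) (hε : ε = 1 ∨ ε = -1) (k : ℤ) : Function.Injective (hact σ ε k) := by
  intro H K h
  funext x
  have h1 := congrFun h (σ x)
  simp only [hact, Equiv.symm_apply_apply] at h1
  rcases hε with rfl | rfl <;> omega

theorem hact_hact (σ : V ≃ V) (hε : ε = 1 ∨ ε = -1) (k : ℤ) (H : Cfg) :
    hact σ.symm ε (-ε * k) (hact σ ε k H) = H ∧ hact σ ε k (hact σ.symm ε (-ε * k) H) = H := by
  constructor <;> funext x <;>
    simp only [hact, Equiv.symm_symm, Equiv.symm_apply_apply, Equiv.apply_symm_apply] <;>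
    rcases hε with rfl | rfl <;> ring

/-- A criterion for the action to be a bijection between two sets. -/
theorem bij_hact {σ : V ≃ V} (hε : ε = 1 ∨ ε = -1) (h1 : ∀ H ∈ S, hact σ ε k H ∈ T)
    (h2 : ∀ K ∈ T, hact σ.symm ε (-ε * k) K ∈ S) : BijOn (hact σ ε k) S T :=
  ⟨h1, (hact_inj σ hε k).injOn, fun K hK => ⟨_, h2 K hK, (hact_hact σ hε k K).2⟩⟩

theorem IsSym.ibd {σ : V ≃ V} (hσ : IsSym σ) (U : Set V) : ibd (σ '' U) = σ '' ibd U := by
  ext x
  obtain ⟨x, rfl⟩ := σ.surjective x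
  rw [σ.injective.mem_set_image]
  simp only [P153.ibd, mem_ofPred_eq, σ.injective.mem_set_image]
  refine and_congr Iff.rfl ⟨?_, ?_⟩
  · rintro ⟨y, h1, h2⟩
    obtain ⟨y, rfl⟩ := σ.surjective y
    rw [σ.injective.mem_set_image] at h1
    exact ⟨y, h1, (hσ x y).1 h2⟩
  · rintro ⟨y, h1, h2⟩
    exact ⟨σ y, by rwa [σ.injective.mem_set_image], (hσ x y).2 h2⟩

theorem IsSym.obd {σ : V ≃ V} (hσ : IsSym σ) (U : Set V) : obd (σ '' U) = σ '' obd U := by
  rw [← ibd_compl, ← ibd_compl, ← hσ.ibd, Equiv.image_compl]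

theorem IsSym.hex {σ : V ≃ V} (hσ : IsSym σ) (x : V) (n : ℕ) : σ '' hex x n = hex (σ x) n := by
  ext y
  obtain ⟨y, rfl⟩ := σ.surjective y
  rw [σ.injective.mem_set_image, mem_hex, mem_hex, hσ.nrm_eq]

theorem Sym_mem {σ : V ≃ V} {A : Set V} {x : V} : x ∈ σ '' A ↔ σ.symm x ∈ A :=
  Set.mem_image_equiv

theorem Sym_mem' {σ : V ≃ V} {A : Set V} {x : V} : σ x ∈ σ '' A ↔ x ∈ A :=
  σ.injective.mem_set_image

theorem bij_flat {σ : V ≃ V} (hσ : IsSym σ) (hε : ε = 1 ∨ ε = -1) (U : Set V) (m k : ℤ) :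
    BijOn (hact σ ε k) (flat U m) (flat (σ '' U) (ε * m + k)) := by
  refine bij_hact hε (fun H h => ⟨h.1.hact hσ hε k, fun x hx => ?_⟩)
    fun K h => ⟨h.1.hact hσ.symm hε _, fun x hx => ?_⟩
  · simp only [hact]
    rw [h.2 _ (mt Sym_mem.2 hx)]
  · simp only [hact, Equiv.symm_symm]
    rw [h.2 _ (mt Sym_mem'.1 hx)]
    rcases hε with rfl | rfl <;> ring

theorem bij_free {σ : V ≃ V} (hσ : IsSym σ) (U : Set V) (m k : ℤ) :
    BijOn (hact σ 1 k) (free U m) (free (σ '' U) (m + k)) := by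
  refine bij_hact (Or.inl rfl)
    (fun H h => ⟨h.1.hact hσ (Or.inl rfl) k, fun x hx => ?_, fun x hx => ?_⟩)
    fun K h => ⟨h.1.hact hσ.symm (Or.inl rfl) _, fun x hx => ?_, fun x hx => ?_⟩
  · have := h.2.1 _ (mt Sym_mem.2 hx)
    simp only [hact]
    omega
  · rw [hσ.ibd] at hx
    have := h.2.2 _ (Sym_mem.1 hx)
    simp only [hact]
    omega
  · have := h.2.1 _ (mt Sym_mem'.1 hx)
    simp only [hact, Equiv.symm_symm]
    omega
  · have := h.2.2 (σ x) (by rw [hσ.ibd]; exact Sym_mem'.2 hx)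
    simp only [hact, Equiv.symm_symm]
    omega

theorem bij_dob {σ : V ≃ V} (hσ : IsSym σ) (F P : Set V) :
    BijOn (hact σ 1 0) (dob F P) (dob (σ '' F) (σ '' P)) ∧
      BijOn (hact σ (-1) 1) (dob F P) (dob (σ '' F) (σ '' Pᶜ)) := by
  constructor
  · refine bij_hact (Or.inl rfl) (fun H h => ⟨h.1.hact hσ (Or.inl rfl) _, fun x hx => ?_⟩)
      fun K h => ⟨h.1.hact hσ.symm (Or.inl rfl) _, fun x hx => ?_⟩
    · have := h.2 _ (mt Sym_mem.2 hx)
      simp only [hact, Sym_mem]
      exact ⟨fun h1 => by have := this.1 h1; omega, fun h1 => by have := this.2 h1; omega⟩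
    · have := h.2 _ (mt Sym_mem'.1 hx)
      simp only [Sym_mem'] at this
      simp only [hact, Equiv.symm_symm]
      exact ⟨fun h1 => by have := this.1 h1; omega, fun h1 => by have := this.2 h1; omega⟩
  · refine bij_hact (Or.inr rfl) (fun H h => ⟨h.1.hact hσ (Or.inr rfl) _, fun x hx => ?_⟩)
      fun K h => ⟨h.1.hact hσ.symm (Or.inr rfl) _, fun x hx => ?_⟩
    · have := h.2 _ (mt Sym_mem.2 hx)
      simp only [hact, Sym_mem, mem_compl_iff, not_not]
      exact ⟨fun h1 => by have := this.2 h1; omega, fun h1 => by have := this.1 h1; omega⟩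
    · have := h.2 _ (mt Sym_mem'.1 hx)
      simp only [Sym_mem', mem_compl_iff, not_not] at this
      simp only [hact, Equiv.symm_symm]
      exact ⟨fun h1 => by have := this.2 h1; omega, fun h1 => by have := this.1 h1; omega⟩

theorem bij_Om {σ : V ≃ V} (hσ : IsSym σ) (hε : ε = 1 ∨ ε = -1) (C : V → Set ℤ) (k : ℤ) :
    BijOn (hact σ ε k) (Om C) (Om fun x => (fun t => ε * t + k) '' C (σ.symm x)) := by
  refine bij_hact hε (fun H h => ⟨h.1.hact hσ hε k, fun x => ⟨_, h.2 _, rfl⟩⟩)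
    fun K h => ⟨h.1.hact hσ.symm hε _, fun x => ?_⟩
  obtain ⟨t, ht, e⟩ := h.2 (σ x)
  rw [Equiv.symm_apply_apply] at ht
  have e1 : hact σ.symm ε (-ε * k) K x = t := by
    simp only [hact, Equiv.symm_symm]
    rw [← e]
    rcases hε with rfl | rfl <;> ring
  rwa [e1]

theorem Sym_act_one (k : ℤ) (H : Cfg) : hact (Equiv.refl V) 1 k H = fun x => H x + k := by
  funext x
  simp [hact]

theorem Sym_act_neg (k : ℤ) (H : Cfg) : hact (Equiv.refl V) (-1) k H = fun x => k - H x := by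
  funext x
  simp only [hact, Equiv.refl_symm, Equiv.refl_apply]
  ring

/-- The flip of a band: `H ↦ k - H` sends the band `m` to the band `k - m - 1`. -/
theorem Ex_free_flip (hU : U.Finite) (m k : ℤ) (hf : DepOn f U) :
    Ex (free U m) (fun H => f fun x => k - H x) = Ex (free U (k - m - 1)) f := by
  have hb : BijOn (hact (Equiv.refl V) (-1) k) (free U m) {H | Lip H ∧ (∀ x, x ∉ U → H x = k - m) ∧
      ∀ x ∈ ibd U, H x = k - m - 1 ∨ H x = k - m - 1 + 1} := by
    refine bij_hact (Or.inr rfl)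
      (fun H h => ⟨h.1.hact isSym_refl (Or.inr rfl) k, fun x hx => ?_, fun x hx => ?_⟩)
      fun K h => ⟨h.1.hact isSym_refl.symm (Or.inr rfl) _, fun x hx => ?_, fun x hx => ?_⟩
    · have := h.2.1 x hx
      simp only [Sym_act_neg]
      omega
    · have := h.2.2 x hx
      simp only [Sym_act_neg]
      omega
    · have := h.2.1 x hx
      simp only [Equiv.refl_symm, Sym_act_neg]
      omega
    · have := h.2.2 x hx
      simp only [Equiv.refl_symm, Sym_act_neg]
      omega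
  have e := Ex_bij hb f
  simp only [Sym_act_neg] at e
  rw [e]
  refine Ex_eq_free (Good.bij hb (good_free hU m)) hU (fun H h => h.1) (fun H h x hx => ?_)
    (fun H h K hK h1 h2 => ⟨hK, fun x hx => (h1 x hx).trans (h.2.1 x hx), h2⟩)
    fun H _ K _ h => hf H K h
  rcases hx with hx | hx
  · exact h.2.2 x hx
  · have := h.2.1 x hx.1
    omega

theorem Ex_free_shift (U : Set V) (m k : ℤ) (f : Cfg → ℝ) :
    Ex (free U m) (fun H => f fun x => H x + k) = Ex (free U (m + k)) f := by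
  have e := Ex_bij (bij_free isSym_refl U m k) f
  simpa only [Sym_act_one, Equiv.coe_refl, image_id] using e

theorem Ex_flat_shift (U : Set V) (m k : ℤ) (f : Cfg → ℝ) :
    Ex (flat U m) (fun H => f fun x => H x + k) = Ex (flat U (m + k)) f := by
  have e := Ex_bij (bij_flat isSym_refl (Or.inl rfl) U m k) f
  simpa only [Sym_act_one, Equiv.coe_refl, image_id, one_mul] using e

theorem Ex_flat_flip (U : Set V) (m k : ℤ) (f : Cfg → ℝ) :
    Ex (flat U m) (fun H => f fun x => k - H x) = Ex (flat U (k - m)) f := by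
  have e := Ex_bij (bij_flat isSym_refl (Or.inr rfl) U m k) f
  rw [show -1 * m + k = k - m by ring] at e
  simpa only [Sym_act_neg, Equiv.coe_refl, image_id] using e

theorem Inv4.shift {α : Type} {f : Cfg → α} (h : Inv4 f) (n : ℤ) (H : Cfg) :
    f (fun x => H x + 4 * n) = f H := by
  induction n using Int.induction_on with
  | zero => simp
  | succ i ih =>
    rw [← ih, ← h fun x => H x + 4 * (i : ℤ)]
    congr 1
    funext x
    ring
  | pred i ih =>
    rw [← ih, ← h fun x => H x + 4 * (-(i : ℤ) - 1)]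
    congr 1
    funext x
    ring

theorem Ex_free_inv4 (hf : Inv4 f) (U : Set V) (h : (m - k) % 4 = 0) :
    Ex (free U m) f = Ex (free U k) f := by
  have e : m = k + 4 * ((m - k) / 4) := by omega
  rw [e, ← Ex_free_shift]
  exact Ex_congr fun H _ => hf.shift _ H

/-! ### Flipping a union of clusters -/

theorem ab_flipOn (j : ℤ) (R : Set V) (H : Cfg) : ab j (flipOn j R H) = ab j H := by
  funext x
  by_cases hx : x ∈ R
  · simp only [ab, flipOn, pw_in _ _ hx]
    rw [← abs_neg]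
    congr 1
    ring
  · simp only [ab, flipOn, pw_out _ _ hx]

theorem flipOn_flipOn (j : ℤ) (R : Set V) (H : Cfg) : flipOn j R (flipOn j R H) = H := by
  funext x
  by_cases hx : x ∈ R
  · simp only [flipOn, pw_in _ _ hx]
    ring
  · simp only [flipOn, pw_out _ _ hx]

theorem Lip.flipOn {R : Set V} (h : Lip H) (hR : Shut j R H) : Lip (flipOn j R H) := by
  refine Lip.pw (fun x y hxy => ?_) h fun a ha b hb hab => ?_
  · have := h x y hxy
    rw [abs_le] at this ⊢
    omega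
  · obtain ⟨h1, h2⟩ := hR a ha b hb hab
    rw [ab_eq_one] at h1 h2
    rw [abs_le]
    omega

theorem bij_flip {R : Cfg → Set V} (hR : ∀ H ∈ S, ∀ K ∈ S, ab j K = ab j H → R K = R H)
    (hS : ∀ H ∈ S, flipOn j (R H) H ∈ S) : BijOn (fun H => flipOn j (R H) H) S S := by
  have key : ∀ H ∈ S, flipOn j (R (flipOn j (R H) H)) (flipOn j (R H) H) = H := by
    intro H h
    rw [hR H h _ (hS H h) (ab_flipOn _ _ _), flipOn_flipOn]
  exact InvOn.bijOn (f' := fun H => flipOn j (R H) H) ⟨key, key⟩ hS hS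

end Vale.Agent.P153
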